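import Vale.Agent.P199.Defs

/-! # P199: Newton recursion, reduced characteristic polynomial, expressions. -/

namespace Vale.Agent.P199

variable {A A' : Type} [Ring A] [Algebra ℚ A] [Ring A'] [Algebra ℚ A']

theorem newt_eq (p : ℕ → A) (k : ℕ) : newt p k = if k = 0 then 1 else
    (k : ℚ)⁻¹ • ((-1) ^ (k + 1) * ∑ j : Fin k, (-1) ^ (j : ℕ) * newt p j * p (k - j)) := by
  unfold newt
  rw [Nat.strongRec_eq]

theorem newt_zero (p : ℕ → A) : newt p 0 = 1 := by
  rw [newt_eq, if_pos rfl]

theorem newt_map (φ : A →ₐ[ℚ] A') (p : ℕ → A) (k : ℕ) :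
    φ (newt p k) = newt (fun i => φ (p i)) k := by
  induction k using Nat.strong_induction_on with
  | _ k ih =>
    rw [newt_eq p, newt_eq (fun i => φ (p i))]
    split_ifs with hk
    · exact map_one φ
    · rw [map_smul, map_mul, map_sum, map_pow, map_neg, map_one]
      congr 2
      refine Finset.sum_congr rfl fun j _ => ?_
      rw [map_mul, map_mul, map_pow, map_neg, map_one, ih j j.2]

theorem newt_mem (S : Subalgebra ℚ A) {p : ℕ → A} (h : ∀ i, p i ∈ S) (k : ℕ) : newt p k ∈ S := by
  induction k using Nat.strong_induction_on with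
  | _ k ih =>
    rw [newt_eq p]
    split_ifs with hk
    · exact S.one_mem
    · refine S.smul_mem (S.mul_mem (S.pow_mem (S.neg_mem S.one_mem) _) (S.sum_mem fun j _ => ?_)) _
      exact S.mul_mem (S.mul_mem (S.pow_mem (S.neg_mem S.one_mem) _) (ih j j.2)) (h _)

theorem chp_map (φ : A →ₐ[ℚ] A') {t : A → A} {t' : A' → A'} (h : ∀ a, φ (t a) = t' (φ a))
    (m : ℕ) (a : A) : φ (chp t m a) = chp t' m (φ a) := by
  unfold chp
  rw [map_sum]
  refine Finset.sum_congr rfl fun k _ => ?_
  rw [map_mul, map_mul, map_pow, map_neg, map_one, newt_map, map_pow]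
  congr 3
  funext i
  rw [map_mul, map_natCast, h, map_pow]

theorem chp_mem (S : Subalgebra ℚ A) {t : A → A} (h : ∀ a ∈ S, t a ∈ S) (m : ℕ) {a : A}
    (ha : a ∈ S) : chp t m a ∈ S := by
  unfold chp
  refine S.sum_mem fun k _ => ?_
  refine S.mul_mem (S.mul_mem (S.pow_mem (S.neg_mem S.one_mem) _) (newt_mem S (fun i => ?_) k))
    (S.pow_mem ha _)
  exact S.mul_mem (natCast_mem S m) (h _ (S.pow_mem ha _))

theorem Expr.ev_map (φ : A →ₐ[ℚ] A') {t : A → A} {t' : A' → A'} (h : ∀ a, φ (t a) = t' (φ a))
    (x : Fin 5 → A) (e : Expr) : φ (e.ev t x) = e.ev t' fun g => φ (x g) := by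
  induction e with
  | gen g => rfl
  | const q => exact φ.commutes q
  | add a b iha ihb => simp only [Expr.ev, map_add, iha, ihb]
  | mul a b iha ihb => simp only [Expr.ev, map_mul, iha, ihb]
  | tr a iha => simp only [Expr.ev, h, iha]

theorem Expr.ev_mem (S : Subalgebra ℚ A) {t : A → A} (h : ∀ a ∈ S, t a ∈ S) {x : Fin 5 → A}
    (hx : ∀ g, x g ∈ S) (e : Expr) : e.ev t x ∈ S := by
  induction e with
  | gen g => exact hx g
  | const q => exact S.algebraMap_mem q
  | add a b iha ihb => exact S.add_mem iha ihb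
  | mul a b iha ihb => exact S.mul_mem iha ihb
  | tr a iha => exact h _ iha

/-- A numerical code of expressions. -/
def Expr.code : Expr → ℕ
  | .gen g => Nat.pair 0 g
  | .const q => Nat.pair 1 (Encodable.encode q)
  | .add a b => Nat.pair 2 (Nat.pair a.code b.code)
  | .mul a b => Nat.pair 3 (Nat.pair a.code b.code)
  | .tr a => Nat.pair 4 a.code

theorem Expr.code_inj : Function.Injective Expr.code := by
  intro a
  induction a with
  | gen g =>
    intro b h
    cases b <;> simp [Expr.code, Nat.pair_eq_pair] at h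
    rw [Fin.ext h]
  | const q =>
    intro b h
    cases b <;> simp [Expr.code, Nat.pair_eq_pair] at h
    rw [h]
  | add a b iha ihb =>
    intro c h
    cases c <;> simp [Expr.code, Nat.pair_eq_pair] at h
    rw [iha h.1, ihb h.2]
  | mul a b iha ihb =>
    intro c h
    cases c <;> simp [Expr.code, Nat.pair_eq_pair] at h
    rw [iha h.1, ihb h.2]
  | tr a iha =>
    intro c h
    cases c <;> simp [Expr.code, Nat.pair_eq_pair] at h
    rw [iha h]

theorem Expr.exists_surj : ∃ f : ℕ → Expr, Function.Surjective f := by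
  have : Countable Expr := ⟨⟨Expr.code, Expr.code_inj⟩⟩
  have : Nonempty Expr := ⟨.const 0⟩
  exact exists_surjective_nat Expr

/-- Newton identities and Vieta: uses `MvPolynomial.mul_esymm_eq_sum`. -/
theorem nodal_eq_newt {B β : Type} [CommRing B] [Algebra ℚ B] [Fintype β] (l : β → B) :
    Lagrange.nodal Finset.univ l = ∑ k ∈ Finset.range (Fintype.card β + 1),
      Polynomial.C ((-1) ^ k * newt (fun i => ∑ b, l b ^ i) k) *
        Polynomial.X ^ (Fintype.card β - k) := by
  classical
  have key : ∀ k, newt (fun i => ∑ b, l b ^ i) k = (Finset.univ.val.map l).esymm k := by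
    intro k
    induction k using Nat.strong_induction_on with
    | _ k ih =>
      rw [newt_eq]
      split_ifs with hk
      · subst hk
        simp [Multiset.esymm]
      · have h1 := congrArg (MvPolynomial.aeval (R := ℚ) l) (MvPolynomial.mul_esymm_eq_sum β ℚ k)
        rw [map_mul, map_natCast, MvPolynomial.aeval_esymm_eq_multiset_esymm, map_mul, map_pow,
          map_neg, map_one, map_sum] at h1
        have h2 : ∑ j : Fin k, (-1 : B) ^ (j : ℕ) * newt (fun i => ∑ b, l b ^ i) j *
            (∑ b, l b ^ (k - j)) = ∑ a ∈ Finset.HasAntidiagonal.antidiagonal k with a.1 < k,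
              MvPolynomial.aeval (R := ℚ) l ((-1) ^ a.1 * MvPolynomial.esymm β ℚ a.1 *
                MvPolynomial.psum β ℚ a.2) := by
          rw [Finset.sum_filter, Finset.Nat.sum_antidiagonal_eq_sum_range_succ_mk,
            Finset.sum_range_succ, if_neg (lt_irrefl k), add_zero, Finset.sum_range]
          refine Finset.sum_congr rfl fun j _ => ?_
          rw [if_pos j.2, ih j j.2, map_mul, map_mul, map_pow, map_neg, map_one,
            MvPolynomial.aeval_esymm_eq_multiset_esymm]
          simp [MvPolynomial.psum]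
        rw [h2, ← h1, ← nsmul_eq_mul, ← Nat.cast_smul_eq_nsmul ℚ, smul_smul,
          inv_mul_cancel₀ (Nat.cast_ne_zero.2 hk), one_smul]
  have h := Multiset.prod_X_sub_X_eq_sum_esymm (Finset.univ.val.map l)
  rw [Multiset.map_map, Multiset.card_map, Finset.card_val, Finset.card_univ] at h
  rw [Lagrange.nodal_eq, Finset.prod_eq_multiset_prod]
  refine h.trans (Finset.sum_congr rfl fun k _ => ?_)
  rw [key, map_mul, map_pow, map_neg, map_one, mul_assoc]

end Vale.Agent.P199
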