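import Vale.Agent.P199.Pauli
import Vale.Agent.P199.Newt

/-! # P199: block scalar matrices.

Plan. `co_diag_blk`: if `pa μ ≠ 0` all terms vanish, otherwise pair `c` with `c + Pi.single i 1`
for `i ∉ T` with `pb μ i ≠ 0`. `mul_co_diag`: every block has `2 ^ (r - card T)` rows.
`chp_conj`: with `M = G θ adj G`, `θ' = det G • θ`: `M ^ i * G = G * θ' ^ i`, traces agree after
cancelling `det G`, `chp M * G = G * chp θ' = 0` by `nodal_eq_newt`.
`chp_lin`: `(θ + η) ^ k = θ ^ k + η_k`, `η_k c c' = s_k (l c) (l c') * η c c'` with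
`s_(k+1) x y = x ^ k + s_k x y * y`, `s_k x x = k * x ^ (k - 1)`; traces are unchanged because the
trace of a block scalar matrix times `η` vanishes; use
`Lagrange.eval_nodal_derivative_eval_node_eq`. -/

namespace Vale.Agent.P199

open Matrix

variable {r : ℕ} {B : Type} [CommRing B] [Algebra ℚ B] (T : Finset (Fin r))

theorem InH.inP {T : Finset (Fin r)} {μ : Gp r} (h : InH T μ) : InP T μ := by
  exact fun i _ => congrFun h.1 i

theorem blk_card_mul : 2 ^ T.card * Fintype.card ({i // i ∉ T} → ZMod 2) = 2 ^ r := by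
  rw [← card_Cv (r := r), Fintype.card_congr (Equiv.piEquivPiSubtypeProd (· ∈ T) fun _ => ZMod 2),
    Fintype.card_prod]
  simp

theorem blk_sum {M : Type} [AddCommMonoid M] (φ : (T → ZMod 2) → M) :
    ∑ c : Cv r, φ (blk T c) = Fintype.card ({i // i ∉ T} → ZMod 2) • ∑ β, φ β := by
  rw [← (Equiv.piEquivPiSubtypeProd (· ∈ T) fun _ => ZMod 2).symm.sum_comp, Fintype.sum_prod_type,
    Finset.smul_sum]
  refine Finset.sum_congr rfl fun β _ => ?_
  rw [← Finset.card_univ, ← Finset.sum_const]
  refine Finset.sum_congr rfl fun γ _ => congrArg φ ?_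
  exact congrArg Prod.fst
    ((Equiv.piEquivPiSubtypeProd (· ∈ T) fun _ => ZMod 2).apply_symm_apply (β, γ))

theorem blk_sum_Gp {M : Type} [AddCommMonoid M] (f : Gp r → M) :
    ∑ μ, f μ = ∑ a : Cv r, ∑ b : Cv r, f (Sum.elim a b) := by
  rw [← (Equiv.sumArrowEquivProdArrow (Fin r) (Fin r) (ZMod 2)).symm.sum_comp,
    Fintype.sum_prod_type]
  rfl

theorem blk_inP_iff {T : Finset (Fin r)} {μ : Gp r} : InP T μ ↔ blk T (pa μ) = 0 :=
  ⟨fun h => funext fun i => h i i.2, fun h i hi => congrFun h ⟨i, hi⟩⟩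

theorem blk_add_pa {T : Finset (Fin r)} {μ : Gp r} (h : InP T μ) (c : Cv r) :
    blk T (c + pa μ) = blk T c := by
  funext i
  change c i + pa μ i = c i
  rw [h i i.2, add_zero]

open Classical in
theorem card_InP : (Finset.univ.filter fun μ : Gp r => InP T μ).card * 2 ^ T.card =
    2 ^ r * 2 ^ r := by
  rw [Finset.card_filter, blk_sum_Gp]
  have h : ∀ a b : Cv r, (if InP T (Sum.elim a b) then 1 else 0 : ℕ) =
      if blk T a = 0 then 1 else 0 := fun a b => if_congr blk_inP_iff rfl rfl
  simp only [h]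
  rw [Finset.sum_comm, blk_sum T fun β => if β = 0 then 1 else 0, Finset.sum_ite_eq',
    if_pos (Finset.mem_univ _), Finset.sum_const, Finset.card_univ, card_Cv, smul_eq_mul,
    smul_eq_mul, mul_one, mul_assoc, mul_comm _ (2 ^ T.card), blk_card_mul]

theorem card_blk : Fintype.card (T → ZMod 2) = 2 ^ T.card := by
  simp

theorem blk_surjective : Function.Surjective (blk T) := by
  intro β
  exact ⟨(Equiv.piEquivPiSubtypeProd (· ∈ T) fun _ => ZMod 2).symm (β, 0), congrArg Prod.fst
    ((Equiv.piEquivPiSubtypeProd (· ∈ T) fun _ => ZMod 2).apply_symm_apply (β, 0))⟩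

theorem co_diag_blk (φ : (T → ZMod 2) → B) {μ : Gp r} (h : ¬InH T μ) :
    co (diagonal fun c => φ (blk T c)) μ = 0 := by
  unfold co
  by_cases ha : pa μ = 0
  · obtain ⟨i, hi, hb⟩ : ∃ i ∉ T, pb μ i ≠ 0 := by
      by_contra hc
      push Not at hc
      exact h ⟨ha, hc⟩
    have hb1 : pb μ i = 1 := by
      generalize pb μ i = x at hb
      revert x
      decide
    simp only [ha, add_zero, diagonal_apply_eq]
    have h1 := Equiv.sum_comp (Equiv.addRight (Pi.single i 1 : Cv r))
      fun c => sg (pb μ ⬝ᵥ c) • φ (blk T c)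
    have h2 : ∀ c : Cv r, blk T (c + Pi.single i 1) = blk T c := fun c => by
      funext j
      change c j + (Pi.single i 1 : Cv r) j = c j
      rw [Pi.single_eq_of_ne (fun e : (j : Fin r) = i => hi (e ▸ j.2)), add_zero]
    simp only [Equiv.coe_addRight, h2, dotProduct_add, dotProduct_single, hb1, mul_one, sg_add,
      sg_one, mul_neg, neg_smul, Finset.sum_neg_distrib] at h1
    generalize ∑ c : Cv r, sg (pb μ ⬝ᵥ c) • φ (blk T c) = S at h1
    have h3 : S = (2 : ℚ)⁻¹ • (S + S) := by
      rw [← two_smul ℚ S, inv_smul_smul₀ two_ne_zero]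
    rw [h3, neg_eq_iff_add_eq_zero.1 h1, smul_zero, smul_zero]
  · rw [Finset.sum_eq_zero fun c _ => ?_, smul_zero]
    rw [diagonal_apply_ne _ fun e => ha (add_eq_left.1 e), smul_zero]

open Classical in
theorem pm_H (y : Gp r → B) :
    pm (fun μ => if InH T μ then y μ else 0) = diagonal fun c => lamb T y (blk T c) := by
  ext c' c
  rw [pm, of_apply]
  by_cases e : c' = c
  · subst e
    rw [diagonal_apply_eq, lamb, Finset.sum_filter, blk_sum_Gp, sub_self]
    refine Eq.trans ?_ (Finset.sum_eq_single (0 : Cv r) ?_ ?_).symm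
    · refine Finset.sum_congr rfl fun b _ => ?_
      split_ifs with h
      · congr 2
        rw [dotProduct, ← Finset.sum_subset (Finset.subset_univ T) fun i _ hi => by
          rw [show b i = 0 from h.2 i hi, zero_mul], ← Finset.sum_coe_sort]
        rfl
      · rw [smul_zero]
    · exact fun a _ ha => Finset.sum_eq_zero fun b _ => if_neg fun h => ha h.1
    · exact fun h => absurd (Finset.mem_univ _) h
  · rw [diagonal_apply_ne _ e]
    refine Finset.sum_eq_zero fun b _ => ?_
    rw [if_neg fun h => e (sub_eq_zero.1 h.1), smul_zero]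

theorem lamb_co_diag (φ : (T → ZMod 2) → B) :
    lamb T (co (diagonal fun c => φ (blk T c))) = φ := by
  classical
  have h1 := pm_H T (co (diagonal fun c => φ (blk T c)))
  have h2 : (fun μ => if InH T μ then co (diagonal fun c => φ (blk T c)) μ else 0) =
      co (diagonal fun c => φ (blk T c)) := by
    funext μ
    split_ifs with h
    · rfl
    · exact (co_diag_blk T φ h).symm
  rw [h2, pm_co] at h1
  funext β
  obtain ⟨c, rfl⟩ := blk_surjective T β
  exact (congrFun (diagonal_injective h1) c).symm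

theorem lamb_map {B' : Type} [CommRing B'] [Algebra ℚ B'] (ψ : B →ₐ[ℚ] B') (y : Gp r → B)
    (β : T → ZMod 2) : ψ (lamb T y β) = lamb T (fun μ => ψ (y μ)) β := by
  classical
  simp only [lamb, map_sum, map_smul]

theorem lamb_mem (J : Subalgebra ℚ B) {y : Gp r → B} (h : ∀ μ, InH T μ → y μ ∈ J)
    (β : T → ZMod 2) : lamb T y β ∈ J := by
  classical
  exact J.sum_mem fun μ hμ => J.smul_mem (h μ (Finset.mem_filter.1 hμ).2) _

theorem mul_co_diag (φ : (T → ZMod 2) → B) :
    ((2 ^ T.card : ℕ) : B) * co (diagonal fun c => φ (blk T c)) 0 = ∑ β, φ β := by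
  rw [co_zero_eq_trace, trace_diagonal, blk_sum, mul_smul_comm, ← nsmul_eq_mul, smul_smul,
    blk_card_mul, ← Nat.cast_smul_eq_nsmul ℚ, smul_smul]
  push_cast
  rw [inv_mul_cancel₀ (by positivity), one_smul]

theorem blk_chp_eq (l : (T → ZMod 2) → B) (a : Mat r B)
    (h : ∀ i : ℕ, co (a ^ i) 0 = co (diagonal (fun c => l (blk T c)) ^ i) 0) :
    chp mtr (2 ^ T.card) a = Polynomial.aeval a (Lagrange.nodal Finset.univ l) := by
  have h1 : (fun i => ((2 ^ T.card : ℕ) : Mat r B) * mtr (a ^ i)) =
      fun i => IsScalarTower.toAlgHom ℚ B (Mat r B) (∑ β, l β ^ i) := by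
    funext i
    rw [← mul_co_diag T fun β => l β ^ i, mtr, h, diagonal_pow, map_mul, map_natCast]
    rfl
  rw [nodal_eq_newt, card_blk, chp, map_sum, h1]
  refine Finset.sum_congr rfl fun k _ => ?_
  rw [← newt_map]
  simp

omit [Algebra ℚ B] in
theorem blk_aeval_diag (d : Cv r → B) (p : Polynomial B) :
    Polynomial.aeval (diagonal d) p = diagonal fun c => p.eval (d c) := by
  have h := Polynomial.aeval_algHom_apply (diagonalAlgHom (n := Cv r) (α := B) B) d p
  rw [diagonalAlgHom_apply, diagonalAlgHom_apply] at h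
  rw [h]
  congr 1
  funext c
  exact (Polynomial.aeval_algHom_apply (Pi.evalAlgHom B (fun _ => B) c) d p).symm

omit [Algebra ℚ B] in
theorem blk_aeval_nodal (l : (T → ZMod 2) → B) :
    Polynomial.aeval (diagonal fun c => l (blk T c)) (Lagrange.nodal Finset.univ l) = 0 := by
  rw [blk_aeval_diag, ← diagonal_zero]
  congr 1
  funext c
  exact Lagrange.eval_nodal_at_node (Finset.mem_univ _)

theorem chp_conj [IsDomain B] (G : Mat r B) (hG : G.det ≠ 0) (l : (T → ZMod 2) → B) :
    chp mtr (2 ^ T.card) (G * diagonal (fun c => l (blk T c)) * G.adjugate) = 0 := by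
  have h0 : G * diagonal (fun c => G.det * l (blk T c)) =
      G * diagonal (fun c => l (blk T c)) * G.adjugate * G := by
    rw [mul_assoc _ G.adjugate, adjugate_mul, mul_assoc, mul_smul_comm, mul_one, ← diagonal_smul]
    rfl
  generalize G * diagonal (fun c => l (blk T c)) * G.adjugate = M at h0
  have h1 : ∀ p : Polynomial B, G * Polynomial.aeval (diagonal fun c => G.det * l (blk T c)) p =
      Polynomial.aeval M p * G := by
    intro p
    induction p using Polynomial.induction_on' with
    | add p q hp hq => rw [map_add, map_add, mul_add, add_mul, hp, hq]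
    | monomial n a =>
      rw [Polynomial.aeval_monomial, Polynomial.aeval_monomial, ← Algebra.smul_def,
        ← Algebra.smul_def, mul_smul_comm, smul_mul_assoc, (SemiconjBy.pow_right h0 n).eq]
  have h2 : ∀ N N' : Mat r B, G * N = N' * G → G.det • N' = G * N * G.adjugate := by
    intro N N' h
    rw [h, mul_assoc, mul_adjugate, mul_smul_comm, mul_one]
  rw [blk_chp_eq T (fun β => G.det * l β) M fun i => ?_]
  · have h3 := h2 _ _ (h1 (Lagrange.nodal Finset.univ fun β => G.det * l β))
    rw [blk_aeval_nodal T fun β => G.det * l β, mul_zero, zero_mul] at h3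
    ext c c'
    exact (mul_eq_zero.1 (congrFun (congrFun h3 c) c')).resolve_left hG
  · have h3 := congrArg trace (h2 _ _ (SemiconjBy.pow_right h0 i).eq)
    rw [trace_mul_comm, ← mul_assoc, adjugate_mul, smul_mul_assoc, one_mul, trace_smul,
      trace_smul, smul_eq_mul, smul_eq_mul] at h3
    rw [co_zero_eq_trace, co_zero_eq_trace, mul_left_cancel₀ hG h3]

omit [Algebra ℚ B] in
theorem blk_lin (d : Cv r → B) (η : Mat r B) (hη : ∀ a b c e, η a b * η c e = 0)
    (p : Polynomial B) : ∃ s : B → B → B, (∀ x, s x x = p.derivative.eval x) ∧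
      Polynomial.aeval (diagonal d + η) p =
        Polynomial.aeval (diagonal d) p + of fun c c' => s (d c) (d c') * η c c' := by
  induction p using Polynomial.induction_on with
  | C a =>
    refine ⟨fun _ _ => 0, fun x => by simp, ?_⟩
    ext c c'
    simp
  | add p q hp hq =>
    obtain ⟨s, h1, h2⟩ := hp
    obtain ⟨t, h3, h4⟩ := hq
    refine ⟨fun x y => s x y + t x y, fun x => by simp [h1, h3], ?_⟩
    rw [map_add, map_add, h2, h4]
    ext c c'
    simp only [Matrix.add_apply, of_apply]
    ring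
  | monomial n a ih =>
    rw [pow_succ, ← mul_assoc]
    generalize Polynomial.C a * Polynomial.X ^ n = p at ih
    obtain ⟨s, h1, h2⟩ := ih
    refine ⟨fun x y => p.eval x + s x y * y, fun x => by simp [h1, add_comm], ?_⟩
    have h3 : (of fun c c' => s (d c) (d c') * η c c') * η = 0 := by
      ext c c'
      simp only [mul_apply, of_apply, mul_assoc, hη, mul_zero, Finset.sum_const_zero,
        Matrix.zero_apply]
    rw [map_mul, map_mul, Polynomial.aeval_X, Polynomial.aeval_X, h2, add_mul, mul_add, mul_add,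
      h3, add_zero, add_assoc, add_right_inj, blk_aeval_diag]
    ext c c'
    simp only [Matrix.add_apply, of_apply, diagonal_mul, mul_diagonal]
    ring

theorem blk_co_P {T : Finset (Fin r)} {μ : Gp r} (hμ : InP T μ) {M N : Mat r B} {a : B}
    (h : ∀ c c', blk T c = blk T c' → M c c' = a * N c c') : co M μ = a * co N μ := by
  unfold co
  rw [mul_smul_comm, Finset.mul_sum]
  congr 1
  refine Finset.sum_congr rfl fun c _ => ?_
  rw [h _ _ (blk_add_pa hμ c), mul_smul_comm]

theorem blk_co_trace (ψ : (T → ZMod 2) → B) {y : Gp r → B} (hy : ∀ μ, InH T μ → y μ = 0) :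
    co (diagonal (fun c => ψ (blk T c)) * pm y) 0 = 0 := by
  rw [co_mul, co_pm, conv]
  refine Finset.sum_eq_zero fun μ _ => ?_
  by_cases h : InH T μ
  · rw [zero_sub, neg_eq_of_add_eq_zero_left (add_self_Gp μ), hy μ h, mul_zero, smul_zero]
  · rw [co_diag_blk T ψ h, zero_mul, smul_zero]

theorem chp_lin (l : (T → ZMod 2) → B) (y : Gp r → B) (hy : ∀ μ, InH T μ → y μ = 0)
    (hyy : ∀ μ ν, y μ * y ν = 0) {μ : Gp r} (hμ : InP T μ) :
    co (diagonal (fun c => ∏ β ∈ Finset.univ.erase (blk T c), dd l β) *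
      chp mtr (2 ^ T.card) (diagonal (fun c => l (blk T c)) + pm y)) μ = (∏ β, dd l β) * y μ := by
  have hη : ∀ a b c e, pm y a b * pm y c e = 0 := by
    intro a b c e
    simp only [pm, of_apply, Finset.sum_mul_sum, smul_mul_smul_comm, hyy, smul_zero,
      Finset.sum_const_zero]
  rw [blk_chp_eq T l _ fun i => ?_]
  · obtain ⟨s, h1, h2⟩ := blk_lin (fun c => l (blk T c)) (pm y) hη (Lagrange.nodal Finset.univ l)
    rw [h2, blk_aeval_nodal, zero_add, blk_co_P hμ (N := pm y) (a := ∏ β, dd l β), co_pm]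
    intro c c' h
    rw [diagonal_mul, of_apply, ← h, h1,
      Lagrange.eval_nodal_derivative_eval_node_eq (Finset.mem_univ _), Lagrange.eval_nodal,
      ← mul_assoc, ← Finset.prod_erase_mul _ _ (Finset.mem_univ (blk T c))]
    rfl
  · obtain ⟨s, -, h2⟩ := blk_lin (fun c => l (blk T c)) (pm y) hη (Polynomial.X ^ i)
    rw [map_pow, map_pow, Polynomial.aeval_X, Polynomial.aeval_X] at h2
    have h3 := blk_co_trace T (fun β => s (l β) (l β)) hy
    rw [co_zero_eq_trace] at h3
    rw [h2, co_add, Pi.add_apply, add_eq_left, co_zero_eq_trace, ← h3]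
    congr 1
    simp only [trace, diag_apply, of_apply, diagonal_mul]

theorem co_comm_blk (l : (T → ZMod 2) → B) {g : Gp r → B} (hg : ∀ μ, InP T μ → g μ = 0)
    {μ : Gp r} (hμ : InP T μ) :
    co (pm g * diagonal (fun c => l (blk T c)) - diagonal (fun c => l (blk T c)) * pm g) μ = 0 := by
  rw [blk_co_P hμ (N := pm g) (a := 0), zero_mul]
  intro c c' h
  rw [Matrix.sub_apply, mul_diagonal, diagonal_mul, h]
  ring

theorem exists_comm_blk (l : (T → ZMod 2) → ℚ) (hl : Function.Injective l) {y : Gp r → ℚ}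
    (hy : ∀ μ, InP T μ → y μ = 0) : ∃ g : Gp r → ℚ, (∀ μ, InP T μ → g μ = 0) ∧
      pm g * diagonal (fun c => l (blk T c)) - diagonal (fun c => l (blk T c)) * pm g = pm y := by
  have h0 : ∀ c c', blk T c = blk T c' → pm y c c' = 0 := fun c c' h => by
    rw [pm, of_apply]
    refine Finset.sum_eq_zero fun b _ => ?_
    rw [hy (Sum.elim (c - c') b) fun i hi => sub_eq_zero.2 (congrFun h ⟨i, hi⟩), smul_zero]
  refine ⟨co (of fun c c' => pm y c c' / (l (blk T c') - l (blk T c))), fun μ hμ => ?_, ?_⟩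
  · rw [blk_co_P hμ (N := 0) (a := 0), zero_mul]
    intro c c' h
    rw [of_apply, h0 c c' h, zero_div, zero_mul]
  · rw [pm_co]
    ext c c'
    rw [Matrix.sub_apply, mul_diagonal, diagonal_mul, of_apply]
    by_cases h : blk T c = blk T c'
    · rw [h0 c c' h]
      simp
    · have h1 : l (blk T c') - l (blk T c) ≠ 0 := sub_ne_zero.2 fun e => h (hl e).symm
      field_simp

end Vale.Agent.P199
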