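import Vale.Agent.P199.Defs

/-! # P199: weighted components, graded ideals, prime filtrations. -/

namespace Vale.Agent.P199

open MvPolynomial

section General

variable {σ σ' M : Type} [AddCommMonoid M]

theorem cmp_of_hg {w : σ → M} {f : Pol σ} {D : M} (h : Hg w f D) : cmp w D f = f :=
  h.weightedHomogeneousComponent_same

theorem cmp_of_hg_ne {w : σ → M} {f : Pol σ} {D E : M} (h : Hg w f D) (hne : E ≠ D) :
    cmp w E f = 0 :=
  h.weightedHomogeneousComponent_ne E hne

theorem hg_cmp (w : σ → M) (D : M) (f : Pol σ) : Hg w (cmp w D f) D :=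
  weightedHomogeneousComponent_isWeightedHomogeneous D f

theorem support_cmp_subset (w : σ → M) (D : M) (f : Pol σ) : (cmp w D f).support ⊆ f.support := by
  classical
  rw [support_weightedHomogeneousComponent]
  exact Finset.filter_subset _ _

theorem sum_cmp_of_subset (w : σ → M) (f : Pol σ) (s : Finset M)
    (hs : ∀ d ∈ f.support, Finsupp.weight w d ∈ s) : ∑ D ∈ s, cmp w D f = f := by
  classical
  ext d
  simp only [coeff_sum, coeff_weightedHomogeneousComponent]
  rw [Finset.sum_ite_eq]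
  split_ifs with h
  · rfl
  · by_contra h0
    exact h (hs d (mem_support_iff.2 fun h1 => h0 h1.symm))

/-- A polynomial is the sum of its components. -/
theorem exists_sum_cmp (w : σ → M) (f : Pol σ) : ∃ s : Finset M, f = ∑ D ∈ s, cmp w D f := by
  classical
  exact ⟨f.support.image (Finsupp.weight w),
    (sum_cmp_of_subset w f _ fun d hd => Finset.mem_image_of_mem _ hd).symm⟩

theorem sum_cmp [Fintype M] (w : σ → M) (f : Pol σ) : ∑ D, cmp w D f = f :=
  sum_cmp_of_subset w f _ fun _ _ => Finset.mem_univ _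

theorem cmp_mul_add [IsLeftCancelAdd M] {w : σ → M} {g : Pol σ} {a : M} (hg : Hg w g a) (D : M)
    (f : Pol σ) : cmp w (a + D) (g * f) = g * cmp w D f := by
  classical
  have h := sum_cmp_of_subset w f (insert D (f.support.image (Finsupp.weight w)))
    fun d hd => Finset.mem_insert_of_mem (Finset.mem_image_of_mem _ hd)
  conv_lhs => rw [← h, Finset.mul_sum, map_sum]
  rw [Finset.sum_eq_single D]
  · exact cmp_of_hg (hg.mul (hg_cmp w D f))
  · intro E _ hE
    exact cmp_of_hg_ne (hg.mul (hg_cmp w E f)) fun h => hE (add_left_cancel h).symm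
  · intro h
    exact absurd (Finset.mem_insert_self _ _) h

theorem cmp_mul_of_ne {w : σ → M} {g : Pol σ} {a D : M} (hg : Hg w g a) (h : ∀ E, a + E ≠ D)
    (f : Pol σ) : cmp w D (g * f) = 0 := by
  obtain ⟨s, hs⟩ := exists_sum_cmp w f
  rw [hs, Finset.mul_sum, map_sum]
  exact Finset.sum_eq_zero fun E _ => cmp_of_hg_ne (hg.mul (hg_cmp w E f)) (h E).symm

theorem mem_of_cmp_mem (w : σ → M) {I : Ideal (Pol σ)} {f : Pol σ} (h : ∀ D, cmp w D f ∈ I) :
    f ∈ I := by
  obtain ⟨s, hs⟩ := exists_sum_cmp w f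
  rw [hs]
  exact I.sum_mem fun D _ => h D

theorem exists_cmp_ne_zero (w : σ → M) {f : Pol σ} (h : f ≠ 0) : ∃ D, cmp w D f ≠ 0 := by
  by_contra h0
  push Not at h0
  obtain ⟨s, hs⟩ := exists_sum_cmp w f
  exact h (hs.trans (Finset.sum_eq_zero fun D _ => h0 D))

theorem mem_supported_iff_support {Y : Set σ} {f : Pol σ} :
    f ∈ supported ℚ Y ↔ ∀ d ∈ f.support, ∀ i ∈ d.support, i ∈ Y := by
  classical
  rw [mem_supported]
  constructor
  · intro h d hd i hi
    exact h (Finset.mem_coe.2 ((mem_vars_iff_mem_support i).2 ⟨d, hd, hi⟩))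
  · intro h i hi
    obtain ⟨d, hd, hi⟩ := (mem_vars_iff_mem_support i).1 (Finset.mem_coe.1 hi)
    exact h d hd i hi

theorem cmp_supported (w : σ → M) (D : M) {Y : Set σ} {f : Pol σ} (h : f ∈ supported ℚ Y) :
    cmp w D f ∈ supported ℚ Y :=
  mem_supported_iff_support.2 fun d hd =>
    mem_supported_iff_support.1 h d (support_cmp_subset w D f hd)

theorem cmp_comm {N : Type} [AddCommMonoid N] (w : σ → M) (u : σ → N) (D : M) (E : N)
    (f : Pol σ) : cmp w D (cmp u E f) = cmp u E (cmp w D f) := by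
  classical
  ext d
  simp only [coeff_weightedHomogeneousComponent]
  split_ifs <;> rfl

theorem hg_cmp_of_hg {N : Type} [AddCommMonoid N] {w : σ → M} (u : σ → N) {D : M} (E : N)
    {f : Pol σ} (h : Hg w f D) : Hg w (cmp u E f) D := fun _ hd =>
  h (mem_support_iff.1 (support_cmp_subset u E f (mem_support_iff.2 hd)))

theorem cmp_monomial [DecidableEq M] (w : σ → M) (D : M) (d : σ →₀ ℕ) (a : ℚ) :
    cmp w D (monomial d a) = if D = Finsupp.weight w d then monomial d a else 0 :=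
  weightedHomogeneousComponent_of_mem (isWeightedHomogeneous_monomial w d a rfl)

theorem weight_mapDomain (w : σ' → M) (e : σ → σ') (d : σ →₀ ℕ) :
    Finsupp.weight w (d.mapDomain e) = Finsupp.weight (w ∘ e) d := by
  rw [Finsupp.weight_apply, Finsupp.weight_apply, Finsupp.sum_mapDomain_index]
  · rfl
  · simp
  · simp [add_smul]

theorem cmp_rename (w : σ' → M) (e : σ → σ') (D : M) (f : Pol σ) :
    cmp w D (rename e f) = rename e (cmp (w ∘ e) D f) := by
  classical
  induction f using MvPolynomial.induction_on' with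
  | monomial d a =>
    rw [rename_monomial, cmp_monomial, cmp_monomial, weight_mapDomain]
    split_ifs
    · rw [rename_monomial]
    · rw [map_zero]
  | add p q hp hq => simp only [map_add, hp, hq]

theorem cmp_rename_inl (w : σ → M) (w' : σ' → M) (D : M) (f : Pol σ) :
    cmp (Sum.elim w w') D (rename Sum.inl f) = rename Sum.inl (cmp w D f) :=
  cmp_rename _ _ D f

theorem cmp_rename_inr (w : σ → M) (w' : σ' → M) (D : M) (f : Pol σ') :
    cmp (Sum.elim w w') D (rename Sum.inr f) = rename Sum.inr (cmp w' D f) :=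
  cmp_rename _ _ D f

theorem hg_rename_inl {w : σ → M} (w' : σ' → M) {D : M} {f : Pol σ} (h : Hg w f D) :
    Hg (Sum.elim w w') (rename Sum.inl f : Pol (σ ⊕ σ')) D := by
  have := hg_cmp (Sum.elim w w') D (rename Sum.inl f : Pol (σ ⊕ σ'))
  rwa [cmp_rename_inl, cmp_of_hg h] at this

theorem hg_rename_inr (w : σ → M) {w' : σ' → M} {D : M} {f : Pol σ'} (h : Hg w' f D) :
    Hg (Sum.elim w w') (rename Sum.inr f : Pol (σ ⊕ σ')) D := by
  have := hg_cmp (Sum.elim w w') D (rename Sum.inr f : Pol (σ ⊕ σ'))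
  rwa [cmp_rename_inr, cmp_of_hg h] at this

theorem gr_bot (w : σ → M) : Gr w (⊥ : Ideal (Pol σ)) := by
  intro f hf D
  rw [Ideal.mem_bot] at hf
  simp [hf]

theorem gr_top (w : σ → M) : Gr w (⊤ : Ideal (Pol σ)) := fun _ _ _ => Submodule.mem_top

theorem Gr.sup {w : σ → M} {I J : Ideal (Pol σ)} (hI : Gr w I) (hJ : Gr w J) : Gr w (I ⊔ J) := by
  intro f hf D
  obtain ⟨a, ha, b, hb, rfl⟩ := Submodule.mem_sup.1 hf
  rw [map_add]
  exact Submodule.add_mem_sup (hI a ha D) (hJ b hb D)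

theorem gr_span {w : σ → M} {s : Set (Pol σ)} (h : ∀ f ∈ s, ∃ D, Hg w f D) :
    Gr w (Ideal.span s) := by
  classical
  have key : ∀ f ∈ Ideal.span s, ∀ a D, cmp w D (a * f) ∈ Ideal.span s := by
    intro f hf
    induction hf using Submodule.span_induction with
    | mem x hx =>
      intro a D
      obtain ⟨E, hE⟩ := h x hx
      obtain ⟨t, ht⟩ := exists_sum_cmp w a
      rw [ht, Finset.sum_mul, map_sum]
      refine Ideal.sum_mem _ fun F _ => ?_
      have h1 : Hg w (cmp w F a * x) (F + E) := (hg_cmp w F a).mul hE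
      by_cases h2 : D = F + E
      · rw [h2, cmp_of_hg h1]
        exact Ideal.mul_mem_left _ _ (Ideal.subset_span hx)
      · rw [cmp_of_hg_ne h1 h2]
        exact Ideal.zero_mem _
    | zero => intro a D; simp
    | add x y _ _ hx hy =>
      intro a D
      rw [mul_add, map_add]
      exact Ideal.add_mem _ (hx a D) (hy a D)
    | smul b x _ hx =>
      intro a D
      rw [smul_eq_mul, ← mul_assoc]
      exact hx _ D
  intro f hf D
  simpa using key f hf 1 D

theorem gr_span_of_cmp_mem {w : σ → M} {s : Set (Pol σ)}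
    (h : ∀ f ∈ s, ∀ D, cmp w D f ∈ Ideal.span s) : Gr w (Ideal.span s) := by
  have : Ideal.span s = Ideal.span {g | (∃ D, Hg w g D) ∧ g ∈ Ideal.span s} := by
    apply le_antisymm
    · refine Ideal.span_le.2 fun f hf => mem_of_cmp_mem w fun D => ?_
      exact Ideal.subset_span ⟨⟨D, hg_cmp w D f⟩, h f hf D⟩
    · exact Ideal.span_le.2 fun f hf => hf.2
  rw [this]
  exact gr_span fun f hf => hf.1

/-- A generating set closed under taking components spans a graded ideal. -/
theorem gr_span_of_cmp {w : σ → M} {s : Set (Pol σ)} (h : ∀ f ∈ s, ∀ D, cmp w D f ∈ s) :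
    Gr w (Ideal.span s) :=
  gr_span_of_cmp_mem fun f hf D => Ideal.subset_span (h f hf D)

theorem Gr.sup_span {w : σ → M} {I : Ideal (Pol σ)} (hI : Gr w I) {g : Pol σ} {a : M}
    (hg : Hg w g a) : Gr w (I ⊔ Ideal.span {g}) :=
  hI.sup (gr_span fun _ hf => ⟨a, Set.mem_singleton_iff.1 hf ▸ hg⟩)

theorem mem_colon_iff {I : Ideal (Pol σ)} {g f : Pol σ} : f ∈ I.colon {g} ↔ f * g ∈ I := by
  rw [Submodule.mem_colon_singleton, smul_eq_mul]

theorem Gr.colon [IsLeftCancelAdd M] {w : σ → M} {I : Ideal (Pol σ)} (hI : Gr w I) {g : Pol σ}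
    {a : M} (hg : Hg w g a) : Gr w (I.colon {g}) := by
  intro f hf D
  rw [mem_colon_iff] at hf ⊢
  rw [mul_comm, ← cmp_mul_add hg, mul_comm]
  exact hI _ hf _

theorem Gr.exists_hg {w : σ → M} {I J : Ideal (Pol σ)} (hI : Gr w I) (h : ¬I ≤ J) :
    ∃ g a, Hg w g a ∧ g ∈ I ∧ g ∉ J := by
  by_contra h0
  push Not at h0
  exact h fun f hf => mem_of_cmp_mem w fun D => h0 _ D (hg_cmp w D f) (hI f hf D)

theorem Gr.map_rename {w : σ' → M} {e : σ → σ'} {I : Ideal (Pol σ)} (hI : Gr (w ∘ e) I) :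
    Gr w (I.map (rename (R := ℚ) e)) := by
  refine gr_span_of_cmp ?_
  rintro _ ⟨f, hf, rfl⟩ D
  exact ⟨_, hI f hf D, (cmp_rename w e D f).symm⟩

theorem Gr.prodI {w : σ → M} {w' : σ' → M} {I : Ideal (Pol σ)} {I' : Ideal (Pol σ')}
    (hI : Gr w I) (hI' : Gr w' I') : Gr (Sum.elim w w') (prodI I I') := by
  have h1 : Gr (Sum.elim w w' ∘ Sum.inl) I := by rwa [Sum.elim_comp_inl]
  have h2 : Gr (Sum.elim w w' ∘ Sum.inr) I' := by rwa [Sum.elim_comp_inr]
  exact h1.map_rename.sup h2.map_rename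

theorem Gr.comap_inl {w : σ → M} {w' : σ' → M} {P : Ideal (Pol (σ ⊕ σ'))}
    (hP : Gr (Sum.elim w w') P) : Gr w (P.comap (rename (R := ℚ) (Sum.inl : σ → σ ⊕ σ'))) := by
  intro f hf D
  rw [Ideal.mem_comap] at hf ⊢
  rw [← cmp_rename_inl w w']
  exact hP _ hf D

theorem Gen.mono {τ : Finset σ} {I J : Ideal (Pol σ)} (h : Gen τ I) (hIJ : I ≤ J) : Gen τ J :=
  fun f => let ⟨g, hg, h1⟩ := h f; ⟨g, hg, hIJ h1⟩

theorem gen_univ [Fintype σ] (I : Ideal (Pol σ)) : Gen Finset.univ I :=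
  fun f => ⟨f, by simp, by simp⟩

/-- It suffices to check `Gen` on the variables. -/
theorem gen_of_X {τ : Finset σ} {I : Ideal (Pol σ)}
    (h : ∀ v, ∃ g ∈ supported ℚ (τ : Set σ), X v - g ∈ I) : Gen τ I := by
  intro f
  induction f using MvPolynomial.induction_on with
  | C a => exact ⟨C a, Subalgebra.algebraMap_mem _ a, by simp⟩
  | add p q hp hq =>
    obtain ⟨g, hg, h1⟩ := hp
    obtain ⟨g', hg', h2⟩ := hq
    refine ⟨g + g', add_mem hg hg', ?_⟩
    convert I.add_mem h1 h2 using 1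
    ring
  | mul_X p v hp =>
    obtain ⟨g, hg, h1⟩ := hp
    obtain ⟨g', hg', h2⟩ := h v
    refine ⟨g * g', mul_mem hg hg', ?_⟩
    convert I.add_mem (I.mul_mem_right (X v) h1) (I.mul_mem_left g h2) using 1
    ring

theorem Gen.erase [DecidableEq σ] {τ : Finset σ} {I : Ideal (Pol σ)} (h : Gen τ I) {v : σ}
    {g : Pol σ} (hg : g ∈ supported ℚ ((τ.erase v : Finset σ) : Set σ)) (hv : X v - g ∈ I) :
    Gen (τ.erase v) I := by
  have key : ∀ f ∈ supported ℚ (τ : Set σ),
      ∃ g ∈ supported ℚ ((τ.erase v : Finset σ) : Set σ), f - g ∈ I := by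
    intro f hf
    induction hf using Algebra.adjoin_induction with
    | mem x hx =>
      obtain ⟨u, hu, rfl⟩ := hx
      by_cases huv : u = v
      · exact ⟨g, hg, huv ▸ hv⟩
      · exact ⟨X u, X_mem_supported.2 (Finset.mem_coe.2 (Finset.mem_erase.2 ⟨huv, hu⟩)), by simp⟩
    | algebraMap a => exact ⟨_, Subalgebra.algebraMap_mem _ a, by simp⟩
    | add p q _ _ hp hq =>
      obtain ⟨g, hg, h1⟩ := hp
      obtain ⟨g', hg', h2⟩ := hq
      refine ⟨g + g', add_mem hg hg', ?_⟩
      convert I.add_mem h1 h2 using 1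
      ring
    | mul p q _ _ hp hq =>
      obtain ⟨g, hg, h1⟩ := hp
      obtain ⟨g', hg', h2⟩ := hq
      refine ⟨g * g', mul_mem hg hg', ?_⟩
      convert I.add_mem (I.mul_mem_right q h1) (I.mul_mem_left g h2) using 1
      ring
  intro f
  obtain ⟨g1, hg1, h1⟩ := h f
  obtain ⟨g2, hg2, h2⟩ := key g1 hg1
  refine ⟨g2, hg2, ?_⟩
  convert I.add_mem h1 h2 using 1
  ring

theorem Indep.anti {I J : Ideal (Pol σ)} {Y : Finset σ} (h : Indep J Y) (hIJ : I ≤ J) :
    Indep I Y := fun f hf hI => h f hf (hIJ hI)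

theorem Bd.mono {τ : Finset σ} {I J : Ideal (Pol σ)} {c : ℕ} (h : Bd τ I c) (hIJ : I ≤ J) :
    Bd τ J c := fun Y hY hJ => h Y hY (hJ.anti hIJ)

theorem indep_empty {I : Ideal (Pol σ)} (h : I ≠ ⊤) : Indep I ∅ := by
  intro f hf hI
  rw [Finset.coe_empty, supported_empty, Algebra.mem_bot] at hf
  obtain ⟨a, rfl⟩ := hf
  by_contra h0
  have ha : a ≠ 0 := fun ha => h0 (by simp [ha])
  exact h (I.eq_top_of_isUnit_mem hI ((IsUnit.mk0 a ha).map _))

theorem Indep.ne_top {I : Ideal (Pol σ)} {Y : Finset σ} (h : Indep I Y) : I ≠ ⊤ := by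
  rintro rfl
  exact one_ne_zero (h 1 (one_mem _) Submodule.mem_top)

end General

section Filtration

variable {σ ι : Type} [Fintype σ] [Fintype ι]

attribute [local instance] MvPolynomial.weightedGradedAlgebra

omit [Fintype σ] in
theorem isPrime_of_hg_aux {M : Type} [AddCommMonoid M] [LinearOrder M]
    [IsOrderedCancelAddMonoid M] {w : σ → M} {I : Ideal (Pol σ)} (hI : Gr w I) (hne : I ≠ ⊤)
    (h : ∀ a b D E, Hg w a D → Hg w b E → a * b ∈ I → a ∈ I ∨ b ∈ I) : I.IsPrime := by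
  have hH : I.IsHomogeneous (weightedHomogeneousSubmodule ℚ w) := by
    intro D f hf
    have := weightedDecomposition.decompose'_apply ℚ w f D
    change ((weightedDecomposition ℚ w).decompose' f D : Pol σ) ∈ I
    rw [this]
    exact hI f hf D
  refine hH.isPrime_of_homogeneous_mem_or_mem hne ?_
  rintro x y ⟨D, hD⟩ ⟨E, hE⟩ hxy
  exact h x y D E hD hE hxy

omit [Fintype σ] in
theorem isPrime_of_hg {w : σ → ι →₀ ℕ} {I : Ideal (Pol σ)} (hI : Gr w I) (hne : I ≠ ⊤)
    (h : ∀ a b D E, Hg w a D → Hg w b E → a * b ∈ I → a ∈ I ∨ b ∈ I) : I.IsPrime := by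
  classical
  let _ : LinearOrder ι := LinearOrder.lift' (Fintype.equivFin ι) (Fintype.equivFin ι).injective
  exact isPrime_of_hg_aux (M := Lex (ι →₀ ℕ)) (w := w) hI hne h

theorem exists_filt {w : σ → ι →₀ ℕ} {I I' : Ideal (Pol σ)} (hI : Gr w I) (hI' : Gr w I')
    (h : I ≤ I') : ∃ L, Filt w I' I L := by
  induction I using WellFoundedGT.induction with
  | ind I ih =>
    by_cases h1 : I' ≤ I
    · rw [le_antisymm h h1]
      exact ⟨[], Filt.nil⟩
    obtain ⟨g0, a0, hg0, hg0I', hg0I⟩ := hI'.exists_hg h1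
    obtain ⟨_, ⟨g, a, hg, hgI', hgI, rfl⟩, hmax⟩ := set_has_maximal_iff_noetherian.2
      (inferInstance : IsNoetherian (Pol σ) (Pol σ))
      {J | ∃ g a, Hg w g a ∧ g ∈ I' ∧ g ∉ I ∧ J = I.colon {g}} ⟨_, g0, a0, hg0, hg0I', hg0I, rfl⟩
    have hp : (I.colon {g}).IsPrime := by
      refine isPrime_of_hg (hI.colon hg) ?_ ?_
      · intro ht
        have : (1 : Pol σ) ∈ I.colon {g} := ht ▸ Submodule.mem_top
        rw [mem_colon_iff, one_mul] at this
        exact hgI this
      · intro x y D E hx hy hxy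
        by_contra hn
        push Not at hn
        rw [mem_colon_iff] at hxy
        refine hmax (I.colon {y * g}) ⟨y * g, E + a, hy.mul hg, I'.mul_mem_left _ hgI',
          fun h2 => hn.2 (mem_colon_iff.2 h2), rfl⟩ (lt_of_le_of_ne ?_ ?_)
        · intro z hz
          rw [mem_colon_iff] at hz ⊢
          convert I.mul_mem_left y hz using 1
          ring
        · intro h2
          apply hn.1
          rw [h2, mem_colon_iff, ← mul_assoc]
          exact hxy
    have hlt : I < I ⊔ Ideal.span {g} := lt_of_le_of_ne le_sup_left fun h2 =>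
      hgI (h2 ▸ Ideal.mem_sup_right (Ideal.mem_span_singleton_self g))
    obtain ⟨L, hL⟩ := ih _ hlt (hI.sup_span hg)
      (sup_le h ((Ideal.span_singleton_le_iff_mem _).2 hgI'))
    exact ⟨_, Filt.cons hI hg hgI' hp hL⟩

omit [Fintype σ] [Fintype ι] in
theorem Filt.mem {w : σ → ι →₀ ℕ} {I I' : Ideal (Pol σ)} {L : List ((ι →₀ ℕ) × Ideal (Pol σ))}
    (h : Filt w I' I L) {p : (ι →₀ ℕ) × Ideal (Pol σ)} (hp : p ∈ L) :
    p.2.IsPrime ∧ Gr w p.2 ∧ I ≤ p.2 ∧ ∀ ρ, (∀ g ∈ I', ρ * g ∈ I) → ρ ∈ p.2 := by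
  induction h with
  | nil => simp at hp
  | cons hI hg hgI' hP _ ih =>
    rcases List.mem_cons.1 hp with rfl | hp
    · refine ⟨hP, hI.colon hg, fun f hf => mem_colon_iff.2 (Ideal.mul_mem_right _ _ hf),
        fun ρ hρ => mem_colon_iff.2 (hρ _ hgI')⟩
    · obtain ⟨h1, h2, h3, h4⟩ := ih hp
      exact ⟨h1, h2, le_sup_left.trans h3, fun ρ hρ => h4 ρ fun g hg => Ideal.mem_sup_left (hρ g hg)⟩

end Filtration

end Vale.Agent.P199
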