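import Vale.Agent.P199.Pauli
import Vale.Agent.P199.Comp

/-! # P199: the twisted algebra of a graded ring.

`κ.lam` is the algebra of matrices `∑ b_μ • U μ` with `b_μ` of class `μ`; `κ.matE` identifies it
with `B` as a module over the class zero part. -/

namespace Vale.Agent.P199

open MvPolynomial

noncomputable section

section General

variable {G B σ : Type} [AddCommGroup G] [Fintype G] [CommRing B] [Algebra ℚ B]

/-- The grading of a polynomial ring by weights in a finite group. -/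
def polCls (w : σ → G) : Cls G (Pol σ) where
  c := cmp w
  sum_c := sum_cmp w
  c_same := fun μ b => cmp_of_hg (hg_cmp w μ b)
  c_ne := fun _ ν b h => cmp_of_hg_ne (hg_cmp w ν b) h
  c_mul := fun μ ν a b ha hb => by
    have h1 : Hg w a μ := ha ▸ hg_cmp w μ a
    have h2 : Hg w b ν := hb ▸ hg_cmp w ν b
    exact cmp_of_hg (h1.mul h2)
  c_one := cmp_of_hg (isWeightedHomogeneous_one ℚ w)

theorem polCls_c (w : σ → G) (μ : G) (f : Pol σ) : (polCls w).c μ f = cmp w μ f := rfl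

theorem polCls_hom_iff (w : σ → G) (μ : G) (f : Pol σ) : (polCls w).c μ f = f ↔ Hg w f μ :=
  ⟨fun h => h ▸ hg_cmp w μ f, fun h => cmp_of_hg h⟩

theorem polCls_grI {w : σ → G} {I : Ideal (Pol σ)} (h : Gr w I) : (polCls w).GrI I := h

/-- Projectors on a quotient. -/
def Cls.qc (κ : Cls G B) (J : Ideal B) (hJ : κ.GrI J) (μ : G) : (B ⧸ J) →ₗ[ℚ] (B ⧸ J) :=
  (J.restrictScalars ℚ).mapQ (J.restrictScalars ℚ) (κ.c μ) fun f hf => hJ f hf μ

theorem Cls.qc_mk (κ : Cls G B) (J : Ideal B) (hJ : κ.GrI J) (μ : G) (f : B) :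
    κ.qc J hJ μ (Ideal.Quotient.mk J f) = Ideal.Quotient.mk J (κ.c μ f) := rfl

/-- The induced grading on a quotient. -/
def Cls.quot (κ : Cls G B) (J : Ideal B) (hJ : κ.GrI J) : Cls G (B ⧸ J) where
  c := κ.qc J hJ
  sum_c := fun b => by
    obtain ⟨f, rfl⟩ := Ideal.Quotient.mk_surjective b
    simp only [Cls.qc_mk, ← map_sum, κ.sum_c]
  c_same := fun μ b => by
    obtain ⟨f, rfl⟩ := Ideal.Quotient.mk_surjective b
    simp only [Cls.qc_mk, κ.c_same]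
  c_ne := fun μ ν b h => by
    obtain ⟨f, rfl⟩ := Ideal.Quotient.mk_surjective b
    simp only [Cls.qc_mk, κ.c_ne μ ν f h, map_zero]
  c_mul := fun μ ν a b ha hb => by
    obtain ⟨f, rfl⟩ := Ideal.Quotient.mk_surjective a
    obtain ⟨g, rfl⟩ := Ideal.Quotient.mk_surjective b
    rw [← ha, ← hb, Cls.qc_mk, Cls.qc_mk, ← map_mul, Cls.qc_mk,
      κ.c_mul μ ν _ _ (κ.c_same μ f) (κ.c_same ν g)]
  c_one := by
    rw [← map_one (Ideal.Quotient.mk J), Cls.qc_mk, κ.c_one]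

theorem Cls.quot_c_mk (κ : Cls G B) (J : Ideal B) (hJ : κ.GrI J) (μ : G) (f : B) :
    (κ.quot J hJ).c μ (Ideal.Quotient.mk J f) = Ideal.Quotient.mk J (κ.c μ f) := rfl

theorem Cls.mem_zero (κ : Cls G B) {b : B} : b ∈ κ.zero ↔ κ.c 0 b = b := Iff.rfl

theorem Cls.c_of_ne (κ : Cls G B) {μ ν : G} {b : B} (h : κ.c ν b = b) (hne : μ ≠ ν) :
    κ.c μ b = 0 := by
  rw [← h]
  exact κ.c_ne μ ν b hne

theorem Cls.c_mul_left (κ : Cls G B) {μ : G} {a : B} (ha : κ.c μ a = a) (ν : G) (b : B) :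
    κ.c (μ + ν) (a * b) = a * κ.c ν b := by
  conv_lhs => rw [← κ.sum_c b, Finset.mul_sum, map_sum]
  rw [Finset.sum_eq_single ν, κ.c_mul μ ν a _ ha (κ.c_same ν b)]
  · intro ν' _ h
    exact κ.c_of_ne (κ.c_mul μ ν' a _ ha (κ.c_same ν' b)) fun h' => h (add_left_cancel h').symm
  · simp

theorem Cls.c_zero_mul (κ : Cls G B) (a : κ.zero) (ν : G) (b : B) :
    κ.c ν ((a : B) * b) = (a : B) * κ.c ν b := by
  simpa using κ.c_mul_left (μ := 0) a.2 ν b

theorem Cls.GrI.map (κ : Cls G B) {J I : Ideal B} (hJ : κ.GrI J) (hI : κ.GrI I) :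
    (κ.quot J hJ).GrI (I.map (Ideal.Quotient.mk J)) := by
  intro f hf μ
  obtain ⟨g, hg, rfl⟩ := (Ideal.mem_map_iff_of_surjective _ Ideal.Quotient.mk_surjective).mp hf
  exact Ideal.mem_map_of_mem _ (hI g hg μ)

end General

variable {r : ℕ} {B : Type} [CommRing B] [Algebra ℚ B]

theorem Cls.star_mk (κ : Cls (Gp r) B) (J : Ideal B) (hJ : κ.GrI J) (a b : B) :
    (κ.quot J hJ).star (Ideal.Quotient.mk J a) (Ideal.Quotient.mk J b) =
      Ideal.Quotient.mk J (κ.star a b) := by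
  simp only [Cls.star, Cls.quot_c_mk, map_sum, ← map_mul]
  rfl

theorem Cls.twPrime_map (κ : Cls (Gp r) B) {J I : Ideal B} (hJ : κ.GrI J) (hJI : J ≤ I) :
    (κ.quot J hJ).TwPrime (I.map (Ideal.Quotient.mk J)) ↔ κ.TwPrime I := by
  have key : ∀ a, Ideal.Quotient.mk J a ∈ I.map (Ideal.Quotient.mk J) ↔ a ∈ I := fun a => by
    rw [← Ideal.mem_comap, Ideal.comap_map_of_surjective _ Ideal.Quotient.mk_surjective,
      ← RingHom.ker_eq_comap_bot, Ideal.mk_ker, sup_eq_left.mpr hJI]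
  refine and_congr ?_ ⟨fun h a b hab => ?_, fun h a b hab => ?_⟩
  · rw [Ideal.ne_top_iff_one, Ideal.ne_top_iff_one, ← key 1, map_one]
  · rw [← key, ← key]
    refine h _ _ ?_
    rwa [Cls.star_mk, key]
  · obtain ⟨f, rfl⟩ := Ideal.Quotient.mk_surjective a
    obtain ⟨g, rfl⟩ := Ideal.Quotient.mk_surjective b
    rw [Cls.star_mk, key] at hab
    rw [key, key]
    exact h f g hab

theorem Cls.twPrime_bot (κ : Cls (Gp r) B) {J : Ideal B} (hJ : κ.GrI J) :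
    (κ.quot J hJ).TwPrime ⊥ ↔ κ.TwPrime J := by
  rw [← κ.twPrime_map hJ le_rfl, Ideal.map_quotient_self]

theorem Cls.star_hom_left (κ : Cls (Gp r) B) {μ : Gp r} {a : B} (ha : κ.c μ a = a) (b : B) :
    κ.star a b = a * ∑ ν, eps μ ν • κ.c ν b := by
  rw [Cls.star, Finset.sum_eq_single μ, ha, Finset.mul_sum]
  · simp only [mul_smul_comm]
  · intro μ' _ h
    simp [κ.c_of_ne ha h]
  · simp

theorem Cls.star_hom (κ : Cls (Gp r) B) {μ ν : Gp r} {a b : B} (ha : κ.c μ a = a)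
    (hb : κ.c ν b = b) : κ.star a b = eps μ ν • (a * b) := by
  rw [κ.star_hom_left ha, Finset.sum_eq_single ν, hb, mul_smul_comm]
  · intro ν' _ h
    rw [κ.c_of_ne hb h, smul_zero]
  · simp

theorem Cls.star_hom_right (κ : Cls (Gp r) B) {ν : Gp r} {b : B} (hb : κ.c ν b = b) (a : B) :
    κ.star a b = b * ∑ μ, eps μ ν • κ.c μ a := by
  rw [Cls.star, Finset.mul_sum]
  refine Finset.sum_congr rfl fun μ _ => ?_
  rw [Finset.sum_eq_single ν, hb, mul_smul_comm, mul_comm]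
  · intro ν' _ h
    simp [κ.c_of_ne hb h]
  · simp

theorem Cls.c_star (κ : Cls (Gp r) B) (a b : B) (l : Gp r) :
    κ.c l (κ.star a b) = conv (fun μ => κ.c μ a) (fun ν => κ.c ν b) l := by
  rw [Cls.star, conv, map_sum]
  refine Finset.sum_congr rfl fun μ _ => ?_
  rw [map_sum, Finset.sum_eq_single (l - μ), map_smul]
  · have := κ.c_mul μ (l - μ) _ _ (κ.c_same μ a) (κ.c_same (l - μ) b)
    rw [add_sub_cancel] at this
    rw [this]
  · intro ν _ h
    rw [map_smul, κ.c_of_ne (κ.c_mul μ ν _ _ (κ.c_same μ a) (κ.c_same ν b)), smul_zero]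
    rintro rfl
    exact h (add_sub_cancel_left μ ν).symm
  · simp

theorem Cls.mat_star (κ : Cls (Gp r) B) (a b : B) : κ.mat (κ.star a b) = κ.mat a * κ.mat b := by
  rw [Cls.mat, Cls.mat, Cls.mat, pm_mul]
  congr 1
  funext l
  exact κ.c_star a b l

theorem Cls.co_mat (κ : Cls (Gp r) B) (a : B) (μ : Gp r) : co (κ.mat a) μ = κ.c μ a := by
  rw [Cls.mat, co_pm]

theorem Cls.mat_zero_coe (κ : Cls (Gp r) B) (a : κ.zero) :
    κ.mat (a : B) = algebraMap B (Mat r B) a := by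
  rw [← pm_single, Cls.mat]
  congr 1
  funext μ
  by_cases h : μ = 0
  · rw [h, Pi.single_eq_same]
    exact a.2
  · rw [Pi.single_eq_of_ne h]
    exact κ.c_of_ne a.2 h

theorem Cls.inLam_mat (κ : Cls (Gp r) B) (a : B) : κ.InLam (κ.mat a) := by
  intro μ
  rw [κ.co_mat, κ.c_same]

theorem Cls.InLam.mat_sum {κ : Cls (Gp r) B} {M : Mat r B} (h : κ.InLam M) :
    κ.mat (∑ μ, co M μ) = M := by
  conv_rhs => rw [← pm_co M]
  rw [Cls.mat]
  congr 1
  funext ν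
  rw [map_sum, Finset.sum_eq_single ν, h ν]
  · intro μ _ hμ
    exact κ.c_of_ne (h μ) hμ.symm
  · simp

theorem Cls.InLam.mul {κ : Cls (Gp r) B} {M N : Mat r B} (hM : κ.InLam M) (hN : κ.InLam N) :
    κ.InLam (M * N) := by
  rw [← hM.mat_sum, ← hN.mat_sum, ← κ.mat_star]
  exact κ.inLam_mat _

theorem Cls.InLam.add {κ : Cls (Gp r) B} {M N : Mat r B} (hM : κ.InLam M) (hN : κ.InLam N) :
    κ.InLam (M + N) := by
  intro μ
  rw [co_add, Pi.add_apply, map_add, hM μ, hN μ]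

theorem Cls.inLam_algebraMap (κ : Cls (Gp r) B) (a : κ.zero) :
    κ.InLam (algebraMap κ.zero (Mat r B) a) := by
  rw [IsScalarTower.algebraMap_apply κ.zero B (Mat r B)]
  exact κ.mat_zero_coe a ▸ κ.inLam_mat a

/-- The twisted algebra. -/
def Cls.lam (κ : Cls (Gp r) B) : Subalgebra κ.zero (Mat r B) where
  carrier := {M | κ.InLam M}
  mul_mem' := Cls.InLam.mul
  add_mem' := Cls.InLam.add
  algebraMap_mem' := κ.inLam_algebraMap

theorem Cls.mem_lam (κ : Cls (Gp r) B) {M : Mat r B} : M ∈ κ.lam ↔ κ.InLam M := Iff.rfl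

theorem Cls.mat_add (κ : Cls (Gp r) B) (a b : B) : κ.mat (a + b) = κ.mat a + κ.mat b := by
  rw [Cls.mat, Cls.mat, Cls.mat, ← pm_add]
  congr 1
  funext μ
  exact map_add _ a b

theorem Cls.mat_smul (κ : Cls (Gp r) B) (t : κ.zero) (b : B) : κ.mat (t • b) = t • κ.mat b := by
  have : t • κ.mat b = (t : B) • κ.mat b := rfl
  rw [this, Cls.mat, Cls.mat, ← pm_smul]
  congr 1
  funext μ
  exact κ.c_zero_mul t μ b

theorem Cls.sum_co_mat (κ : Cls (Gp r) B) (a : B) : ∑ μ, co (κ.mat a) μ = a := by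
  simp only [κ.co_mat, κ.sum_c]

/-- The identification of `B` with the twisted algebra. -/
def Cls.matE (κ : Cls (Gp r) B) : B ≃ₗ[κ.zero] κ.lam where
  toFun a := ⟨κ.mat a, κ.inLam_mat a⟩
  map_add' a b := Subtype.ext (κ.mat_add a b)
  map_smul' t b := Subtype.ext (κ.mat_smul t b)
  invFun M := ∑ μ, co M.1 μ
  left_inv a := κ.sum_co_mat a
  right_inv M := Subtype.ext (Cls.InLam.mat_sum M.2)

theorem Cls.matE_star (κ : Cls (Gp r) B) (a b : B) :
    κ.matE (κ.star a b) = κ.matE a * κ.matE b := Subtype.ext (κ.mat_star a b)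

theorem Cls.matE_zero_coe (κ : Cls (Gp r) B) (a : κ.zero) :
    κ.matE (a : B) = algebraMap κ.zero κ.lam a := Subtype.ext (κ.mat_zero_coe a)

theorem Cls.mem_Zc (κ : Cls (Gp r) B) {M : Mat r B} :
    M ∈ κ.Zc ↔ ∃ b, κ.c 0 b = b ∧ algebraMap B (Mat r B) b = M := by
  exact Subalgebra.mem_map

theorem Cls.Zc_le (κ : Cls (Gp r) B) : κ.Zc ≤ κ.lam.restrictScalars ℚ := by
  intro M hM
  obtain ⟨b, hb, rfl⟩ := κ.mem_Zc.mp hM
  exact κ.inLam_algebraMap ⟨b, hb⟩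

theorem Cls.Zc_comm (κ : Cls (Gp r) B) {z : Mat r B} (hz : z ∈ κ.Zc) (a : Mat r B) :
    z * a = a * z := by
  obtain ⟨b, -, rfl⟩ := κ.mem_Zc.mp hz
  exact Algebra.commutes b a

theorem Cls.InLam.mtr_mem {κ : Cls (Gp r) B} {M : Mat r B} (h : κ.InLam M) : mtr M ∈ κ.Zc := by
  exact κ.mem_Zc.mpr ⟨_, h 0, rfl⟩

theorem Cls.inLam_pm (κ : Cls (Gp r) B) {y : Gp r → B} (h : ∀ μ, κ.c μ (y μ) = y μ) :
    κ.InLam (pm y) := by
  intro μ
  rw [co_pm, h]

theorem Cls.InLam.map_mk {κ : Cls (Gp r) B} {M : Mat r B} (h : κ.InLam M) (J : Ideal B)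
    (hJ : κ.GrI J) : (κ.quot J hJ).InLam (M.map (Ideal.Quotient.mkₐ ℚ J)) := by
  intro μ
  rw [co_map, Ideal.Quotient.mkₐ_eq_mk, Cls.quot_c_mk, h μ]

theorem Cls.TwPrime.lam_domain {κ : Cls (Gp r) B} (h : κ.TwPrime ⊥) {M N : Mat r B}
    (hM : κ.InLam M) (hN : κ.InLam N) (h0 : M * N = 0) : M = 0 ∨ N = 0 := by
  have h1 : κ.star (∑ μ, co M μ) (∑ μ, co N μ) = 0 := by
    rw [← κ.sum_co_mat (κ.star _ _), κ.mat_star, hM.mat_sum, hN.mat_sum, h0, co_zero]
    simp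
  have h2 : κ.mat 0 = 0 := by
    rw [Cls.mat, ← pm_zero]
    simp only [map_zero]
    rfl
  rcases h.2 _ _ (Ideal.mem_bot.mpr h1) with h3 | h3
  · left
    rw [← hM.mat_sum, Ideal.mem_bot.mp h3, h2]
  · right
    rw [← hN.mat_sum, Ideal.mem_bot.mp h3, h2]

end

end Vale.Agent.P199
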