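import Vale.Agent.P199.Comp

/-! # P199: homogenization with the variables `π i` of weight `2 e_i`.

Plan. Define the linear operator `hom D` on monomials: `monomial d a` goes to
`pw π k * monomial d a` with `k i = (D i - weight d i) / 2` when `red (weight d) = red D`, and to `0`
otherwise. For `f` homogeneous of degree `E`, `hom D f` is `pw π ((D - E) / 2) * f` or `0`.
For `D` large, `hom D ((X (π i) - 1) * h) = 0`, and `hom D` preserves graded ideals.
This gives `exists_hom` and `pw_mul_mem_of_flat`; the rest follows from these two. -/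

namespace Vale.Agent.P199

open MvPolynomial

variable {σ ι : Type} [Fintype ι] [DecidableEq ι]

omit [Fintype ι] [DecidableEq ι] in
theorem red_add (D E : ι →₀ ℕ) : red (D + E) = red D + red E := by
  funext i
  simp [red]

omit [Fintype ι] [DecidableEq ι] in
theorem weight_cw (w : σ → ι →₀ ℕ) (d : σ →₀ ℕ) :
    Finsupp.weight (cw w) d = red (Finsupp.weight w d) := by
  induction d using Finsupp.induction_linear with
  | zero => funext i; simp [red]
  | add a b ha hb => rw [map_add, map_add, red_add, ha, hb]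
  | single v n => funext i; simp [Finsupp.weight_single, red, cw]

omit [Fintype ι] [DecidableEq ι] in
theorem Hg.red {w : σ → ι →₀ ℕ} {f : Pol σ} {D : ι →₀ ℕ} (h : Hg w f D) :
    Hg (cw w) f (red D) := fun d hd => by rw [weight_cw, h hd]

omit [DecidableEq ι] in
theorem hom_red_ge (μ : ι → ZMod 2) (D0 : ι →₀ ℕ) :
    ∃ D, D0 ≤ D ∧ red D = μ ∧ ∀ i, D i ≠ 0 := by
  refine ⟨Finsupp.equivFunOnFinite.symm fun i => 2 * (D0 i + 1) + (μ i).val, fun i => ?_,
    funext fun i => ?_, fun i => ?_⟩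
  · simp only [Finsupp.equivFunOnFinite_symm_apply_apply]
    omega
  · simp [red, CharTwo.two_eq_zero]
  · simp only [Finsupp.equivFunOnFinite_symm_apply_apply]
    omega

omit [DecidableEq ι] in
theorem exists_red_ge [Nonempty ι] (μ : ι → ZMod 2) (D0 : ι →₀ ℕ) :
    ∃ D, D0 ≤ D ∧ red D = μ ∧ D ≠ 0 := by
  obtain ⟨D, h1, h2, h3⟩ := hom_red_ge μ D0
  exact ⟨D, h1, h2, fun h => h3 (Classical.arbitrary ι) (by rw [h]; rfl)⟩

omit [DecidableEq ι] in
theorem hom_lin_eq (ω : ι → R2 ι) (a : ι →₀ ℕ) : lin ω a = ∑ i, red a i • ω i := by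
  rw [lin, Finsupp.sum_fintype _ _ fun i => by simp]
  refine Finset.sum_congr rfl fun i _ => ?_
  rw [red, Nat.cast_smul_eq_nsmul, nsmul_eq_mul]

omit [DecidableEq ι] in
theorem lin_X_eq_zero_iff (a : ι →₀ ℕ) : lin X a = 0 ↔ red a = 0 := by
  rw [hom_lin_eq]
  exact ⟨fun h => funext (Fintype.linearIndependent_iff.1 (linearIndependent_X ι (ZMod 2)) _ h),
    fun h => by simp [h]⟩

omit [Fintype ι] [DecidableEq ι] in
theorem lin_single_two (ω : ι → R2 ι) (i : ι) : lin ω (Finsupp.single i 2) = 0 := by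
  rw [lin, Finsupp.sum_single_index (by simp)]
  simp [CharTwo.two_eq_zero]

omit [DecidableEq ι] in
theorem lin_eq_sum (ω : ι → R2 ι) (a : ι →₀ ℕ) : lin ω a = ∑ i, red a i • ω i :=
  hom_lin_eq ω a

omit [Fintype ι] [DecidableEq ι] in
theorem hom_pw_zero (π : ι → σ) : pw π 0 = 1 := by simp [pw]

omit [Fintype ι] [DecidableEq ι] in
theorem hom_pw_add (π : ι → σ) (k l : ι →₀ ℕ) : pw π (k + l) = pw π k * pw π l := by
  simp [pw, Finsupp.mapDomain_add, monomial_mul]

omit [Fintype ι] [DecidableEq ι] in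
theorem hom_pw_single (π : ι → σ) (i : ι) (n : ℕ) : pw π (Finsupp.single i n) = X (π i) ^ n := by
  simp [pw, X_pow_eq_monomial]

omit [Fintype ι] [DecidableEq ι] in
theorem hom_X_mem (π : ι → σ) (i : ι) : X (π i) - 1 ∈ pid π := Ideal.subset_span ⟨i, rfl⟩

omit [Fintype ι] [DecidableEq ι] in
theorem pw_sub_one_mem (π : ι → σ) (k : ι →₀ ℕ) : pw π k - 1 ∈ pid π := by
  rw [← Ideal.Quotient.eq]
  induction k using Finsupp.induction_linear with
  | zero => rw [hom_pw_zero]
  | add a b ha hb => rw [hom_pw_add, map_mul, ha, hb, ← map_mul, one_mul]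
  | single i n =>
    rw [hom_pw_single, map_pow, Ideal.Quotient.eq.2 (hom_X_mem π i), map_one, one_pow]

variable {w : σ → ι →₀ ℕ} {π : ι → σ}

omit [Fintype ι] [DecidableEq ι] in
theorem hg_pw (hπ : ∀ i, w (π i) = Finsupp.single i 2) (k : ι →₀ ℕ) : Hg w (pw π k) (k + k) := by
  induction k using Finsupp.induction_linear with
  | zero => simpa [hom_pw_zero] using isWeightedHomogeneous_one ℚ w
  | add a b ha hb =>
    rw [hom_pw_add, add_add_add_comm]
    exact ha.mul hb
  | single i n =>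
    have h1 := (isWeightedHomogeneous_X ℚ w (π i)).pow n
    rwa [hπ, ← hom_pw_single, Finsupp.smul_single, smul_eq_mul, mul_two, Finsupp.single_add] at h1

omit [Fintype ι] [DecidableEq ι] in
theorem pw_notMem {P : Ideal (Pol σ)} (hP : P.IsPrime) (h : ∀ i, X (π i) ∉ P) (k : ι →₀ ℕ) :
    pw π k ∉ P := by
  induction k using Finsupp.induction_linear with
  | zero => rw [hom_pw_zero]; exact hP.one_notMem
  | add a b ha hb => rw [hom_pw_add]; exact fun h => (hP.mem_or_mem h).elim ha hb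
  | single i n => rw [hom_pw_single]; exact fun h' => h i (hP.mem_of_pow_mem n h')

omit [Fintype ι] [DecidableEq ι] in
theorem hom_half {E D : ι →₀ ℕ} (h : E ≤ D) (h' : red E = red D) : ∃ k, k + k + E = D := by
  refine ⟨(D - E).mapRange (· / 2) (by simp), Finsupp.ext fun i => ?_⟩
  have h1 : E i ≤ D i := h i
  have h2 : E i % 2 = D i % 2 := (ZMod.natCast_eq_natCast_iff' _ _ _).1 (congrFun h' i)
  simp only [Finsupp.add_apply, Finsupp.mapRange_apply, Finsupp.tsub_apply]
  omega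

theorem hom_op {M : Type} [AddCommMonoid M] (w : σ → M) (c : M → Pol σ) :
    ∃ H : Pol σ →ₗ[ℚ] Pol σ, ∀ g E, Hg w g E → H g = c E * g := by
  refine ⟨(basisMonomials σ ℚ).constr ℚ fun d => c (Finsupp.weight w d) * monomial d 1,
    fun g E hg => ?_⟩
  conv_lhs => rw [g.as_sum, map_sum]
  conv_rhs => rw [g.as_sum, Finset.mul_sum]
  refine Finset.sum_congr rfl fun d hd => ?_
  have h1 : monomial d (coeff d g) = coeff d g • basisMonomials σ ℚ d := by
    simp [smul_monomial]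
  rw [h1, map_smul, Module.Basis.constr_basis, hg (mem_support_iff.1 hd), mul_smul_comm]
  simp

omit [Fintype ι] [DecidableEq ι] in
theorem hom_coef (π : ι → σ) (D : ι →₀ ℕ) : ∃ c : (ι →₀ ℕ) → Pol σ,
    (∀ E k, k + k + E = D → c E = pw π k) ∧
      ∀ E i, E + Finsupp.single i 2 ≤ D → c E = c (E + Finsupp.single i 2) * X (π i) := by
  classical
  have h1 : ∀ E k, k + k + E = D →
      (if h : ∃ k, k + k + E = D then pw π h.choose else 0) = pw π k := fun E k hk => by
    have h : ∃ k, k + k + E = D := ⟨k, hk⟩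
    rw [dif_pos h]
    refine congrArg _ (Finsupp.ext fun i => ?_)
    have := DFunLike.congr_fun (h.choose_spec.trans hk.symm) i
    simp only [Finsupp.add_apply] at this
    omega
  have h2 : ∀ i : ι, Finsupp.single i 2 = Finsupp.single i 1 + Finsupp.single i 1 := fun i =>
    Finsupp.single_add i 1 1
  refine ⟨_, h1, fun E i hE => ?_⟩
  by_cases h : ∃ k, k + k + (E + Finsupp.single i 2) = D
  · obtain ⟨k, hk⟩ := h
    rw [h1 _ k hk, h1 E (k + Finsupp.single i 1) (by rw [← hk, h2]; abel), hom_pw_add,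
      hom_pw_single, pow_one]
  · rw [dif_neg h, zero_mul, dif_neg]
    rintro ⟨k, hk⟩
    refine h (hom_half hE ?_)
    rw [← hk, h2]
    funext j
    simp [red_add, CharTwo.add_self_eq_zero]

theorem exists_hom (hπ : ∀ i, w (π i) = Finsupp.single i 2) {f : Pol σ} {μ : ι → ZMod 2}
    (hf : Hg (cw w) f μ) : ∃ D0, ∀ D, D0 ≤ D → red D = μ → ∃ f', Hg w f' D ∧ f' - f ∈ pid π ∧
      ∀ d ∈ f'.support, ∃ d0 ∈ f.support, ∃ k : ι →₀ ℕ, d = k.mapDomain π + d0 := by
  classical
  refine ⟨f.support.sup (Finsupp.weight w), fun D hD hμ => ?_⟩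
  choose! k hk using fun d (hd : d ∈ f.support) => hom_half ((Finset.le_sup hd).trans hD)
    (by rw [← weight_cw, hf (mem_support_iff.1 hd), hμ])
  refine ⟨∑ d ∈ f.support, pw π (k d) * monomial d (coeff d f),
    IsWeightedHomogeneous.sum _ _ _ fun d hd => ?_, ?_, fun d hd => ?_⟩
  · rw [← hk d hd]
    exact (hg_pw hπ _).mul (isWeightedHomogeneous_monomial _ _ _ rfl)
  · nth_rw 3 [f.as_sum]
    rw [← Finset.sum_sub_distrib]
    refine Ideal.sum_mem _ fun d _ => ?_
    rw [← sub_one_mul]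
    exact Ideal.mul_mem_right _ _ (pw_sub_one_mem π _)
  · obtain ⟨d0, h0, h1⟩ := Finset.mem_biUnion.1 (support_sum hd)
    rw [pw, monomial_mul] at h1
    exact ⟨d0, h0, k d0, Finset.mem_singleton.1 (support_monomial_subset h1)⟩

theorem pw_mul_mem_of_flat (hπ : ∀ i, w (π i) = Finsupp.single i 2) {J : Ideal (Pol σ)}
    (hJ : Gr w J) {f : Pol σ} {D : ι →₀ ℕ} (hf : Hg w f D) (h : f ∈ flat π J) :
    ∃ k, pw π k * f ∈ J := by
  choose c hc hc' using hom_coef π
  choose H hH using fun D' => hom_op w (c D')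
  have h1 : ∀ p ∈ pid π, ∀ g, ∀ᶠ D' in Filter.atTop, H D' (g * p) = 0 := fun p hp => by
    induction hp using Submodule.span_induction with
    | mem p hp =>
      obtain ⟨i, rfl⟩ := hp
      intro g
      obtain ⟨s, hs⟩ := exists_sum_cmp w g
      filter_upwards [(Filter.eventually_all_finset s).2 fun E _ =>
        Filter.eventually_ge_atTop (E + Finsupp.single i 2)] with D' hD'
      rw [hs, Finset.sum_mul, map_sum]
      refine Finset.sum_eq_zero fun E hE => ?_
      rw [mul_sub, map_sub, mul_one, hH _ _ _ (hg_cmp w E g),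
        hH _ _ _ ((hg_cmp w E g).mul (isWeightedHomogeneous_X ℚ w (π i))), hπ,
        hc' D' E i (hD' E hE)]
      ring
    | zero => simp
    | add p q _ _ hp hq =>
      intro g
      filter_upwards [hp g, hq g] with D' h1 h2
      rw [mul_add, map_add, h1, h2, add_zero]
    | smul a p _ hp =>
      intro g
      rw [smul_eq_mul, ← mul_assoc]
      exact hp _
  obtain ⟨j, hj, p, hp, rfl⟩ := Submodule.mem_sup.1 h
  obtain ⟨k, hk⟩ := Filter.eventually_atTop.1 (h1 p hp 1)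
  have h2 := hk (k + k + D) (le_self_add.trans le_self_add)
  refine ⟨k, ?_⟩
  obtain ⟨s, hs⟩ := exists_sum_cmp w j
  rw [← hc _ D k rfl, ← hH _ _ _ hf, map_add, ← one_mul p, h2, add_zero, hs, map_sum]
  refine Ideal.sum_mem _ fun E _ => ?_
  rw [hH _ _ _ (hg_cmp w E j)]
  exact Ideal.mul_mem_left _ _ (hJ j hj E)

theorem Gr.flat (hπ : ∀ i, w (π i) = Finsupp.single i 2) {I : Ideal (Pol σ)} (hI : Gr w I) :
    Gr (cw w) (flat π I) := by
  refine Gr.sup (fun f hf μ => ?_) (gr_span ?_)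
  · obtain ⟨s, hs⟩ := exists_sum_cmp w f
    rw [hs, map_sum]
    refine Ideal.sum_mem _ fun E _ => ?_
    by_cases h : μ = red E
    · rw [h, cmp_of_hg (Hg.red (hg_cmp w E f))]
      exact hI f hf E
    · rw [cmp_of_hg_ne (Hg.red (hg_cmp w E f)) h]
      exact zero_mem _
  · rintro _ ⟨i, rfl⟩
    have h1 : cw w (π i) = 0 := by
      rw [cw, hπ, show Finsupp.single i 2 = Finsupp.single i 1 + Finsupp.single i 1 from
        Finsupp.single_add i 1 1, red_add]
      funext j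
      exact CharTwo.add_self_eq_zero (R := ZMod 2) _
    exact ⟨0, (h1 ▸ isWeightedHomogeneous_X ℚ (cw w) (π i)).sub (isWeightedHomogeneous_one ℚ _)⟩

theorem mem_flat_iff (hπ : ∀ i, w (π i) = Finsupp.single i 2) {P : Ideal (Pol σ)}
    (hG : Gr w P) (hP : P.IsPrime) (h : ∀ i, X (π i) ∉ P) {f : Pol σ} {D : ι →₀ ℕ}
    (hf : Hg w f D) : f ∈ flat π P ↔ f ∈ P := by
  refine ⟨fun h' => ?_, fun h' => Ideal.mem_sup_left h'⟩
  obtain ⟨k, hk⟩ := pw_mul_mem_of_flat hπ hG hf h'
  exact (hP.mem_or_mem hk).resolve_left (pw_notMem hP h k)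

theorem flat_ne_top (hπ : ∀ i, w (π i) = Finsupp.single i 2) {P : Ideal (Pol σ)}
    (hG : Gr w P) (hP : P.IsPrime) (h : ∀ i, X (π i) ∉ P) : flat π P ≠ ⊤ := fun h' =>
  hP.one_notMem ((mem_flat_iff hπ hG hP h (isWeightedHomogeneous_one ℚ w)).1
    (h' ▸ Submodule.mem_top))

theorem hom_exists (hπ : ∀ i, w (π i) = Finsupp.single i 2) {f : Pol σ} {μ : ι → ZMod 2}
    (hf : Hg (cw w) f μ) : ∃ f' D, Hg w f' D ∧ f' - f ∈ pid π := by
  obtain ⟨D0, h⟩ := exists_hom hπ hf
  obtain ⟨D, h1, h2, -⟩ := hom_red_ge μ D0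
  obtain ⟨f', h3, h4, -⟩ := h D h1 h2
  exact ⟨f', D, h3, h4⟩

omit [Fintype ι] [DecidableEq ι] in
theorem hom_mem_iff {I : Ideal (Pol σ)} {f g : Pol σ} (h : f - g ∈ pid π) :
    f ∈ flat π I ↔ g ∈ flat π I :=
  ⟨fun h2 => (Submodule.sub_mem_iff_right _ h2).1 (Ideal.mem_sup_right h),
    fun h2 => (Submodule.sub_mem_iff_left _ h2).1 (Ideal.mem_sup_right h)⟩

theorem flat_mem_or_mem (hπ : ∀ i, w (π i) = Finsupp.single i 2) {P : Ideal (Pol σ)}
    (hG : Gr w P) (hP : P.IsPrime) (h : ∀ i, X (π i) ∉ P) {a b : Pol σ} {μ ν : ι → ZMod 2}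
    (ha : Hg (cw w) a μ) (hb : Hg (cw w) b ν) (hab : a * b ∈ flat π P) :
    a ∈ flat π P ∨ b ∈ flat π P := by
  obtain ⟨a', D, h1, h2⟩ := hom_exists hπ ha
  obtain ⟨b', E, h3, h4⟩ := hom_exists hπ hb
  have h5 := (mem_flat_iff hπ hG hP h (h1.mul h3)).1
    ((hom_mem_iff (Ideal.mul_sub_mul_mem _ h2 h4)).2 hab)
  exact (hP.mem_or_mem h5).imp (fun h6 => (hom_mem_iff h2).1 (Ideal.mem_sup_left h6))
    fun h6 => (hom_mem_iff h4).1 (Ideal.mem_sup_left h6)

theorem colon_flat (hπ : ∀ i, w (π i) = Finsupp.single i 2) {I : Ideal (Pol σ)} (hI : Gr w I)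
    {g : Pol σ} {a : ι →₀ ℕ} (hg : Hg w g a) :
    (flat π I).colon {g} = flat π (I.colon {g}) := by
  refine le_antisymm (fun f hf => mem_of_cmp_mem (cw w) fun μ => ?_) (sup_le (fun f hf => ?_)
    fun f hf => ?_)
  · have h1 := mem_colon_iff.1 ((hI.flat hπ).colon hg.red f hf μ)
    obtain ⟨f', D, h2, h3⟩ := hom_exists hπ (hg_cmp (cw w) μ f)
    obtain ⟨k, hk⟩ := pw_mul_mem_of_flat hπ hI (h2.mul hg) ((hom_mem_iff
      (by rw [← sub_mul]; exact Ideal.mul_mem_right _ _ h3)).2 h1)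
    rw [← mul_assoc] at hk
    refine (hom_mem_iff ?_).1 (Ideal.mem_sup_left (mem_colon_iff.2 hk))
    simpa using Ideal.mul_sub_mul_mem _ (pw_sub_one_mem π k) h3
  · exact mem_colon_iff.2 (Ideal.mem_sup_left (mem_colon_iff.1 hf))
  · exact mem_colon_iff.2 (Ideal.mem_sup_right (Ideal.mul_mem_right _ _ hf))

end Vale.Agent.P199
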