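import Vale.Agent.P199.Comp

/-! # P199: independence of variables.

Plan for `drop`. Let `T = supported ℚ Y` act on the domain `S / P` (faithfully, as `Y` is
independent modulo `I ⊇ P`). If no `v ∈ τ \ Y` keeps independence then each `X v`, `v ∈ τ`, is
algebraic over `T` (write an element of `supported (insert v Y)` as a polynomial in `X v` over
`T`, using `Algebra.adjoin_union_eq_adjoin_adjoin` and `Algebra.adjoin_singleton_eq_range_aeval`),
so by `Gen` all of `S / P` is algebraic over `T`; `IsAlgebraic.exists_nonzero_dvd` gives a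
nonzero `t ∈ T` in `P + f ≤ I`, contradiction.
`card_le_of_indep_ker`: the `ψ (X v)`, `v ∈ Y`, are algebraically independent inside
`adjoin ℚ (range e)`, whose transcendence degree is at most the cardinality of `κ`
(`Algebra.IsAlgebraic.trdeg_le_cardinalMk`, `AlgebraicIndependent.lift_cardinalMk_le_trdeg`). -/

namespace Vale.Agent.P199

open MvPolynomial

variable {σ : Type}

theorem indep_ker_iff {K : Type} [CommRing K] [Algebra ℚ K] (ψ : Pol σ →ₐ[ℚ] K) (Y : Finset σ) :
    Indep (RingHom.ker ψ) Y ↔ AlgebraicIndepOn ℚ (fun v => ψ (X v)) (Y : Set σ) := by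
  have h1 : ∀ g : MvPolynomial (Y : Set σ) ℚ,
      aeval (fun v : (Y : Set σ) => ψ (X v)) g = ψ (rename (↑) g) := by
    intro g
    have : aeval (fun v : (Y : Set σ) => ψ (X v)) = ψ.comp (rename (↑)) := by
      ext v
      simp
    rw [this]
    rfl
  rw [AlgebraicIndepOn, algebraicIndependent_iff, Indep, supported_eq_range_rename]
  constructor
  · intro h g hg
    rw [h1] at hg
    exact rename_injective _ Subtype.val_injective ((h _ ⟨g, rfl⟩ hg).trans (map_zero _).symm)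
  · rintro h _ ⟨g, rfl⟩ hg
    have : g = 0 := h g (by rw [h1]; exact hg)
    rw [this]
    exact map_zero _

theorem drop [DecidableEq σ] {τ Y : Finset σ} {P I : Ideal (Pol σ)} (hP : P.IsPrime)
    (hg : Gen τ P) {f : Pol σ} (hf : f ∉ P) (hPI : P ≤ I) (hfI : f ∈ I) (hY : Indep I Y) :
    ∃ v ∈ τ, v ∉ Y ∧ Indep P (insert v Y) := by
  by_contra hcon
  push Not at hcon
  have := hP
  set ψ : Pol σ →ₐ[ℚ] Pol σ ⧸ P := Ideal.Quotient.mkₐ ℚ P with hψ
  have hker : RingHom.ker ψ = P := Ideal.Quotient.mkₐ_ker ℚ P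
  set x : σ → Pol σ ⧸ P := fun v => ψ (X v) with hx
  have hYP : AlgebraicIndepOn ℚ x (Y : Set σ) :=
    (indep_ker_iff ψ Y).1 (by rw [hker]; exact hY.anti hPI)
  have himg : ∀ s : Set σ, (supported ℚ s).map ψ = Algebra.adjoin ℚ (x '' s) := by
    intro s
    rw [supported_eq_adjoin_X, AlgHom.map_adjoin, Set.image_image]
  have halg : ∀ y ∈ x '' (τ : Set σ) \ x '' (Y : Set σ),
      IsAlgebraic (Algebra.adjoin ℚ (x '' (Y : Set σ))) y := by
    rintro _ ⟨⟨v, hv, rfl⟩, hvY⟩
    have hv' : v ∉ Y := fun h => hvY ⟨v, h, rfl⟩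
    by_contra htr
    refine hcon v hv hv' ?_
    rw [← hker, indep_ker_iff, Finset.coe_insert]
    exact hYP.insert htr
  have hfτ : ψ f ∈ Algebra.adjoin ℚ (x '' (τ : Set σ)) := by
    obtain ⟨g, hg1, hg2⟩ := hg f
    have : ψ f = ψ g := by
      rw [← sub_eq_zero, ← map_sub, ← RingHom.mem_ker, hker]
      exact hg2
    rw [this, ← himg]
    exact ⟨g, hg1, rfl⟩
  have hfa : IsAlgebraic (Algebra.adjoin ℚ (x '' (Y : Set σ))) (ψ f) :=
    IsAlgebraic.adjoin_of_forall_isAlgebraic halg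
      (isAlgebraic_algebraMap (⟨ψ f, hfτ⟩ : Algebra.adjoin ℚ (x '' (τ : Set σ))))
  have hf0 : ψ f ≠ 0 := by
    intro h
    rw [← RingHom.mem_ker, hker] at h
    exact hf h
  obtain ⟨⟨t, ht⟩, ht0, u, hu⟩ := hfa.exists_nonzero_dvd (mem_nonZeroDivisors_of_ne_zero hf0)
  have ht' := ht
  rw [← himg] at ht'
  obtain ⟨g, hg1, rfl⟩ := ht'
  obtain ⟨u', rfl⟩ := Ideal.Quotient.mkₐ_surjective ℚ P u
  have h1 : g - f * u' ∈ P := by
    rw [← hker, RingHom.mem_ker, map_sub, map_mul, sub_eq_zero]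
    exact hu
  have h2 : g ∈ I := by
    have := I.add_mem (hPI h1) (I.mul_mem_right u' hfI)
    rwa [sub_add_cancel] at this
  have h3 := hY g hg1 h2
  subst h3
  exact ht0 (Subtype.ext (map_zero ψ))

theorem card_le_of_indep_ker {K κ : Type} [CommRing K] [IsDomain K] [Algebra ℚ K] [Fintype κ]
    (ψ : Pol σ →ₐ[ℚ] K) {Y : Finset σ} (hY : Indep (RingHom.ker ψ) Y) (e : κ → K)
    (h : ∀ v ∈ Y, ψ (X v) ∈ Algebra.adjoin ℚ (Set.range e)) : Y.card ≤ Fintype.card κ := by
  have h1 := (indep_ker_iff ψ Y).1 hY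
  set A := Algebra.adjoin ℚ (Set.range e) with hA
  let y : ↥(Y : Set σ) → A := fun v => ⟨ψ (X v), h v v.2⟩
  have h2 : AlgebraicIndependent ℚ y := AlgebraicIndependent.of_comp A.val h1
  have h3 := h2.cardinalMk_le_trdeg
  let φ : MvPolynomial κ ℚ →ₐ[ℚ] A := aeval fun k => ⟨e k, Algebra.subset_adjoin ⟨k, rfl⟩⟩
  have hφ : Function.Surjective φ := by
    rintro ⟨a, ha⟩
    have ha' := ha
    rw [hA, Algebra.adjoin_range_eq_range_aeval] at ha'
    obtain ⟨p, rfl⟩ := ha'
    refine ⟨p, Subtype.ext ?_⟩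
    have : A.val.comp φ = aeval e := by
      ext k
      simp [φ]
    exact DFunLike.congr_fun this p
  have h4 := h3.trans (trdeg_le_of_surjective φ hφ)
  rw [MvPolynomial.trdeg_of_isDomain, Cardinal.lift_id, Cardinal.mk_fintype κ,
    Cardinal.mk_fintype] at h4
  simpa using h4

end Vale.Agent.P199
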