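import Vale.Agent.P199.Hilb
import Vale.Agent.P199.Drop

/-! # P199: K-polynomials and the invariant `State`.

Plan. `exists_isK`: induction on `τ`. For fixed `τ` reduce to primes along a filtration up to `⊤`
(`HS_add`; `K I = K (I + g) + t ^ a * K (I : g)`). For a prime `P` and `τ = insert v τ'`:
if `X v ∈ P` then `K τ P = K τ' P * (1 - t ^ w v)` and `Bd τ P (c + 1) → Bd τ' P c`; if `X v ∉ P`
then `K τ P = K τ' (P + X v)` and `drop` gives `Bd τ P c → Bd τ' (P + X v) c`.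
For `τ = ∅` use `HS_top`, `HS_of_gen_empty`.
`ev ω (monomial a 1) = 1 + lin ω a * x + x ^ 2 * q`, in characteristic two. -/

namespace Vale.Agent.P199

open MvPolynomial

variable {σ ι : Type} [Fintype σ] [DecidableEq σ] [Fintype ι] [DecidableEq ι]

omit [Fintype ι] [DecidableEq ι] in
theorem klin_add (ω : ι → R2 ι) (a b : ι →₀ ℕ) : lin ω (a + b) = lin ω a + lin ω b :=
  Finsupp.sum_add_index' (fun _ => by simp) fun _ _ _ => by rw [Nat.cast_add, add_mul]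

omit [Fintype ι] [DecidableEq ι] in
theorem klin_single (ω : ι → R2 ι) (i : ι) (k : ℕ) : lin ω (Finsupp.single i k) = k * ω i :=
  Finsupp.sum_single_index (by simp)

omit [Fintype ι] [DecidableEq ι] in
theorem ev_monomial (ω : ι → R2 ι) (a : ι →₀ ℕ) :
    ∃ q, ev ω (monomial a 1) =
      1 + Polynomial.X * (Polynomial.C (lin ω a) + Polynomial.X * q) := by
  have hadd : ∀ a b : ι →₀ ℕ, (∃ q, ev ω (monomial a 1) =
      1 + Polynomial.X * (Polynomial.C (lin ω a) + Polynomial.X * q)) →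
      (∃ q, ev ω (monomial b 1) =
      1 + Polynomial.X * (Polynomial.C (lin ω b) + Polynomial.X * q)) →
      ∃ q, ev ω (monomial (a + b) 1) =
      1 + Polynomial.X * (Polynomial.C (lin ω (a + b)) + Polynomial.X * q) := by
    rintro a b ⟨q, h⟩ ⟨q', h'⟩
    refine ⟨q + q' + (Polynomial.C (lin ω a) + Polynomial.X * q) *
      (Polynomial.C (lin ω b) + Polynomial.X * q'), ?_⟩
    rw [← one_mul (1 : ZMod 2), ← monomial_mul, map_mul, h, h', klin_add, map_add]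
    ring
  have h0 : ∃ q, ev ω (monomial 0 1) =
      1 + Polynomial.X * (Polynomial.C (lin ω 0) + Polynomial.X * q) :=
    ⟨0, by simp [lin]⟩
  induction a using Finsupp.induction_linear with
  | zero => exact h0
  | add a b ha hb => exact hadd a b ha hb
  | single i k =>
    induction k with
    | zero => rwa [Finsupp.single_zero]
    | succ k ih =>
      rw [Finsupp.single_add]
      refine hadd _ _ ih ⟨0, ?_⟩
      change ev ω (X i) = _
      rw [ev, aeval_X, klin_single, Nat.cast_one, one_mul]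
      ring

theorem coeff_mul_of_dvd {A : Type} [CommRing A] {p : Polynomial A} {c : ℕ}
    (h : Polynomial.X ^ c ∣ p) (q : Polynomial A) : (q * p).coeff c = q.coeff 0 * p.coeff c := by
  obtain ⟨p', rfl⟩ := h
  have h1 := Polynomial.coeff_X_pow_mul (q * p') c 0
  have h2 := Polynomial.coeff_X_pow_mul p' c 0
  rw [zero_add] at h1 h2
  rw [mul_left_comm, h1, h2, Polynomial.mul_coeff_zero]

omit [Fintype ι] [DecidableEq ι] in
theorem coeff_ev_monomial_mul (ω : ι → R2 ι) (a : ι →₀ ℕ) {K : R2 ι} {c : ℕ}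
    (h : Polynomial.X ^ c ∣ ev ω K) :
    (ev ω (monomial a 1 * K)).coeff c = (ev ω K).coeff c := by
  obtain ⟨q, hq⟩ := ev_monomial ω a
  rw [map_mul, coeff_mul_of_dvd h, hq]
  simp

omit [Fintype ι] [DecidableEq ι] in
theorem ev_mul_one_sub (ω : ι → R2 ι) (a : ι →₀ ℕ) (K : R2 ι) :
    ∃ q, ev ω (K * (1 - monomial a 1)) = Polynomial.X * (q * ev ω K) ∧ q.coeff 0 = -lin ω a := by
  obtain ⟨q, hq⟩ := ev_monomial ω a
  refine ⟨-(Polynomial.C (lin ω a) + Polynomial.X * q), ?_, by simp⟩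
  rw [map_mul, map_sub, map_one, hq]
  ring

omit [Fintype ι] [DecidableEq ι] in
theorem coeff_ev_mul_one_sub (ω : ι → R2 ι) (a : ι →₀ ℕ) {K : R2 ι} {c : ℕ}
    (h : Polynomial.X ^ c ∣ ev ω K) :
    (ev ω (K * (1 - monomial a 1))).coeff (c + 1) = -lin ω a * (ev ω K).coeff c := by
  obtain ⟨q, hq, h0⟩ := ev_mul_one_sub ω a K
  rw [hq, Polynomial.coeff_X_mul, coeff_mul_of_dvd h, h0]

omit [Fintype σ] [DecidableEq σ] in
theorem le_colon_self (I : Ideal (Pol σ)) (g : Pol σ) : I ≤ I.colon {g} :=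
  fun _ hf => mem_colon_iff.2 (I.mul_mem_right _ hf)

omit [Fintype σ] [DecidableEq σ] in
theorem colon_eq_of_prime {P : Ideal (Pol σ)} (hP : P.IsPrime) {f : Pol σ} (hf : f ∉ P) :
    P.colon {f} = P :=
  le_antisymm (fun _ h => (hP.mem_or_mem (mem_colon_iff.1 h)).resolve_right hf)
    (le_colon_self P f)

omit [DecidableEq σ] in
theorem IsK.add {w : σ → ι →₀ ℕ} (hw : ∀ v, w v ≠ 0) {τ : Finset σ} {I : Ideal (Pol σ)}
    (hI : Gr w I) {g : Pol σ} {a : ι →₀ ℕ} (hg : Hg w g a) {K K' : R2 ι}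
    (h : IsK w τ (I ⊔ Ideal.span {g}) K) (h' : IsK w τ (I.colon {g}) K') :
    IsK w τ I (K + monomial a 1 * K') := by
  unfold IsK at h h' ⊢
  rw [coe_add, coe_mul, coe_monomial, h, h', HS_add hw hI hg]
  ring

omit [Fintype σ] [DecidableEq σ] [Fintype ι] [DecidableEq ι] in
theorem isK_top (w : σ → ι →₀ ℕ) (τ : Finset σ) : IsK w τ ⊤ 0 := by
  rw [IsK, HS_top, zero_mul, coe_zero]

omit [Fintype ι] [DecidableEq ι] in
theorem coe_one_sub (a : ι →₀ ℕ) : ((1 - monomial a 1 : R2 ι) : MvPowerSeries ι (ZMod 2)) =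
    1 - MvPowerSeries.monomial a 1 := by
  rw [eq_sub_iff_add_eq, ← coe_monomial, ← coe_add, sub_add_cancel, coe_one]

omit [Fintype σ] [Fintype ι] [DecidableEq ι] in
theorem IsK.of_erase {w : σ → ι →₀ ℕ} {τ : Finset σ} {I : Ideal (Pol σ)} {v : σ} (hv : v ∈ τ)
    {K : R2 ι} (h : IsK w (τ.erase v) I K) : IsK w τ I (K * (1 - monomial (w v) 1)) := by
  unfold IsK at h ⊢
  rw [coe_mul, coe_one_sub, h, ← Finset.prod_erase_mul _ _ hv, mul_assoc]

omit [DecidableEq σ] in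
theorem HS_cut {w : σ → ι →₀ ℕ} (hw : ∀ v, w v ≠ 0) {P : Ideal (Pol σ)} (hG : Gr w P)
    {f : Pol σ} {a : ι →₀ ℕ} (hf : Hg w f a) (hc : P.colon {f} = P) :
    HS w (P ⊔ Ideal.span {f}) = HS w P * (1 - MvPowerSeries.monomial a 1) := by
  have := HS_add hw hG hf
  rw [hc] at this
  linear_combination -this

theorem isK_cut_iff {w : σ → ι →₀ ℕ} (hw : ∀ v, w v ≠ 0) {τ : Finset σ} {P : Ideal (Pol σ)}
    (hG : Gr w P) {v : σ} (hv : v ∈ τ) {f : Pol σ} (hf : Hg w f (w v)) (hc : P.colon {f} = P)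
    {K : R2 ι} : IsK w (τ.erase v) (P ⊔ Ideal.span {f}) K ↔ IsK w τ P K := by
  unfold IsK
  rw [HS_cut hw hG hf hc, ← Finset.mul_prod_erase _ _ hv, mul_assoc]

omit [DecidableEq σ] in
theorem IsK.cut {w : σ → ι →₀ ℕ} (hw : ∀ v, w v ≠ 0) {τ : Finset σ} {P : Ideal (Pol σ)}
    (hG : Gr w P) {f : Pol σ} {a : ι →₀ ℕ} (hf : Hg w f a) (hc : P.colon {f} = P)
    {K : R2 ι} (h : IsK w τ P K) : IsK w τ (P ⊔ Ideal.span {f}) (K * (1 - monomial a 1)) := by
  unfold IsK at h ⊢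
  rw [HS_cut hw hG hf hc, coe_mul, coe_one_sub, h]
  ring

omit [Fintype σ] in
theorem Bd.cut {τ : Finset σ} {P J : Ideal (Pol σ)} {c : ℕ} (h : Bd τ P c) (hP : P.IsPrime)
    (hg : Gen τ P) {f : Pol σ} (hf : f ∉ P) (hPJ : P ≤ J) (hfJ : f ∈ J) : Bd τ J (c + 1) := by
  intro Y hY hi
  obtain ⟨v, hv, hvY, h1⟩ := drop hP hg hf hPJ hfJ hi
  have := h _ (Finset.insert_subset hv hY) h1
  rw [Finset.card_insert_of_notMem hvY] at this
  omega

omit [Fintype σ] in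
theorem Bd.erase {τ : Finset σ} {J : Ideal (Pol σ)} {c : ℕ} (h : Bd τ J (c + 1)) {v : σ}
    (hv : v ∈ τ) : Bd (τ.erase v) J c := by
  intro Y hY hi
  have := h Y (hY.trans (Finset.erase_subset v τ)) hi
  rw [← Finset.card_erase_add_one hv] at this
  omega

omit [DecidableEq σ] in
theorem exists_isK_of_prime {w : σ → ι →₀ ℕ} (hw : ∀ v, w v ≠ 0) {τ : Finset σ}
    (hp : ∀ P : Ideal (Pol σ), P.IsPrime → Gr w P → Gen τ P →
      ∃ K, IsK w τ P K ∧ ∀ c, Bd τ P c → ∀ ω, Polynomial.X ^ c ∣ ev ω K)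
    {I : Ideal (Pol σ)} (hI : Gr w I) (hg : Gen τ I) :
    ∃ K, IsK w τ I K ∧ ∀ c, Bd τ I c → ∀ ω, Polynomial.X ^ c ∣ ev ω K := by
  obtain ⟨L, hL⟩ := exists_filt hI (gr_top w) le_top
  induction hL with
  | nil => exact ⟨0, isK_top w τ, fun c _ ω => by simp⟩
  | @cons I a g L hI' hga _ hP _ ih =>
    obtain ⟨K, h1, h2⟩ := ih (hI.sup_span hga) (hg.mono le_sup_left)
    obtain ⟨K', h1', h2'⟩ := hp _ hP (hI.colon hga) (hg.mono (le_colon_self I g))
    refine ⟨_, h1.add hw hI hga h1', fun c hc ω => ?_⟩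
    rw [map_add, map_mul]
    exact dvd_add (h2 c (hc.mono le_sup_left) ω)
      ((h2' c (hc.mono (le_colon_self I g)) ω).mul_left _)

theorem exists_isK {w : σ → ι →₀ ℕ} (hw : ∀ v, w v ≠ 0) (τ : Finset σ) {I : Ideal (Pol σ)}
    (hI : Gr w I) (hg : Gen τ I) :
    ∃ K, IsK w τ I K ∧ ∀ c, Bd τ I c → ∀ ω, Polynomial.X ^ c ∣ ev ω K := by
  induction τ using Finset.induction_on generalizing I with
  | empty =>
    refine exists_isK_of_prime hw (fun P hP hG hg => ⟨1, ?_, fun c hc ω => ?_⟩) hI hg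
    · rw [IsK, HS_of_gen_empty hw hG hg hP.ne_top, Finset.prod_empty, coe_one, mul_one]
    · have := hc ∅ le_rfl (indep_empty hP.ne_top)
      rw [Finset.card_empty, zero_add, Nat.le_zero] at this
      simp [this]
  | insert v τ hv ih =>
    refine exists_isK_of_prime hw (fun P hP hG hg => ?_) hI hg
    have hm := Finset.mem_insert_self v τ
    rw [← Finset.erase_insert hv] at ih
    by_cases hX : X v ∈ P
    · obtain ⟨K, h1, h2⟩ := ih hG (hg.erase (zero_mem _) (by rwa [sub_zero]))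
      refine ⟨_, h1.of_erase hm, fun c hc ω => ?_⟩
      rcases c with _ | c
      · simp
      · obtain ⟨q, hq, -⟩ := ev_mul_one_sub ω (w v) K
        rw [hq, pow_succ']
        exact mul_dvd_mul_left _ ((h2 c (hc.erase hm) ω).mul_left _)
    · have hX' : X v ∈ P ⊔ Ideal.span {X v} :=
        Ideal.mem_sup_right (Ideal.mem_span_singleton_self _)
      obtain ⟨K, h1, h2⟩ := ih (hG.sup_span (isWeightedHomogeneous_X ℚ w v))
        ((hg.mono le_sup_left).erase (zero_mem _) (by rwa [sub_zero]))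
      exact ⟨K, (isK_cut_iff hw hG hm (isWeightedHomogeneous_X ℚ w v)
        (colon_eq_of_prime hP hX)).1 h1,
        fun c hc ω => h2 c ((hc.cut hP hg hX le_sup_left hX').erase hm) ω⟩

omit [Fintype σ] [DecidableEq σ] [Fintype ι] [DecidableEq ι] in
theorem Kp_eq {w : σ → ι →₀ ℕ} {τ : Finset σ} {I : Ideal (Pol σ)} {K : R2 ι} (h : IsK w τ I K) :
    Kp w τ I = K :=
  coe_injective ι (ZMod 2) ((Classical.epsilon_spec (p := IsK w τ I) ⟨K, h⟩).trans h.symm)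

theorem isK_Kp {w : σ → ι →₀ ℕ} (hw : ∀ v, w v ≠ 0) {τ : Finset σ} {I : Ideal (Pol σ)}
    (hI : Gr w I) (hg : Gen τ I) : IsK w τ I (Kp w τ I) := by
  obtain ⟨K, h, -⟩ := exists_isK hw τ hI hg
  rwa [Kp_eq h]

theorem dvd_Kp {w : σ → ι →₀ ℕ} (hw : ∀ v, w v ≠ 0) {τ : Finset σ} {I : Ideal (Pol σ)}
    (hI : Gr w I) (hg : Gen τ I) {c : ℕ} (hc : Bd τ I c) (ω : ι → R2 ι) :
    Polynomial.X ^ c ∣ ev ω (Kp w τ I) := by
  obtain ⟨K, h, h'⟩ := exists_isK hw τ hI hg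
  rw [Kp_eq h]
  exact h' c hc ω

omit [Fintype σ] [DecidableEq σ] [Fintype ι] [DecidableEq ι] in
/-- Naturality of the class in `ω`. -/
theorem cls_natural (ω : ι → R2 ι) (w : σ → ι →₀ ℕ) (τ : Finset σ) (I : Ideal (Pol σ)) (c : ℕ) :
    cls ω w τ I c = aeval ω (cls X w τ I c) := by
  have h : (ev ω).toRingHom = (Polynomial.mapRingHom
      (aeval ω : R2 ι →ₐ[ZMod 2] R2 ι).toRingHom).comp (ev (X : ι → R2 ι)).toRingHom := by
    refine ringHom_ext (fun r => ?_) fun i => ?_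
    · exact DFunLike.congr_fun (Subsingleton.elim ((ev ω).toRingHom.comp C)
        (((Polynomial.mapRingHom (aeval ω : R2 ι →ₐ[ZMod 2] R2 ι).toRingHom).comp
          (ev (X : ι → R2 ι)).toRingHom).comp C)) r
    · simp [ev]
  have h1 := DFunLike.congr_fun h (Kp w τ I)
  unfold cls
  refine (congrArg (fun p => Polynomial.coeff p c) h1).trans ?_
  exact Polynomial.coeff_map _ _

theorem cls_filt {ω : ι → R2 ι} {w : σ → ι →₀ ℕ} (hw : ∀ v, w v ≠ 0) {τ : Finset σ}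
    {I I' : Ideal (Pol σ)} {L : List ((ι →₀ ℕ) × Ideal (Pol σ))} (hL : Filt w I' I L)
    (hI' : Gr w I') (hg : Gen τ I) {c : ℕ} (hc : Bd τ I c) :
    cls ω w τ I c = cls ω w τ I' c + (L.map fun p => cls ω w τ p.2 c).sum := by
  have key : ∀ {I L}, Filt w I' I L → Gr w I := fun h => by
    cases h with
    | nil => exact hI'
    | cons h => exact h
  induction hL with
  | nil => simp
  | @cons I a g L hI hga _ hP hL ih =>
    have h1 := (isK_Kp hw (hI.sup_span hga) (hg.mono le_sup_left)).add hw hI hga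
      (isK_Kp hw (hI.colon hga) (hg.mono (le_colon_self I g)))
    have h2 := ih (hg.mono le_sup_left) (hc.mono le_sup_left)
    rw [List.map_cons, List.sum_cons, add_left_comm, ← h2, add_comm]
    unfold cls
    rw [Kp_eq h1, map_add, Polynomial.coeff_add, coeff_ev_monomial_mul ω a
      (dvd_Kp hw (hI.colon hga) (hg.mono (le_colon_self I g)) (hc.mono (le_colon_self I g)) ω)]

omit [Fintype σ] [DecidableEq σ] [Fintype ι] [DecidableEq ι] in
theorem cls_top (ω : ι → R2 ι) (w : σ → ι →₀ ℕ) (τ : Finset σ) (c : ℕ) : cls ω w τ ⊤ c = 0 := by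
  rw [cls, Kp_eq (isK_top w τ), map_zero, Polynomial.coeff_zero]

open Classical in
theorem State.exists_prime_odd {ω : ι → R2 ι} {w : σ → ι →₀ ℕ} (hw : ∀ v, w v ≠ 0)
    {τ : Finset σ} {I : Ideal (Pol σ)} {c : ℕ} (h : State ω w τ I c)
    {L : List ((ι →₀ ℕ) × Ideal (Pol σ))} (hL : Filt w ⊤ I L) :
    ∃ P : Ideal (Pol σ), P.IsPrime ∧ I ≤ P ∧ State ω w τ P c ∧
      Odd ((L.map Prod.snd).count P) := by
  have h1 := cls_filt (ω := ω) hw hL (gr_top w) h.gen h.bd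
  have h2 : (L.map fun p => cls ω w τ p.2 c) = (L.map Prod.snd).map fun P => cls ω w τ P c := by
    rw [List.map_map]
    rfl
  rw [cls_top, zero_add, h2, Finset.sum_list_map_count] at h1
  obtain ⟨P, hP, hne⟩ := Finset.exists_ne_zero_of_sum_ne_zero (h1 ▸ h.ne)
  obtain ⟨p, hp, rfl⟩ := List.mem_map.1 (List.mem_toFinset.1 hP)
  obtain ⟨h3, h4, h5, -⟩ := hL.mem hp
  refine ⟨p.2, h3, h5, ⟨h4, h.gen.mono h5, h.bd.mono h5, fun h0 => hne (by rw [h0, smul_zero])⟩,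
    Nat.not_even_iff_odd.1 fun he => hne ?_⟩
  rw [nsmul_eq_mul, (CharP.cast_eq_zero_iff (R2 ι) 2 _).2 he.two_dvd, zero_mul]

theorem State.exists_prime {ω : ι → R2 ι} {w : σ → ι →₀ ℕ} (hw : ∀ v, w v ≠ 0)
    {τ : Finset σ} {I : Ideal (Pol σ)} {c : ℕ} (h : State ω w τ I c) :
    ∃ P : Ideal (Pol σ), P.IsPrime ∧ I ≤ P ∧ State ω w τ P c := by
  obtain ⟨L, hL⟩ := exists_filt h.gr (gr_top w) le_top
  obtain ⟨P, h1, h2, h3, -⟩ := h.exists_prime_odd hw hL
  exact ⟨P, h1, h2, h3⟩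

theorem State.lower {ω : ι → R2 ι} {w : σ → ι →₀ ℕ} (hw : ∀ v, w v ≠ 0)
    {τ : Finset σ} {I : Ideal (Pol σ)} {c : ℕ} (h : State ω w τ I c) :
    ∃ Y ⊆ τ, Indep I Y ∧ Y.card + c = τ.card := by
  by_contra hc
  push Not at hc
  have h1 : Bd τ I (c + 1) := fun Y hY hi => by
    have := h.bd Y hY hi
    have := hc Y hY hi
    omega
  exact h.ne (Polynomial.X_pow_dvd_iff.1 (dvd_Kp hw h.gr h.gen h1 ω) c (Nat.lt_succ_self c))

theorem State.cut {ω : ι → R2 ι} {w : σ → ι →₀ ℕ} (hw : ∀ v, w v ≠ 0)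
    {τ : Finset σ} {P : Ideal (Pol σ)} {c : ℕ} (h : State ω w τ P c) (hP : P.IsPrime)
    {f : Pol σ} {a : ι →₀ ℕ} (hf : Hg w f a) (ha : lin ω a ≠ 0) (hfP : f ∉ P) :
    State ω w τ (P ⊔ Ideal.span {f}) (c + 1) := by
  refine ⟨h.gr.sup_span hf, h.gen.mono le_sup_left, h.bd.cut hP h.gen hfP le_sup_left
    (Ideal.mem_sup_right (Ideal.mem_span_singleton_self _)), ?_⟩
  rw [cls, Kp_eq ((isK_Kp hw h.gr h.gen).cut hw h.gr hf (colon_eq_of_prime hP hfP)),
    coeff_ev_mul_one_sub ω a (dvd_Kp hw h.gr h.gen h.bd ω)]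
  exact mul_ne_zero (neg_ne_zero.2 ha) h.ne

theorem State.elim_notMem {ω : ι → R2 ι} {w : σ → ι →₀ ℕ} (hw : ∀ v, w v ≠ 0)
    {τ : Finset σ} {P : Ideal (Pol σ)} {c : ℕ} (h : State ω w τ P c) (hP : P.IsPrime)
    {v : σ} (hv : v ∈ τ) {g : Pol σ} (hg : Hg w g (w v))
    (hs : g ∈ supported ℚ ((τ.erase v : Finset σ) : Set σ)) (hf : X v - g ∉ P) :
    State ω w (τ.erase v) (P ⊔ Ideal.span {X v - g}) c := by
  have hh : Hg w (X v - g) (w v) := (isWeightedHomogeneous_X ℚ w v).sub hg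
  have hm : X v - g ∈ P ⊔ Ideal.span {X v - g} :=
    Ideal.mem_sup_right (Ideal.mem_span_singleton_self _)
  refine ⟨h.gr.sup_span hh, (h.gen.mono le_sup_left).erase hs hm,
    (h.bd.cut hP h.gen hf le_sup_left hm).erase hv, ?_⟩
  rw [cls, Kp_eq ((isK_cut_iff hw h.gr hv hh (colon_eq_of_prime hP hf)).2 (isK_Kp hw h.gr h.gen))]
  exact h.ne

theorem State.elim_mem {ω : ι → R2 ι} {w : σ → ι →₀ ℕ} (hw : ∀ v, w v ≠ 0)
    {τ : Finset σ} {P : Ideal (Pol σ)} {c : ℕ} (h : State ω w τ P c)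
    {v : σ} (hv : v ∈ τ) {g : Pol σ}
    (hs : g ∈ supported ℚ ((τ.erase v : Finset σ) : Set σ)) (hf : X v - g ∈ P) :
    lin ω (w v) ≠ 0 ∧ ∃ c', c = c' + 1 ∧ State ω w (τ.erase v) P c' := by
  have hg := h.gen.erase hs hf
  have hne := h.ne
  rw [cls, Kp_eq ((isK_Kp hw h.gr hg).of_erase hv)] at hne
  rcases c with _ | c
  · obtain ⟨q, hq, -⟩ := ev_mul_one_sub ω (w v) (Kp w (τ.erase v) P)
    rw [hq] at hne
    simp at hne
  · rw [coeff_ev_mul_one_sub ω _ (dvd_Kp hw h.gr hg (h.bd.erase hv) ω)] at hne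
    exact ⟨neg_ne_zero.1 (left_ne_zero_of_mul hne), c, rfl, h.gr, hg, h.bd.erase hv,
      right_ne_zero_of_mul hne⟩

/-- Both cases of elimination, followed by passing to a prime. -/
theorem State.elim {ω : ι → R2 ι} {w : σ → ι →₀ ℕ} (hw : ∀ v, w v ≠ 0)
    {τ : Finset σ} {P : Ideal (Pol σ)} {c : ℕ} (h : State ω w τ P c) (hP : P.IsPrime)
    {v : σ} (hv : v ∈ τ) {g : Pol σ} (hg : Hg w g (w v))
    (hs : g ∈ supported ℚ ((τ.erase v : Finset σ) : Set σ)) :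
    ∃ (P' : Ideal (Pol σ)) (c' : ℕ), P'.IsPrime ∧ P ≤ P' ∧ X v - g ∈ P' ∧ c' ≤ c ∧
      (lin ω (w v) = 0 → c' = c) ∧ State ω w (τ.erase v) P' c' := by
  by_cases hf : X v - g ∈ P
  · obtain ⟨h1, c', rfl, h2⟩ := h.elim_mem hw hv hs hf
    exact ⟨P, c', hP, le_rfl, hf, Nat.le_succ _, fun h0 => absurd h0 h1, h2⟩
  · obtain ⟨P', h1, h2, h3⟩ := (h.elim_notMem hw hP hv hg hs hf).exists_prime hw
    exact ⟨P', c, h1, le_sup_left.trans h2,
      h2 (Ideal.mem_sup_right (Ideal.mem_span_singleton_self _)), le_rfl, fun _ => rfl, h3⟩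

theorem State.X_notMem {ω : ι → R2 ι} {w : σ → ι →₀ ℕ} (hw : ∀ v, w v ≠ 0)
    {τ : Finset σ} {P : Ideal (Pol σ)} {c : ℕ} (h : State ω w τ P c)
    {v : σ} (hv : v ∈ τ) (h0 : lin ω (w v) = 0) : X v ∉ P := fun hX =>
  (h.elim_mem hw hv (zero_mem _) (by rwa [sub_zero])).1 h0

theorem State.no_between {ω : ι → R2 ι} {w : σ → ι →₀ ℕ} (hw : ∀ v, w v ≠ 0)
    {τ : Finset σ} {P P' Q : Ideal (Pol σ)} {c : ℕ} (h : State ω w τ P c)
    (h' : State ω w τ P' (c + 1)) (hP : P.IsPrime) (hQ : Q.IsPrime) (h1 : P < Q) (h2 : Q ≤ P') :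
    Q = P' := by
  by_contra hne
  obtain ⟨f, hf, hfP⟩ := SetLike.exists_of_lt h1
  obtain ⟨f', hf', hfQ⟩ := SetLike.exists_of_lt (lt_of_le_of_ne h2 hne)
  have h3 := (h.bd.cut hP h.gen hfP h1.le hf).cut hQ (h.gen.mono h1.le) hfQ h2 hf'
  obtain ⟨Y, hY, hi, hc⟩ := h'.lower hw
  have := h3 Y hY hi
  omega

end Vale.Agent.P199
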