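import Vale.Agent.P199.ClsApi
import Vale.Agent.P199.KPoly
import Vale.Agent.P199.Hom

/-! # P199: the dimension bound.

Plan. `exists_flag_basis`: let `V k` be the span of the `W j *ᵥ e_i`, `i < k`; it is invariant.
Choose greedily (`exists_linearIndepOn_extension`, induction on `k`) a set `𝓑` of pairs `(i, j)`
such that the vectors `W j *ᵥ e_i` with `(i, j) ∈ 𝓑`, `i < k` form a basis of `V k` for all `k`.
`exists_gens`: the entries of the `x g` are polynomials in the entries of the change of basis, its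
inverse, and the block triangular entries, of which there are at most `(N ^ 2 + β N) / 2` per
matrix. `dim_bound`: map `S` to the algebraic closure `K` of the fraction field of `S / P` by
`X v ↦ X v / τ ^ w v`, `τ i ^ 2 = π i`; this kills `flat P` and is injective on class zero elements
modulo `flat P`. Use `State.lower` and `card_le_of_indep_ker`. -/

namespace Vale.Agent.P199

open MvPolynomial

theorem exists_flag_basis {K V ι : Type} [Field K] [AddCommGroup V] [Module K V] (v : ι → V)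
    (l : ι → ℕ) (k : ℕ) : ∃ b ⊆ {p | l p < k}, LinearIndepOn K v b ∧
      ∀ p, l p < k → v p ∈ Submodule.span K (v '' {q ∈ b | l q ≤ l p}) := by
  induction k with
  | zero => exact ⟨∅, Set.empty_subset _, linearIndepOn_empty _ _, fun p hp => absurd hp (by omega)⟩
  | succ k ih =>
    obtain ⟨b, hb, hli, h⟩ := ih
    obtain ⟨b', h1, h2, h3, h4⟩ := exists_linearIndepOn_extension hli
      (t := {p | l p < k + 1}) fun p hp => Nat.lt_succ_of_lt (hb hp)
    refine ⟨b', h1, h4, fun p hp => ?_⟩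
    rcases Nat.lt_succ_iff_lt_or_eq.1 hp with h5 | h5
    · refine Submodule.span_mono (Set.image_mono fun q hq => ?_) (h p h5)
      exact ⟨h2 hq.1, hq.2⟩
    · refine Submodule.span_mono (Set.image_mono fun q hq => ?_) (h3 ⟨p, hp, rfl⟩)
      exact ⟨hq, h5 ▸ Nat.lt_succ_iff.1 (h1 hq)⟩

theorem card_pairs_le {α : Type} [Fintype α] (l : α → ℕ) {β : ℕ} (j : α → Fin β)
    (h : ∀ p q, l p = l q → j p = j q → p = q) :
    2 * (Finset.univ.filter fun z : α × α => l z.1 ≤ l z.2).card ≤
      Fintype.card α ^ 2 + β * Fintype.card α := by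
  classical
  have h1 : (Finset.univ.filter fun z : α × α => l z.2 ≤ l z.1).card =
      (Finset.univ.filter fun z : α × α => l z.1 ≤ l z.2).card :=
    Finset.card_equiv (Equiv.prodComm α α) fun z => by simp
  have h2 := Finset.card_union_add_card_inter
    (Finset.univ.filter fun z : α × α => l z.1 ≤ l z.2)
    (Finset.univ.filter fun z : α × α => l z.2 ≤ l z.1)
  have h3 := Finset.card_le_univ ((Finset.univ.filter fun z : α × α => l z.1 ≤ l z.2) ∪
    Finset.univ.filter fun z : α × α => l z.2 ≤ l z.1)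
  have h4 : ((Finset.univ.filter fun z : α × α => l z.1 ≤ l z.2) ∩
      Finset.univ.filter fun z : α × α => l z.2 ≤ l z.1).card ≤
      (Finset.univ : Finset (Fin β × α)).card := by
    refine Finset.card_le_card_of_injOn (fun z => (j z.2, z.1)) (fun _ _ => by simp)
      fun z hz z' hz' e => ?_
    simp only [Finset.coe_inter, Finset.coe_filter, Finset.mem_univ, true_and, Set.mem_inter_iff,
      Set.mem_ofPred_eq, Prod.mk.injEq] at hz hz' e
    refine Prod.ext e.2 (h _ _ ?_ e.1)
    rw [e.2] at hz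
    omega
  rw [Finset.card_univ, Fintype.card_prod, Fintype.card_fin] at h4
  rw [Fintype.card_prod, ← pow_two] at h3
  omega

theorem exists_gens {K n : Type} [Field K] [Algebra ℚ K] [Fintype n] [DecidableEq n] {β : ℕ}
    (x : Fin 5 → Matrix n n K) (W : Fin β → Matrix n n K)
    (h1 : (1 : Matrix n n K) ∈ Submodule.span K (Set.range W))
    (hx : ∀ g j, x g * W j ∈ Submodule.span K (Set.range W)) :
    ∃ E : Finset K, 2 * E.card ≤ 9 * Fintype.card n ^ 2 + 5 * β * Fintype.card n ∧
      ∀ g a b, x g a b ∈ Algebra.adjoin ℚ (E : Set K) := by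
  classical
  let v : n × Fin β → n → K := fun p a => W p.2 a p.1
  let l : n × Fin β → ℕ := fun p => Fintype.equivFin n p.1
  obtain ⟨b, -, hli, hb⟩ := exists_flag_basis (K := K) v l (Fintype.card n)
  have hcol : ∀ M ∈ Submodule.span K (Set.range W), ∀ i, (fun a => M a i) ∈
      Submodule.span K ((fun p : b => v p) '' {q | l q ≤ Fintype.equivFin n i}) := by
    intro M hM i
    induction hM using Submodule.span_induction with
    | mem M h =>
      obtain ⟨j, rfl⟩ := h
      refine Submodule.span_mono ?_ (hb (i, j) (Fintype.equivFin n i).2)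
      rintro _ ⟨q, hq, rfl⟩
      exact ⟨⟨q, hq.1⟩, hq.2, rfl⟩
    | zero => exact Submodule.zero_mem _
    | add M N _ _ h1 h2 => exact Submodule.add_mem _ h1 h2
    | smul c M _ h1 => exact Submodule.smul_mem _ c h1
  let B : Module.Basis b K (n → K) := Module.Basis.mk hli (by
    rw [← (Pi.basisFun K n).span_eq, Submodule.span_le]
    rintro _ ⟨i, rfl⟩
    refine Submodule.span_mono (Set.image_subset_range _ _) (?_ : _ ∈ Submodule.span K
      ((fun p : b => v p) '' {q | l q ≤ Fintype.equivFin n i}))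
    rw [show Pi.basisFun K n i = fun a => (1 : Matrix n n K) a i from
      funext fun a => by simp [Pi.single_apply, Matrix.one_apply]]
    exact hcol 1 h1 i)
  have hB : ⇑B = fun p : b => v p := Module.Basis.coe_mk _ _
  have hcard : Fintype.card b = Fintype.card n := by
    rw [← Module.finrank_eq_card_basis B, Module.finrank_fintype_fun_eq_card]
  have hrep : ∀ (y : n → K) (a : n), y a = ∑ p : b, B.repr y p * v p a := fun y a => by
    conv_lhs => rw [← B.sum_repr y]
    simp [hB]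
  let S := Finset.univ.filter fun z : b × b => l z.1 ≤ l z.2
  refine ⟨Finset.univ.image (fun z : n × b => v z.2 z.1) ∪
    Finset.univ.image (fun z : n × b => B.repr (fun a => (1 : Matrix n n K) a z.1) z.2) ∪
    (Finset.univ ×ˢ S).image fun z : Fin 5 × b × b =>
      B.repr (fun a => (x z.1 * W z.2.2.1.2) a z.2.2.1.1) z.2.1, ?_, fun g a c => ?_⟩
  · have h2 := card_pairs_le (fun p : b => l p) (fun p => p.1.2) fun p q e1 e2 =>
      Subtype.ext (Prod.ext ((Fintype.equivFin n).injective (Fin.ext e1)) e2)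
    refine (Nat.mul_le_mul_left 2 ((Finset.card_union_le _ _).trans (add_le_add
      ((Finset.card_union_le _ _).trans (add_le_add Finset.card_image_le Finset.card_image_le))
      Finset.card_image_le))).trans ?_
    rw [Finset.card_product, Finset.card_univ, Finset.card_univ, Fintype.card_prod,
      Fintype.card_fin, hcard, ← pow_two, mul_assoc]
    rw [hcard] at h2
    change 2 * S.card ≤ _ at h2
    omega
  have e1 : x g a c = ∑ q : b, B.repr (fun a => (1 : Matrix n n K) a c) q *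
      ∑ p : b, B.repr (fun a => (x g * W q.1.2) a q.1.1) p * v p a := by
    conv_lhs => rw [← mul_one (x g), Matrix.mul_apply]
    simp only [← hrep, Matrix.mul_apply, Finset.mul_sum]
    rw [Finset.sum_comm]
    refine Finset.sum_congr rfl fun d _ => ?_
    rw [hrep (fun a => (1 : Matrix n n K) a c) d, Finset.mul_sum]
    exact Finset.sum_congr rfl fun q _ => mul_left_comm _ _ _
  rw [e1]
  refine Subalgebra.sum_mem _ fun q _ => Subalgebra.mul_mem _ (Algebra.subset_adjoin ?_)
    (Subalgebra.sum_mem _ fun p _ => Subalgebra.mul_mem _ ?_ (Algebra.subset_adjoin ?_))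
  · exact Finset.mem_union_left _ (Finset.mem_union_right _
      (Finset.mem_image.2 ⟨(c, q), Finset.mem_univ _, rfl⟩))
  · by_cases h : l p ≤ l q
    · exact Algebra.subset_adjoin (Finset.mem_union_right _ (Finset.mem_image.2 ⟨(g, p, q),
        Finset.mem_product.2 ⟨Finset.mem_univ _, Finset.mem_filter.2 ⟨Finset.mem_univ _, h⟩⟩, rfl⟩))
    · have h2 := hcol _ (hx g q.1.2) q.1.1
      rw [← hB, B.mem_span_image] at h2
      rw [Finsupp.notMem_support_iff.1 fun h3 => h (h2 h3)]
      exact Subalgebra.zero_mem _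
  · exact Finset.mem_union_left _ (Finset.mem_union_left _
      (Finset.mem_image.2 ⟨(a, p), Finset.mem_univ _, rfl⟩))

theorem exists_closed_point {σ : Type} {P : Ideal (Pol σ)} (hP : P.IsPrime) :
    ∃ (K : Type) (_ : Field K) (_ : Algebra ℚ K) (_ : IsAlgClosed K) (ψ : Pol σ →ₐ[ℚ] K),
      RingHom.ker ψ = P := by
  refine ⟨AlgebraicClosure (FractionRing (Pol σ ⧸ P)), inferInstance, inferInstance,
    inferInstance, ((IsScalarTower.toAlgHom ℚ _ _).comp
      (IsScalarTower.toAlgHom ℚ _ (FractionRing (Pol σ ⧸ P)))).comp (Ideal.Quotient.mkₐ ℚ P), ?_⟩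
  ext f
  simp [RingHom.mem_ker, Ideal.Quotient.eq_zero_iff_mem]

theorem aeval_div_mul {σ ι K : Type} [Fintype ι] [Field K] [Algebra ℚ K] (w : σ → ι →₀ ℕ)
    (ψ : Pol σ →ₐ[ℚ] K) {τ : ι → K} (hτ : ∀ i, τ i ≠ 0) {f : Pol σ} {D : ι →₀ ℕ}
    (hf : Hg w f D) :
    aeval (fun v => ψ (X v) / ∏ i, τ i ^ w v i) f * ∏ i, τ i ^ D i = ψ f := by
  have key : ∀ d : σ →₀ ℕ, aeval (fun v => ψ (X v) / ∏ i, τ i ^ w v i) (monomial d (1 : ℚ)) *
      ∏ i, τ i ^ Finsupp.weight w d i = ψ (monomial d 1) := fun d => by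
    induction d using Finsupp.induction_linear with
    | zero => simp
    | add d e h1 h2 =>
      rw [← mul_one (1 : ℚ), ← monomial_mul, map_mul, map_mul, ← h1, ← h2, map_add]
      simp only [Finsupp.add_apply, pow_add, Finset.prod_mul_distrib]
      ring
    | single v k =>
      rw [← X_pow_eq_monomial, map_pow, map_pow, aeval_X, Finsupp.weight_single]
      simp only [Finsupp.smul_apply, smul_eq_mul, pow_mul', Finset.prod_pow]
      rw [← mul_pow, div_mul_cancel₀ _
        (Finset.prod_ne_zero_iff.2 fun i _ => pow_ne_zero _ (hτ i))]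
  conv_lhs => rw [f.as_sum]
  conv_rhs => rw [f.as_sum]
  rw [map_sum, map_sum, Finset.sum_mul]
  refine Finset.sum_congr rfl fun d hd => ?_
  rw [← hf (mem_support_iff.1 hd), ← mul_one (coeff d f), ← smul_eq_mul (coeff d f),
    ← smul_monomial, map_smul, map_smul, smul_mul_assoc, key]

theorem Sat.mem_span {r β : ℕ} {B K : Type} [CommRing B] [Algebra ℚ B] [Field K] [Algebra ℚ K]
    {κ : Cls (Gp r) B} (χ : B →ₐ[ℚ] K) (hχ : ∀ b, κ.c 0 b = b → χ b = 0 → b = 0)
    {W : Fin β → Mat r B} {a : Mat r B} (h : Sat κ.Zc W a) :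
    a.map χ ∈ Submodule.span K (Set.range fun j => (W j).map χ) := by
  obtain ⟨c, hc, hc0, z, hz, h⟩ := h
  obtain ⟨b, hb, rfl⟩ := κ.mem_Zc.1 hc
  choose y _ hy using fun j => κ.mem_Zc.1 (hz j)
  have h0 : χ b ≠ 0 := fun h1 => hc0 (by rw [hχ b hb h1, map_zero])
  rw [← Submodule.smul_mem_iff _ h0]
  have e : χ b • a.map χ = ∑ j, χ (y j) • (W j).map χ := by
    simp only [← hy, ← Algebra.smul_def] at h
    ext i k
    simpa [Matrix.sum_apply] using congrArg (fun M => χ (M i k)) h
  rw [e]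
  exact Submodule.sum_mem _ fun j _ => Submodule.smul_mem _ _ (Submodule.subset_span ⟨j, rfl⟩)

theorem dim_bound {r : ℕ} (hr : 0 < r) {P : Ideal (Pol (Vr r))} (hP : P.IsPrime) {c : ℕ}
    (h : State X (wv r) Finset.univ P c) (hc : 4 * c ≤ 2 ^ r * 2 ^ r)
    (hJ : (polCls (cw (wv r))).GrI (flat Sum.inl P)) {β : ℕ}
    (W : Fin β → Mat r (Pol (Vr r) ⧸ flat Sum.inl P))
    (h1 : Sat ((polCls (cw (wv r))).quot _ hJ).Zc W 1)
    (hx : ∀ g j, Sat ((polCls (cw (wv r))).quot _ hJ).Zc W
      ((gx r g).map (Ideal.Quotient.mkₐ ℚ (flat Sum.inl P)) * W j)) : 2 ^ r ≤ 10 * β := by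
  classical
  have hw : ∀ v, wv r v ≠ 0 := by
    rintro (i | s) h0
    · exact two_ne_zero (Finsupp.single_eq_zero.1 h0)
    · exact Nat.succ_ne_zero _ (DFunLike.congr_fun h0 (Sum.inl ⟨0, hr⟩))
  have hπ : ∀ i, wv r (Sum.inl i) = Finsupp.single i 2 := fun _ => rfl
  obtain ⟨K, _, _, _, ψ, hψ⟩ := exists_closed_point hP
  have hψ' : ∀ f, ψ f = 0 ↔ f ∈ P := fun f => by rw [← hψ, RingHom.mem_ker]
  choose τ hτ using fun i : Ix r =>
    IsAlgClosed.exists_pow_nat_eq (ψ (X (Sum.inl i))) (show 0 < 2 by omega)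
  have hτ0 : ∀ i, τ i ≠ 0 := fun i h0 =>
    h.X_notMem hw (Finset.mem_univ (Sum.inl i)) (lin_single_two X i)
      ((hψ' _).1 (by rw [← hτ, h0, zero_pow two_ne_zero]))
  have hne : ∀ D : Ix r →₀ ℕ, ∏ i, τ i ^ D i ≠ 0 := fun D =>
    Finset.prod_ne_zero_iff.2 fun i _ => pow_ne_zero _ (hτ0 i)
  obtain ⟨χ, hχ⟩ : ∃ χ : Pol (Vr r) →ₐ[ℚ] K, ∀ f D, Hg (wv r) f D →
      χ f * ∏ i, τ i ^ D i = ψ f := ⟨_, fun f D hf => aeval_div_mul _ ψ hτ0 hf⟩
  have hχX := fun v => hχ _ _ (isWeightedHomogeneous_X ℚ (wv r) v)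
  have hχ1 : ∀ i, χ (X (Sum.inl i)) = 1 := fun i => by
    refine mul_right_cancel₀ (hne (wv r (Sum.inl i))) ?_
    rw [hχX, one_mul, ← hτ, hπ, Finset.prod_eq_single i (fun j _ hj => by
      rw [Finsupp.single_eq_of_ne hj, pow_zero]) (by simp), Finsupp.single_eq_same]
  have hpid : pid Sum.inl ≤ RingHom.ker χ := by
    rw [pid, Ideal.span_le]
    rintro _ ⟨i, rfl⟩
    simp [RingHom.mem_ker, hχ1]
  have hker : ∀ f ∈ flat Sum.inl P, χ f = 0 := by
    refine fun f hf => (sup_le (fun g hg => mem_of_cmp_mem (wv r) fun D => ?_) hpid : _ ≤ _) hf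
    exact (mul_eq_zero.1 ((hχ _ D (hg_cmp _ D g)).trans
      ((hψ' _).2 (h.gr g hg D)))).resolve_right (hne D)
  let χ' := Ideal.Quotient.liftₐ (flat Sum.inl P) χ hker
  have hinj : ∀ b, ((polCls (cw (wv r))).quot _ hJ).c 0 b = b → χ' b = 0 → b = 0 := by
    intro b hb h0
    obtain ⟨f, rfl⟩ := Ideal.Quotient.mk_surjective b
    rw [← hb, Cls.quot_c_mk, polCls_c] at h0 ⊢
    obtain ⟨D, hD⟩ := exists_hom hπ (hg_cmp (cw (wv r)) 0 f)
    obtain ⟨f', h2, h3, -⟩ := hD (D + D) le_self_add ((red_add D D).trans (add_self_Gp _))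
    have h4 : χ f' = 0 := by
      have h5 : χ (f' - _) = 0 := hpid h3
      rwa [map_sub, show χ (cmp (cw (wv r)) 0 f) = 0 from h0, sub_zero] at h5
    have h6 := (hψ' f').1 (by rw [← hχ f' _ h2, h4, zero_mul])
    rw [Ideal.Quotient.eq_zero_iff_mem, ← sub_sub_cancel f' (cmp (cw (wv r)) 0 f)]
    exact sub_mem (Ideal.mem_sup_left h6) (Ideal.mem_sup_right h3)
  obtain ⟨E, hE, hE'⟩ := exists_gens (fun g => (gx r g).map χ) (fun j => (W j).map χ')
    (by simpa using h1.mem_span χ' hinj) fun g j => by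
      have := (hx g j).mem_span χ' hinj
      rwa [Matrix.map_mul] at this
  obtain ⟨Y, -, hY, hYc⟩ := h.lower hw
  have h2 := card_le_of_indep_ker ψ (Y := Y) (by rwa [hψ]) (Sum.elim τ (Subtype.val : E → K))
    fun v _ => by
      rw [← hχX]
      refine Subalgebra.mul_mem _ ?_ (Subalgebra.prod_mem _ fun i _ =>
        Subalgebra.pow_mem _ (Algebra.subset_adjoin (Set.mem_range_self (Sum.inl i))) _)
      rcases v with i | ⟨g, μ⟩
      · rw [hχ1]
        exact Subalgebra.one_mem _
      · have h3 := co_mem_subalgebra _ (hE' g) μ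
        rw [co_map, gx, co_pm] at h3
        refine Algebra.adjoin_mono (fun y hy => ?_) h3
        exact ⟨Sum.inr ⟨y, hy⟩, rfl⟩
  rw [Fintype.card_sum, Fintype.card_coe] at h2
  rw [Finset.card_univ, Fintype.card_sum, Fintype.card_prod, card_Gp, Fintype.card_fin] at hYc
  rw [card_Cv, pow_two, mul_assoc] at hE
  refine Nat.le_of_mul_le_mul_right ?_ (Nat.two_pow_pos r)
  rw [mul_assoc]
  omega

end Vale.Agent.P199
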