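import Vale.Agent.P199.TwStep
import Vale.Agent.P199.KPoly
import Vale.Agent.P199.Hom

/-! # P199: nonzero class implies that the twisted algebra is a domain. -/

namespace Vale.Agent.P199

open MvPolynomial

variable {σ : Type} {r : ℕ} {w : σ → Ix r →₀ ℕ} {π : Ix r → σ}

theorem twPrime_base (hπ : ∀ i, w (π i) = Finsupp.single i 2) {P : Ideal (Pol σ)} (hG : Gr w P)
    (hP : P.IsPrime) (hX : ∀ i, X (π i) ∉ P) (h : ∀ v, cw w v ≠ 0 → X v ∈ P) :
    (polCls (cw w)).TwPrime (flat π P) := by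
  classical
  have key : ∀ (f : Pol σ) μ, μ ≠ 0 → cmp (cw w) μ f ∈ P := by
    intro f μ hμ
    induction f using MvPolynomial.induction_on' with
    | monomial d a =>
      rw [cmp_monomial]
      split_ifs with h1
      · have : ∃ v ∈ d.support, cw w v ≠ 0 := by
          by_contra h2
          push Not at h2
          apply hμ
          rw [h1, Finsupp.weight_apply]
          exact Finset.sum_eq_zero fun v hv => by simp [h2 v hv]
        obtain ⟨v, hv, hv0⟩ := this
        have h3 : X v ∣ monomial d a := X_dvd_monomial.2 (Or.inr (Finsupp.mem_support_iff.1 hv))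
        obtain ⟨q, hq⟩ := h3
        rw [hq]
        exact P.mul_mem_right _ (h v hv0)
      · exact P.zero_mem
    | add p q hp hq =>
      rw [map_add]
      exact P.add_mem hp hq
  have key0 : ∀ (f : Pol σ) μ, μ ≠ 0 → Ideal.Quotient.mk (flat π P) (cmp (cw w) μ f) = 0 :=
    fun f μ hμ => Ideal.Quotient.eq_zero_iff_mem.2 (Ideal.mem_sup_left (key f μ hμ))
  have h1 : ∀ f : Pol σ, Ideal.Quotient.mk (flat π P) f =
      Ideal.Quotient.mk (flat π P) (cmp (cw w) 0 f) := by
    intro f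
    conv_lhs => rw [← sum_cmp (cw w) f, map_sum]
    exact Finset.sum_eq_single 0 (fun μ _ hμ => key0 f μ hμ) (by simp)
  refine ⟨flat_ne_top hπ hG hP hX, fun a b hab => ?_⟩
  have h2 : Ideal.Quotient.mk (flat π P) ((polCls (cw w)).star a b) =
      Ideal.Quotient.mk (flat π P) (cmp (cw w) 0 a * cmp (cw w) 0 b) := by
    rw [Cls.star, map_sum, Finset.sum_eq_single 0, map_sum, Finset.sum_eq_single 0, eps_zero_left,
      one_smul, polCls_c, polCls_c]
    · intro ν _ hν
      rw [Algebra.smul_def, map_mul, map_mul, polCls_c, polCls_c, key0 b ν hν, mul_zero, mul_zero]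
    · simp
    · intro μ _ hμ
      rw [map_sum]
      refine Finset.sum_eq_zero fun ν _ => ?_
      rw [Algebra.smul_def, map_mul, map_mul, polCls_c, polCls_c, key0 a μ hμ, zero_mul, mul_zero]
    · simp
  rw [← Ideal.Quotient.eq_zero_iff_mem, h2, Ideal.Quotient.eq_zero_iff_mem] at hab
  rw [← Ideal.Quotient.eq_zero_iff_mem, ← Ideal.Quotient.eq_zero_iff_mem, h1 a, h1 b,
    Ideal.Quotient.eq_zero_iff_mem, Ideal.Quotient.eq_zero_iff_mem]
  exact flat_mem_or_mem hπ hG hP hX (hg_cmp _ _ _) (hg_cmp _ _ _) hab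

theorem mk_mem_map_iff {P I : Ideal (Pol σ)} (h : P ≤ I) (f : Pol σ) :
    Ideal.Quotient.mk (flat π P) f ∈ I.map (Ideal.Quotient.mk (flat π P)) ↔ f ∈ flat π I := by
  rw [← Ideal.mem_comap, Ideal.comap_map_of_surjective _ Ideal.Quotient.mk_surjective,
    ← RingHom.ker_eq_comap_bot, Ideal.mk_ker, flat, flat, ← sup_assoc, sup_eq_left.2 h]

theorem map_flat {P I : Ideal (Pol σ)} (h : P ≤ I) :
    (flat π I).map (Ideal.Quotient.mk (flat π P)) = I.map (Ideal.Quotient.mk (flat π P)) := by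
  apply le_antisymm
  · rw [Ideal.map_le_iff_le_comap]
    intro f hf
    exact (mk_mem_map_iff h f).2 hf
  · exact Ideal.map_mono le_sup_left

theorem colon_map (hπ : ∀ i, w (π i) = Finsupp.single i 2) {P I : Ideal (Pol σ)} (h : P ≤ I)
    (hI : Gr w I) {g : Pol σ} {a : Ix r →₀ ℕ} (hg : Hg w g a) :
    (I.map (Ideal.Quotient.mk (flat π P))).colon {Ideal.Quotient.mk (flat π P) g} =
      (I.colon {g}).map (Ideal.Quotient.mk (flat π P)) := by
  ext x
  obtain ⟨f, rfl⟩ := Ideal.Quotient.mk_surjective x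
  have h1 : P ≤ I.colon {g} := fun f hf => mem_colon_iff.2 (Ideal.mul_mem_right _ _ (h hf))
  rw [mk_mem_map_iff h1, ← colon_flat hπ hI hg, mem_colon_iff, Submodule.mem_colon_singleton,
    smul_eq_mul, ← map_mul, mk_mem_map_iff h]

theorem len_filt (hπ : ∀ i, w (π i) = Finsupp.single i 2) {P : Ideal (Pol σ)} {R : Type}
    [CommRing R] [Algebra R (Pol σ ⧸ flat π P)] (p : Ideal R) [p.IsPrime] {I : Ideal (Pol σ)}
    {L : List ((Ix r →₀ ℕ) × Ideal (Pol σ))} (hL : Filt w ⊤ I L) (h : P ≤ I) :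
    len p ((Pol σ ⧸ flat π P) ⧸ I.map (Ideal.Quotient.mk (flat π P))) =
      ((L.map Prod.snd).map fun Q =>
        len p ((Pol σ ⧸ flat π P) ⧸ Q.map (Ideal.Quotient.mk (flat π P)))).sum := by
  induction hL with
  | nil =>
    rw [Ideal.map_top]
    exact (len_eq_zero_iff p).2 fun m =>
      ⟨1, (Ideal.ne_top_iff_one p).1 (Ideal.IsPrime.ne_top inferInstance), Subsingleton.elim _ _⟩
  | @cons I a g L hI hg _ _ _ ih =>
    rw [List.map_cons, List.map_cons, List.sum_cons, ← ih (h.trans le_sup_left),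
      len_colon p _ (Ideal.Quotient.mk (flat π P) g), colon_map hπ h hI hg, add_comm,
      Ideal.map_sup, Ideal.map_span, Set.image_singleton]

theorem sum_map_eq_count {α : Type} [DecidableEq α] (l : List α) (f : α → ℕ∞) (a : α)
    (h : ∀ b ∈ l, b ≠ a → f b = 0) : (l.map f).sum = l.count a * f a := by
  induction l with
  | nil => simp
  | cons b l ih =>
    rw [List.map_cons, List.sum_cons, ih fun c hc => h c (List.mem_cons_of_mem _ hc)]
    by_cases hb : b = a
    · subst hb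
      rw [List.count_cons_self]
      push_cast
      ring
    · rw [List.count_cons_of_ne hb, h b List.mem_cons_self hb, zero_add]

theorem red_add_self {ι : Type} (D : ι →₀ ℕ) : red (D + D) = 0 := by
  rw [red_add]
  ext i
  exact CharTwo.add_self_eq_zero (red D i)

theorem twPrime_of_state [Fintype σ] [DecidableEq σ]
    (hw : ∀ v, w v ≠ 0) {π : Ix r → σ} (hπ : ∀ i, w (π i) = Finsupp.single i 2)
    {P : Ideal (Pol σ)} (hP : P.IsPrime) {c : ℕ} (h : State X w Finset.univ P c) :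
    (polCls (cw w)).TwPrime (flat π P) := by
  classical
  have hXπ : ∀ {P : Ideal (Pol σ)} {c : ℕ}, State X w Finset.univ P c → ∀ i, X (π i) ∉ P :=
    fun h i => h.X_notMem hw (Finset.mem_univ _) (by rw [hπ, lin_single_two])
  induction hn : Fintype.card σ - c generalizing P c with
  | zero =>
    refine twPrime_base hπ h.gr hP (hXπ h) fun v hv => ?_
    by_contra hvP
    have h1 := h.cut hw hP (isWeightedHomogeneous_X ℚ w v)
      (fun h0 => hv ((lin_X_eq_zero_iff _).1 h0)) hvP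
    obtain ⟨Y, -, -, hY⟩ := h1.lower hw
    rw [Finset.card_univ] at hY
    omega
  | succ n ih =>
    by_cases hb : ∀ v, cw w v ≠ 0 → X v ∈ P
    · exact twPrime_base hπ h.gr hP (hXπ h) hb
    push Not at hb
    obtain ⟨v, hv, hvP⟩ := hb
    have h1 := h.cut hw hP (isWeightedHomogeneous_X ℚ w v)
      (fun h0 => hv ((lin_X_eq_zero_iff _).1 h0)) hvP
    obtain ⟨L, hL⟩ := exists_filt h1.gr (gr_top w) le_top
    obtain ⟨P', hP', hle, hS', hodd⟩ := h1.exists_prime_odd hw hL
    have hT' := ih hP' hS' (by omega)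
    have hPP' : P ≤ P' := le_sup_left.trans hle
    have hJ : (polCls (cw w)).GrI (flat π P) := polCls_grI (h.gr.flat hπ)
    rw [← Cls.twPrime_bot _ hJ]
    set κ := (polCls (cw w)).quot _ hJ with hκ
    set mk := Ideal.Quotient.mk (flat π P) with hmk
    have hnt : Nontrivial (Pol σ ⧸ flat π P) :=
      Ideal.Quotient.nontrivial_iff.2 (flat_ne_top hπ h.gr hP (hXπ h))
    have hQ : κ.TwPrime (P'.map mk) := by
      rw [← map_flat hPP']
      exact (Cls.twPrime_map _ hJ (sup_le_sup_right hPP' _)).2 hT'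
    have hQg : κ.GrI (P'.map mk) := by
      rw [← map_flat hPP']
      exact Cls.GrI.map _ hJ (polCls_grI (hS'.gr.flat hπ))
    have hp := hQ.isPrime
    set p := (P'.map mk).comap (algebraMap κ.zero (Pol σ ⧸ flat π P)) with hpdef
    have hfin := κ.zero_finite
    have hδ : len p ((Pol σ ⧸ flat π P) ⧸ P'.map mk) ≠ ⊤ := by
      refine len_ne_top_of_smul p fun τ hτ m => ?_
      obtain ⟨y, rfl⟩ := Ideal.Quotient.mk_surjective m
      exact Ideal.Quotient.eq_zero_iff_mem.2 (Ideal.mul_mem_right _ _ hτ)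
    have hmain : ∀ (f : Pol σ) (D : Ix r →₀ ℕ), Hg w f D → f ∉ P →
        ∀ L, Filt w ⊤ (P ⊔ Ideal.span {f}) L →
          len p ((Pol σ ⧸ flat π P) ⧸ Ideal.span {mk f}) =
            ((L.map Prod.snd).count P') * len p ((Pol σ ⧸ flat π P) ⧸ P'.map mk) := by
      intro f D hf hfP L hL
      have h2 := len_filt (π := π) hπ p hL le_sup_left
      have h3 : P.map mk = ⊥ := by
        rw [Ideal.map_eq_bot_iff_le_ker, Ideal.mk_ker]
        exact le_sup_left
      rw [Ideal.map_sup, ← hmk, h3, bot_sup_eq, Ideal.map_span, Set.image_singleton] at h2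
      rw [h2]
      refine sum_map_eq_count _ _ P' fun Q hQL hne => ?_
      obtain ⟨q, hq, rfl⟩ := List.mem_map.1 hQL
      obtain ⟨hq1, hq2, hq3, -⟩ := hL.mem hq
      have hlt : P < q.2 := lt_of_le_of_ne (le_sup_left.trans hq3) fun h4 =>
        hfP (h4 ▸ hq3 (Ideal.mem_sup_right (Ideal.mem_span_singleton_self f)))
      have hnle : ¬q.2 ≤ P' := fun h4 => hne (h.no_between hw hS' hP hq1 hlt h4)
      obtain ⟨g, a, hg, hgq, hgP⟩ := hq2.exists_hg hnle
      have hgg : Hg (cw w) (g * g) 0 := red_add_self a ▸ Hg.red (hg.mul hg)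
      refine (len_eq_zero_iff p).2 fun m => ⟨⟨mk (g * g), ?_⟩, ?_, ?_⟩
      · rw [Cls.mem_zero, hκ, hmk, Cls.quot_c_mk, polCls_c, cmp_of_hg hgg]
      · intro h4
        have h5 : mk (g * g) ∈ P'.map mk := h4
        rw [hmk, mk_mem_map_iff hPP', mem_flat_iff hπ hS'.gr hP' (hXπ hS') (hg.mul hg)] at h5
        exact hgP ((hP'.mem_or_mem h5).elim id id)
      · obtain ⟨y, rfl⟩ := Ideal.Quotient.mk_surjective m
        exact Ideal.Quotient.eq_zero_iff_mem.2 (Ideal.mul_mem_right _ _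
          (Ideal.mem_map_of_mem _ (Ideal.mul_mem_right _ _ hgq)))
    refine κ.twPrime_step ?_ (P'.map mk) hQg hQ p (fun τ => Iff.rfl) (mk (X v)) (cw w v) ?_ ?_ ?_
      _ hodd (hmain _ _ (isWeightedHomogeneous_X ℚ w v) hvP L hL)
    · intro μ ν a b ha hb hab
      obtain ⟨f, rfl⟩ := Ideal.Quotient.mk_surjective a
      obtain ⟨g, rfl⟩ := Ideal.Quotient.mk_surjective b
      rw [← ha, ← hb] at hab ⊢
      rw [hκ, Cls.quot_c_mk, Cls.quot_c_mk, polCls_c, polCls_c] at hab ⊢
      rw [← map_mul, Ideal.Quotient.eq_zero_iff_mem] at hab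
      rw [Ideal.Quotient.eq_zero_iff_mem, Ideal.Quotient.eq_zero_iff_mem]
      exact flat_mem_or_mem hπ h.gr hP (hXπ h) (hg_cmp _ _ _) (hg_cmp _ _ _) hab
    · rw [hκ, hmk, Cls.quot_c_mk, polCls_c, cmp_of_hg (isWeightedHomogeneous_X ℚ (cw w) v)]
    · intro h0
      rw [hmk, Ideal.Quotient.eq_zero_iff_mem,
        mem_flat_iff hπ h.gr hP (hXπ h) (isWeightedHomogeneous_X ℚ w v)] at h0
      exact hvP h0
    · rintro ⟨τ, hτ⟩ hτ0
      obtain ⟨f, rfl⟩ := Ideal.Quotient.mk_surjective τ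
      rw [Cls.mem_zero, hκ, Cls.quot_c_mk, polCls_c] at hτ
      obtain ⟨D0, hD0⟩ := exists_hom hπ (hg_cmp (cw w) 0 f)
      obtain ⟨f', hf', hff', -⟩ := hD0 (D0 + D0) le_self_add (red_add_self D0)
      have h4 : mk f' = Ideal.Quotient.mk (flat π P) f := by
        rw [← hτ]
        exact Ideal.Quotient.eq.2 (Ideal.mem_sup_right hff')
      have h5 : f' ∉ P := fun h5 => hτ0 (Subtype.ext (by
        change Ideal.Quotient.mk (flat π P) f = 0
        rw [← h4]
        exact Ideal.Quotient.eq_zero_iff_mem.2 (Ideal.mem_sup_left h5)))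
      obtain ⟨L', hL'⟩ := exists_filt (h.gr.sup_span hf') (gr_top w) le_top
      have h6 := hmain f' _ hf' h5 L' hL'
      rw [h4] at h6
      change len p ((Pol σ ⧸ flat π P) ⧸ Ideal.span {Ideal.Quotient.mk (flat π P) f}) ≠ ⊤
      rw [h6]
      exact WithTop.mul_ne_top (ENat.natCast_ne_top _) hδ

end Vale.Agent.P199
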