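import Vale.Agent.P199.Hilb

/-! # P199: degeneration to lowest forms.

Plan. First show `cmp_mem_of_mem_inI`: for `f ∈ inI u I` and every `r` there is `i ∈ I` with
`i - cmp u r f ∈ Ord u (r + 1)` (span induction; for multiplication by a polynomial induct on it
with `MvPolynomial.induction_on`, using `cmp_mul_add`, `cmp_mul_of_ne` for `X v`).
The lowest nonzero `u`-component of `f ∈ I` lies in `inI u I` (`low_mem_inI`). Hence a monomial
basis for `inI u I` is one for `I`: independence by the lowest component, spanning inside the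
finite-dimensional piece of fine degree `D` by downward induction on the `u`-order. -/

namespace Vale.Agent.P199

open MvPolynomial

variable {σ ι : Type}

theorem mem_Ord {u : σ → ℕ} {k : ℕ} {f : Pol σ} :
    f ∈ Ord u k ↔ ∀ d ∈ f.support, k ≤ Finsupp.weight u d := Iff.rfl

theorem mem_Ord_iff_cmp {u : σ → ℕ} {k : ℕ} {f : Pol σ} :
    f ∈ Ord u k ↔ ∀ r < k, cmp u r f = 0 := by
  constructor
  · intro h r hr
    ext d
    rw [coeff_weightedHomogeneousComponent, coeff_zero]
    split_ifs with hd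
    · by_contra h0
      have := h d (mem_support_iff.2 h0)
      omega
    · rfl
  · intro h d hd
    by_contra hlt
    have := congrArg (coeff d) (h _ (not_le.1 hlt))
    rw [coeff_weightedHomogeneousComponent, if_pos rfl, coeff_zero] at this
    exact mem_support_iff.1 hd this

theorem mul_mem_Ord {u : σ → ℕ} {k l : ℕ} {f g : Pol σ} (hf : f ∈ Ord u k) (hg : g ∈ Ord u l) :
    f * g ∈ Ord u (k + l) := by
  classical
  intro d hd
  obtain ⟨a, ha, b, hb, rfl⟩ := Finset.mem_add.1 (support_mul f g hd)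
  rw [map_add]
  exact add_le_add (hf a ha) (hg b hb)

theorem Hg.mem_Ord {u : σ → ℕ} {k : ℕ} {f : Pol σ} (h : Hg u f k) : f ∈ Ord u k :=
  fun _ hd => (h (mem_support_iff.1 hd)).ge

theorem gr_Ord {M : Type} [AddCommMonoid M] (w : σ → M) (u : σ → ℕ) (k : ℕ) : Gr w (Ord u k) :=
  fun f hf D d hd => hf d (support_cmp_subset w D f hd)

theorem sub_cmp_mem_Ord {u : σ → ℕ} {k : ℕ} {f : Pol σ} (h : f ∈ Ord u k) :
    f - cmp u k f ∈ Ord u (k + 1) := by
  rw [mem_Ord_iff_cmp] at h ⊢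
  intro r hr
  rw [map_sub]
  rcases (Nat.lt_succ_iff.1 hr).eq_or_lt with rfl | hlt
  · rw [cmp_of_hg (hg_cmp u r f), sub_self]
  · rw [h r hlt, cmp_of_hg_ne (hg_cmp u k f) hlt.ne, sub_self]

theorem mem_inI {u : σ → ℕ} {I : Ideal (Pol σ)} {f i : Pol σ} {r : ℕ} (hf : Hg u f r)
    (hi : i ∈ I) (h : i - f ∈ Ord u (r + 1)) : f ∈ inI u I :=
  Ideal.subset_span ⟨r, hf, i, hi, h⟩

theorem inI_le {u : σ → ℕ} {I Q : Ideal (Pol σ)}
    (h : ∀ r f i, Hg u f r → i ∈ I → i - f ∈ Ord u (r + 1) → f ∈ Q) : inI u I ≤ Q :=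
  Ideal.span_le.2 fun f ⟨r, hf, i, hi, hif⟩ => h r f i hf hi hif

theorem cmp_mem_of_mem_inI {u : σ → ℕ} {I : Ideal (Pol σ)} {f : Pol σ} (hf : f ∈ inI u I)
    (r : ℕ) : ∃ i ∈ I, i - cmp u r f ∈ Ord u (r + 1) := by
  induction hf using Submodule.span_induction generalizing r with
  | mem f hf =>
    obtain ⟨r0, h1, i, hi, h2⟩ := hf
    by_cases hr : r = r0
    · subst hr
      exact ⟨i, hi, by rwa [cmp_of_hg h1]⟩
    · exact ⟨0, I.zero_mem, by rw [cmp_of_hg_ne h1 hr, sub_zero]; exact zero_mem _⟩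
  | zero => exact ⟨0, I.zero_mem, by rw [map_zero, sub_zero]; exact zero_mem _⟩
  | add f g _ _ h1 h2 =>
    obtain ⟨i, hi, h1⟩ := h1 r
    obtain ⟨j, hj, h2⟩ := h2 r
    refine ⟨i + j, I.add_mem hi hj, ?_⟩
    rw [map_add, add_sub_add_comm]
    exact add_mem h1 h2
  | smul a f _ h1 =>
    rw [smul_eq_mul]
    induction a using MvPolynomial.induction_on' with
    | monomial d c =>
      have hm : Hg u (monomial d c) (Finsupp.weight u d) := isWeightedHomogeneous_monomial u d c rfl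
      by_cases hr : Finsupp.weight u d ≤ r
      · obtain ⟨E, rfl⟩ := Nat.exists_eq_add_of_le hr
        obtain ⟨i, hi, h2⟩ := h1 E
        refine ⟨monomial d c * i, I.mul_mem_left _ hi, ?_⟩
        rw [cmp_mul_add hm, ← mul_sub, add_assoc]
        exact mul_mem_Ord hm.mem_Ord h2
      · refine ⟨0, I.zero_mem, ?_⟩
        rw [cmp_mul_of_ne hm (fun E hE => hr (by omega)), sub_zero]
        exact zero_mem _
    | add p q hp hq =>
      obtain ⟨i, hi, h2⟩ := hp
      obtain ⟨j, hj, h3⟩ := hq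
      refine ⟨i + j, I.add_mem hi hj, ?_⟩
      rw [add_mul, map_add, add_sub_add_comm]
      exact add_mem h2 h3

theorem low_mem_inI (u : σ → ℕ) {I : Ideal (Pol σ)} {f : Pol σ} (hf : f ∈ I) (h0 : f ≠ 0) :
    ∃ r, cmp u r f ≠ 0 ∧ cmp u r f ∈ inI u I := by
  classical
  have h := exists_cmp_ne_zero u h0
  refine ⟨Nat.find h, Nat.find_spec h, mem_inI (hg_cmp u _ f) hf (sub_cmp_mem_Ord ?_)⟩
  exact mem_Ord_iff_cmp.2 fun r hr => not_not.1 (Nat.find_min h hr)

theorem Gr.inI {M : Type} [AddCommMonoid M] {w : σ → M} {I : Ideal (Pol σ)} (hI : Gr w I)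
    (u : σ → ℕ) : Gr w (inI u I) := by
  refine gr_span_of_cmp ?_
  rintro f ⟨r, h1, i, hi, h2⟩ D
  refine ⟨r, ?_, cmp w D i, hI i hi D, ?_⟩
  · exact hg_cmp_of_hg w D h1
  · rw [← map_sub]
    exact gr_Ord w u _ _ h2 D

theorem Bd.inI {τ : Finset σ} {I : Ideal (Pol σ)} {c : ℕ} (h : Bd τ I c) (u : σ → ℕ) :
    Bd τ (inI u I) c := by
  refine fun Y hY hi => h Y hY fun f hf hI => ?_
  by_contra h0
  obtain ⟨r, h1, h2⟩ := low_mem_inI u hI h0
  exact h1 (hi _ (cmp_supported u r hf) h2)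

theorem mb_of_inI [Fintype σ] [Fintype ι] {w : σ → ι →₀ ℕ} (hw : ∀ v, w v ≠ 0)
    {I : Ideal (Pol σ)} (hI : Gr w I) {u : σ → ℕ} {𝓜 : Set (σ →₀ ℕ)} (h : MB (inI u I) 𝓜) :
    MB I 𝓜 := by
  refine ⟨fun f hf hfI => ?_, mb_span_of_monomial fun d => ?_⟩
  · by_contra h0
    obtain ⟨r, h1, h2⟩ := low_mem_inI u hfI h0
    exact h1 (h.1 _ (fun d hd => hf (support_cmp_subset u r f hd)) h2)
  · obtain ⟨B, hB⟩ := ((finite_weight hw (Finsupp.weight w d)).image (Finsupp.weight u)).bddAbove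
    have key : ∀ n k, B < k + n → ∀ f, Hg w f (Finsupp.weight w d) → f ∈ Ord u k →
        ∃ g : Pol σ, (g.support : Set (σ →₀ ℕ)) ⊆ 𝓜 ∧ f - g ∈ I := by
      intro n
      induction n with
      | zero =>
        intro k hk f hf hO
        refine ⟨0, by simp, ?_⟩
        have : f = 0 := by
          by_contra h0
          obtain ⟨e, he⟩ := ne_zero_iff.1 h0
          have h1 := hO e (mem_support_iff.2 he)
          have h2 := hB ⟨e, hf he, rfl⟩
          omega
        rw [this, sub_zero]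
        exact I.zero_mem
      | succ n ih =>
        intro k hk f hf hO
        obtain ⟨g0, hg0, h1⟩ := h.2 (cmp u k f)
        obtain ⟨i, hi, h2⟩ := cmp_mem_of_mem_inI h1 k
        have h3 := gr_Ord w u _ _ h2 (Finsupp.weight w d)
        rw [map_sub, map_sub, map_sub, cmp_of_hg (hg_cmp u k f),
          cmp_of_hg (hg_cmp_of_hg u k hf)] at h3
        have h4 := sub_mem (sub_cmp_mem_Ord hO) h3
        obtain ⟨g', hg', h5⟩ := ih (k + 1) (by omega) _
          ((hf.sub (hg_cmp_of_hg u k hf)).sub ((hg_cmp w _ i).sub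
            ((hg_cmp_of_hg u k hf).sub (hg_cmp w _ _)))) h4
        refine ⟨cmp w (Finsupp.weight w d) (cmp u k g0) + g',
          (restrictSupport ℚ 𝓜).add_mem (fun e he => hg0
            (support_cmp_subset u k g0 (support_cmp_subset w _ _ he))) hg', ?_⟩
        have h6 := I.add_mem h5 (hI i hi (Finsupp.weight w d))
        convert h6 using 1
        ring
    exact key (B + 1) 0 (by omega) _ (isWeightedHomogeneous_monomial w d 1 rfl)
      fun _ _ => Nat.zero_le _

theorem HS_inI [Fintype σ] [Fintype ι] [DecidableEq ι] {w : σ → ι →₀ ℕ} (hw : ∀ v, w v ≠ 0)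
    {I : Ideal (Pol σ)} (hI : Gr w I) (u : σ → ℕ) : HS w (inI u I) = HS w I := by
  obtain ⟨𝓜, h⟩ := exists_mb (inI u I)
  ext D
  simp only [MvPowerSeries.coeff_apply, HS]
  rw [hf_eq_ncard hw (hI.inI u) h, hf_eq_ncard hw hI (mb_of_inI hw hI h)]

theorem aeval_twist_monomial (u : σ → ℕ) (φ : σ → Polynomial ℚ) (d : σ →₀ ℕ) (c : ℚ) :
    aeval (fun v => Polynomial.X ^ u v * φ v) (monomial d c) =
      Polynomial.X ^ Finsupp.weight u d * aeval φ (monomial d c) := by
  rw [aeval_monomial, aeval_monomial, Finsupp.weight_apply, Finsupp.prod, Finsupp.prod, Finsupp.sum,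
    mul_left_comm, ← Finset.prod_pow_eq_pow_sum, ← Finset.prod_mul_distrib]
  congr 1
  refine Finset.prod_congr rfl fun v _ => ?_
  rw [mul_pow, ← pow_mul, smul_eq_mul, mul_comm (u v)]

/-- Extraction of the lowest form along a one-parameter family. -/
theorem eval_low {u : σ → ℕ} {f i : Pol σ} {r : ℕ} (hf : Hg u f r) (h : i - f ∈ Ord u (r + 1))
    (φ : σ → Polynomial ℚ) (hi : aeval (fun v => Polynomial.X ^ u v * φ v) i = 0) :
    eval (fun v => (φ v).eval 0) f = 0 := by
  have h1 : aeval (fun v => Polynomial.X ^ u v * φ v) f = Polynomial.X ^ r * aeval φ f := by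
    conv_lhs => rw [f.as_sum]
    conv_rhs => rw [f.as_sum]
    rw [map_sum, map_sum, Finset.mul_sum]
    refine Finset.sum_congr rfl fun d hd => ?_
    rw [aeval_twist_monomial, hf (mem_support_iff.1 hd)]
  have h2 : Polynomial.X ^ (r + 1) ∣ aeval (fun v => Polynomial.X ^ u v * φ v) (i - f) := by
    rw [(i - f).as_sum, map_sum]
    refine Finset.dvd_sum fun d hd => ?_
    rw [aeval_twist_monomial]
    exact (pow_dvd_pow _ (h d hd)).mul_right _
  rw [map_sub, hi, zero_sub, dvd_neg, h1, pow_succ,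
    mul_dvd_mul_iff_left (pow_ne_zero _ Polynomial.X_ne_zero), Polynomial.X_dvd_iff,
    Polynomial.coeff_zero_eq_eval_zero] at h2
  have h3 : (Polynomial.evalRingHom 0).comp (aeval φ : Pol σ →ₐ[ℚ] Polynomial ℚ).toRingHom =
      eval fun v => (φ v).eval 0 := by
    ext <;> simp
  exact (DFunLike.congr_fun h3 f).symm.trans h2

end Vale.Agent.P199
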