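import Vale.Agent.P199.Comp

/-! # P199: Hilbert series.

Plan. `finite_whs`: the piece of degree `D` sits in the piece of degree `D.degree` for the
weights `(w v).degree`, use `weightedHomogeneousSubmodule_fg`.
`HS_add`: coefficientwise (`MvPowerSeries.coeff_monomial_mul`). For `D = a + E` the sequence
`0 → (S/(I:g))_E → (S/I)_D → (S/(I+g))_D → 0` is exact; easiest through monomial-free counting:
`hf w I D + finrank (S_D ⊓ I) = finrank S_D`, and `S_D ⊓ (I + g) = S_D ⊓ I + g * S_E`, with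
`(S_D ⊓ I) ⊓ g * S_E = g * (S_E ⊓ (I : g))` (treat `g = 0` separately, or use the linear map
`S_E → S / I`, `f ↦ g * f`, whose kernel is `S_E ⊓ (I : g)`).
`exists_mb`: the images of the monomials span the quotient, extract a basis
(`exists_linearIndepOn_extension`).
`hf_eq_ncard`: the image of `S_D` is spanned by the images of the monomials of `𝓜` of weight `D`
(take the component of degree `D` of `f - g ∈ I`), and they are independent.
`HS_prod`: `mb_prod` (map to the tensor product of the quotients for independence) and counting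
over `Finset.antidiagonal D`. -/

namespace Vale.Agent.P199

open MvPolynomial

section LinAlg

variable {U V V' : Type} [AddCommGroup U] [Module ℚ U] [AddCommGroup V] [Module ℚ V]
  [AddCommGroup V'] [Module ℚ V']

theorem finrank_map_congr (S : Submodule ℚ U) (f : U →ₗ[ℚ] V) (g : U →ₗ[ℚ] V')
    (h : ∀ x ∈ S, f x = 0 ↔ g x = 0) : Module.finrank ℚ (S.map f) = Module.finrank ℚ (S.map g) := by
  have h1 : LinearMap.ker (f.domRestrict S) = LinearMap.ker (g.domRestrict S) := by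
    ext x
    exact h x x.2
  rw [← LinearMap.range_domRestrict, ← LinearMap.range_domRestrict,
    ← (f.domRestrict S).quotKerEquivRange.finrank_eq,
    ← (g.domRestrict S).quotKerEquivRange.finrank_eq, h1]

theorem finrank_map_add_inf (S : Submodule ℚ U) [Module.Finite ℚ S] (f : U →ₗ[ℚ] V) :
    Module.finrank ℚ S =
      Module.finrank ℚ (S.map f) + Module.finrank ℚ (S ⊓ LinearMap.ker f : Submodule ℚ U) := by
  rw [← (f.domRestrict S).finrank_range_add_finrank_ker, LinearMap.range_domRestrict,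
    LinearMap.ker_domRestrict, ← Submodule.map_comap_subtype,
    Submodule.finrank_map_subtype_eq]

theorem li_iff {σ : Type} (Φ : Pol σ →ₗ[ℚ] V) (𝓜 : Set (σ →₀ ℕ)) :
    LinearIndepOn ℚ (fun d => Φ (monomial d 1)) 𝓜 ↔
      ∀ f : Pol σ, (f.support : Set (σ →₀ ℕ)) ⊆ 𝓜 → Φ f = 0 → f = 0 := by
  have key : ∀ l : (σ →₀ ℕ) →₀ ℚ, Finsupp.linearCombination ℚ (fun d => Φ (monomial d 1)) l =
      Φ ((basisMonomials σ ℚ).repr.symm l) := fun l => by
    rw [Module.Basis.repr_symm_apply, Finsupp.apply_linearCombination]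
    rfl
  rw [linearIndepOn_iff]
  constructor
  · intro h f hf h0
    have := h ((basisMonomials σ ℚ).repr f) hf (by rw [key, LinearEquiv.symm_apply_apply, h0])
    exact (basisMonomials σ ℚ).repr.map_eq_zero_iff.1 this
  · intro h l hl h0
    have := h ((basisMonomials σ ℚ).repr.symm l) hl (by rw [← key, h0])
    exact (basisMonomials σ ℚ).repr.symm.map_eq_zero_iff.1 this

end LinAlg

variable {σ σ' ι : Type} [Fintype σ] [Fintype σ'] [Fintype ι] [DecidableEq ι]

omit [Fintype σ] in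
theorem mkl_eq_zero {I : Ideal (Pol σ)} {f : Pol σ} :
    (Ideal.Quotient.mkₐ ℚ I).toLinearMap f = 0 ↔ f ∈ I := Ideal.Quotient.eq_zero_iff_mem

omit [Fintype σ] in
theorem mkl_eq {I : Ideal (Pol σ)} {f g : Pol σ} :
    (Ideal.Quotient.mkₐ ℚ I).toLinearMap f = (Ideal.Quotient.mkₐ ℚ I).toLinearMap g ↔
      f - g ∈ I := Ideal.Quotient.eq

omit [Fintype ι] [DecidableEq ι] in
theorem finite_weight' {w : σ → ι →₀ ℕ} (hw : ∀ v, w v ≠ 0) (D : ι →₀ ℕ) :
    {d : σ →₀ ℕ | Finsupp.weight w d = D}.Finite := by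
  refine (Finsupp.finite_of_nat_weight_le (fun v => Finsupp.degree (w v))
    (fun v h => hw v ((Finsupp.degree_eq_zero_iff _).1 h)) (Finsupp.degree D)).subset
    fun d hd => ?_
  rw [Set.mem_ofPred_eq] at hd ⊢
  rw [← hd, Finsupp.weight_apply, Finsupp.weight_apply, Finsupp.sum, Finsupp.sum, map_sum]
  simp

omit [Fintype σ] [Fintype ι] [DecidableEq ι] in
theorem whs_eq (w : σ → ι →₀ ℕ) (D : ι →₀ ℕ) : weightedHomogeneousSubmodule ℚ w D =
    restrictSupport ℚ {d : σ →₀ ℕ | Finsupp.weight w d = D} := by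
  ext f
  rw [mem_restrictSupport_iff]
  exact ⟨fun h d hd => h (mem_support_iff.1 hd), fun h d hd => h (mem_support_iff.2 hd)⟩

omit [DecidableEq ι] in
theorem finite_whs {w : σ → ι →₀ ℕ} (hw : ∀ v, w v ≠ 0) (D : ι →₀ ℕ) :
    Module.Finite ℚ (weightedHomogeneousSubmodule ℚ w D) := by
  rw [whs_eq]
  have := (finite_weight' hw D).to_subtype
  exact Module.Finite.of_basis (basisRestrictSupport ℚ _)

omit [DecidableEq ι] in
theorem finite_weight {w : σ → ι →₀ ℕ} (hw : ∀ v, w v ≠ 0) (D : ι →₀ ℕ) :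
    {d : σ →₀ ℕ | Finsupp.weight w d = D}.Finite := finite_weight' hw D

omit [Fintype ι] [DecidableEq ι] in
theorem hf_add {w : σ → ι →₀ ℕ} (hw : ∀ v, w v ≠ 0) (I : Ideal (Pol σ)) (g : Pol σ)
    (D : ι →₀ ℕ) :
    hf w I D = hf w (I ⊔ Ideal.span {g}) D + Module.finrank ℚ
      (((weightedHomogeneousSubmodule ℚ w D) ⊓ (I ⊔ Ideal.span {g}).restrictScalars ℚ).map
        (Ideal.Quotient.mkₐ ℚ I).toLinearMap) := by
  have : Module.Finite ℚ (weightedHomogeneousSubmodule ℚ w D) := by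
    rw [whs_eq]
    have := (finite_weight' hw D).to_subtype
    exact Module.Finite.of_basis (basisRestrictSupport ℚ _)
  let φ := (Ideal.Quotient.factorₐ ℚ (le_sup_left : I ≤ I ⊔ Ideal.span {g})).toLinearMap
  have h1 := finrank_map_add_inf
    ((weightedHomogeneousSubmodule ℚ w D).map (Ideal.Quotient.mkₐ ℚ I).toLinearMap) φ
  have h2 : φ ∘ₗ (Ideal.Quotient.mkₐ ℚ I).toLinearMap =
      (Ideal.Quotient.mkₐ ℚ (I ⊔ Ideal.span {g})).toLinearMap := rfl
  rw [← Submodule.map_comp, h2, Submodule.map_inf_eq_map_inf_comap, ← LinearMap.ker_comp,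
    h2] at h1
  have h3 : LinearMap.ker (Ideal.Quotient.mkₐ ℚ (I ⊔ Ideal.span {g})).toLinearMap =
      (I ⊔ Ideal.span {g}).restrictScalars ℚ := by
    ext f
    exact mkl_eq_zero
  rw [h3] at h1
  exact h1

theorem HS_add {w : σ → ι →₀ ℕ} (hw : ∀ v, w v ≠ 0) {I : Ideal (Pol σ)} (hI : Gr w I)
    {g : Pol σ} {a : ι →₀ ℕ} (hg : Hg w g a) :
    HS w I = HS w (I ⊔ Ideal.span {g}) + MvPowerSeries.monomial a 1 * HS w (I.colon {g}) := by
  ext D
  rw [map_add, MvPowerSeries.coeff_monomial_mul]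
  simp only [MvPowerSeries.coeff_apply, HS]
  rw [hf_add hw I g D, Nat.cast_add]
  congr 1
  have key : ∀ f, Hg w f D → f ∈ I ⊔ Ideal.span {g} → ∃ h, f - cmp w D (g * h) ∈ I := by
    intro f hf hm
    obtain ⟨i, hi, j, hj, hij⟩ := Submodule.mem_sup.1 hm
    obtain ⟨h, rfl⟩ := Ideal.mem_span_singleton'.1 hj
    refine ⟨h, ?_⟩
    have h1 := congrArg (cmp w D) hij
    rw [map_add, cmp_of_hg hf, mul_comm] at h1
    rw [← h1, add_sub_cancel_right]
    exact hI i hi D
  split_ifs with hD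
  · rw [one_mul]
    congr 1
    have h1 : ((weightedHomogeneousSubmodule ℚ w D) ⊓ (I ⊔ Ideal.span {g}).restrictScalars ℚ).map
        (Ideal.Quotient.mkₐ ℚ I).toLinearMap = (weightedHomogeneousSubmodule ℚ w (D - a)).map
          ((Ideal.Quotient.mkₐ ℚ I).toLinearMap ∘ₗ LinearMap.mulLeft ℚ g) := by
      have hD' : a + (D - a) = D := add_tsub_cancel_of_le hD
      apply le_antisymm
      · rintro _ ⟨f, ⟨hf, hm⟩, rfl⟩
        obtain ⟨h, hh⟩ := key f hf hm
        refine ⟨cmp w (D - a) h, hg_cmp w _ h, ?_⟩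
        rw [← hD', cmp_mul_add hg] at hh
        exact (mkl_eq.2 hh).symm
      · rintro _ ⟨h, hh, rfl⟩
        refine ⟨g * h, ⟨?_, ?_⟩, rfl⟩
        · have := hg.mul hh
          rwa [hD'] at this
        · exact Ideal.mem_sup_right (Ideal.mul_mem_right _ _ (Ideal.mem_span_singleton_self g))
    rw [h1]
    refine finrank_map_congr _ _ _ fun f _ => ?_
    rw [mkl_eq_zero, mem_colon_iff, mul_comm]
    exact mkl_eq_zero
  · have h1 : ((weightedHomogeneousSubmodule ℚ w D) ⊓ (I ⊔ Ideal.span {g}).restrictScalars ℚ).map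
        (Ideal.Quotient.mkₐ ℚ I).toLinearMap = ⊥ := by
      rw [eq_bot_iff]
      rintro _ ⟨f, ⟨hf, hm⟩, rfl⟩
      obtain ⟨h, hh⟩ := key f hf hm
      rw [cmp_mul_of_ne hg (fun E (hE : a + E = D) => hD (hE ▸ le_self_add)), sub_zero] at hh
      exact mkl_eq_zero.2 hh
    rw [h1, finrank_bot, Nat.cast_zero]

omit [Fintype σ] [Fintype ι] [DecidableEq ι] in
theorem HS_top (w : σ → ι →₀ ℕ) : HS w (⊤ : Ideal (Pol σ)) = 0 := by
  ext D
  have h1 : (weightedHomogeneousSubmodule ℚ w D).map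
      (Ideal.Quotient.mkₐ ℚ (⊤ : Ideal (Pol σ))).toLinearMap = ⊥ := by
    rw [eq_bot_iff]
    rintro _ ⟨f, -, rfl⟩
    exact mkl_eq_zero.2 Submodule.mem_top
  rw [map_zero, MvPowerSeries.coeff_apply, HS, hf, h1, finrank_bot, Nat.cast_zero]

omit [Fintype σ] in
theorem exists_mb (I : Ideal (Pol σ)) : ∃ 𝓜, MB I 𝓜 := by
  obtain ⟨𝓜, -, -, h1, h2⟩ := exists_linearIndepOn_extension (K := ℚ)
    (v := fun d : σ →₀ ℕ => (Ideal.Quotient.mkₐ ℚ I).toLinearMap (monomial d 1))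
    (linearIndepOn_empty _ _) (Set.empty_subset Set.univ)
  refine ⟨𝓜, fun f hf hI => (li_iff _ _).1 h2 f hf (mkl_eq_zero.2 hI), fun f => ?_⟩
  have h3 : (restrictSupport ℚ (Set.univ : Set (σ →₀ ℕ))).map
      (Ideal.Quotient.mkₐ ℚ I).toLinearMap ≤
      (restrictSupport ℚ 𝓜).map (Ideal.Quotient.mkₐ ℚ I).toLinearMap := by
    rw [restrictSupport_eq_span, restrictSupport_eq_span, Submodule.map_span, Submodule.map_span,
      Set.image_image, Set.image_image]
    exact Submodule.span_le.2 h1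
  obtain ⟨g, hg, hgf⟩ := h3 ⟨f, Set.subset_univ _, rfl⟩
  exact ⟨g, hg, mkl_eq.1 hgf.symm⟩

theorem hf_eq_ncard {w : σ → ι →₀ ℕ} (hw : ∀ v, w v ≠ 0) {I : Ideal (Pol σ)} (hI : Gr w I)
    {𝓜 : Set (σ →₀ ℕ)} (h : MB I 𝓜) (D : ι →₀ ℕ) :
    hf w I D = {d ∈ 𝓜 | Finsupp.weight w d = D}.ncard := by
  have _ := hw
  have h1 : (weightedHomogeneousSubmodule ℚ w D).map (Ideal.Quotient.mkₐ ℚ I).toLinearMap =
      (restrictSupport ℚ {d ∈ 𝓜 | Finsupp.weight w d = D}).map
        (Ideal.Quotient.mkₐ ℚ I).toLinearMap := by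
    apply le_antisymm
    · rintro _ ⟨f, hf, rfl⟩
      obtain ⟨g, hg, hfg⟩ := h.2 f
      refine ⟨cmp w D g, fun d hd => ⟨hg (support_cmp_subset w D g hd),
        hg_cmp w D g (mem_support_iff.1 hd)⟩, ?_⟩
      have := hI _ hfg D
      rw [map_sub, cmp_of_hg hf] at this
      exact (mkl_eq.2 this).symm
    · rw [whs_eq]
      exact Submodule.map_mono (restrictSupport_mono ℚ fun d hd => hd.2)
  rw [hf, h1, finrank_map_congr _ _ LinearMap.id, Submodule.map_id,
    Module.finrank_eq_nat_card_basis (basisRestrictSupport ℚ _), Nat.card_coe_set_eq]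
  intro f hf
  rw [mkl_eq_zero]
  exact ⟨h.1 f fun d hd => (hf hd).1, fun h0 => (show f = 0 from h0) ▸ I.zero_mem⟩

theorem HS_of_gen_empty {w : σ → ι →₀ ℕ} (hw : ∀ v, w v ≠ 0) {I : Ideal (Pol σ)} (hI : Gr w I)
    (hg : Gen ∅ I) (hne : I ≠ ⊤) : HS w I = 1 := by
  have hiff : ∀ f : Pol σ, f ∈ supported ℚ ((∅ : Finset σ) : Set σ) ↔
      (f.support : Set (σ →₀ ℕ)) ⊆ {0} := fun f => by
    rw [mem_supported_iff_support]
    constructor
    · intro h d hd
      rw [Set.mem_singleton_iff, ← Finsupp.support_eq_empty, Finset.eq_empty_iff_forall_notMem]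
      intro i hi
      simpa using h d hd i hi
    · intro h d hd i hi
      rw [Set.mem_singleton_iff.1 (h hd)] at hi
      simp at hi
  have hm : MB I {0} := ⟨fun f hf => indep_empty hne f ((hiff f).2 hf), fun f => by
    obtain ⟨g, h1, h2⟩ := hg f
    exact ⟨g, (hiff g).1 h1, h2⟩⟩
  ext D
  rw [MvPowerSeries.coeff_one]
  simp only [MvPowerSeries.coeff_apply, HS]
  rw [hf_eq_ncard hw hI hm]
  split_ifs with hD
  · have : {d ∈ ({0} : Set (σ →₀ ℕ)) | Finsupp.weight w d = D} = {0} := by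
      ext d
      simp +contextual [hD]
    rw [this, Set.ncard_singleton, Nat.cast_one]
  · have : {d ∈ ({0} : Set (σ →₀ ℕ)) | Finsupp.weight w d = D} = ∅ := by
      ext d
      simp +contextual [Ne.symm hD]
    rw [this, Set.ncard_empty, Nat.cast_zero]

omit [Fintype σ] [Fintype σ'] in
theorem monomial_sumElim (e : σ →₀ ℕ) (e' : σ' →₀ ℕ) :
    (monomial (e.sumElim e') 1 : Pol (σ ⊕ σ')) =
      rename Sum.inl (monomial e 1) * rename Sum.inr (monomial e' 1) := by
  rw [rename_monomial, rename_monomial, monomial_mul, one_mul, Finsupp.sumElim_eq_add]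

omit [Fintype σ] [Fintype σ'] in
theorem sumElim_injective :
    Function.Injective fun p : (σ →₀ ℕ) × (σ' →₀ ℕ) => p.1.sumElim p.2 :=
  Finsupp.sumFinsuppEquivProdFinsupp.symm.injective

omit [Fintype σ] in
theorem mb_span_of_monomial {I : Ideal (Pol σ)} {𝓜 : Set (σ →₀ ℕ)}
    (h : ∀ d, ∃ g : Pol σ, (g.support : Set (σ →₀ ℕ)) ⊆ 𝓜 ∧ monomial d 1 - g ∈ I) (f : Pol σ) :
    ∃ g : Pol σ, (g.support : Set (σ →₀ ℕ)) ⊆ 𝓜 ∧ f - g ∈ I := by
  induction f using MvPolynomial.induction_on' with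
  | monomial d c =>
    obtain ⟨g, h1, h2⟩ := h d
    refine ⟨c • g, (restrictSupport ℚ 𝓜).smul_mem c h1, ?_⟩
    have := I.mul_mem_left (C c) h2
    rwa [mul_sub, C_mul_monomial, mul_one, ← smul_eq_C_mul] at this
  | add p q hp hq =>
    obtain ⟨g, h1, h2⟩ := hp
    obtain ⟨g', h1', h2'⟩ := hq
    refine ⟨g + g', (restrictSupport ℚ 𝓜).add_mem h1 h1', ?_⟩
    rw [add_sub_add_comm]
    exact I.add_mem h2 h2'

omit [Fintype σ] [Fintype σ'] in
theorem mb_prod {I : Ideal (Pol σ)} {I' : Ideal (Pol σ')} {𝓜 : Set (σ →₀ ℕ)}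
    {𝓜' : Set (σ' →₀ ℕ)} (h : MB I 𝓜) (h' : MB I' 𝓜') :
    MB (prodI I I') {d | ∃ e ∈ 𝓜, ∃ e' ∈ 𝓜', d = e.sumElim e'} := by
  classical
  constructor
  · let i1 := (Algebra.TensorProduct.includeLeft :
      (Pol σ ⧸ I) →ₐ[ℚ] TensorProduct ℚ (Pol σ ⧸ I) (Pol σ' ⧸ I')).comp (Ideal.Quotient.mkₐ ℚ I)
    let i2 := (Algebra.TensorProduct.includeRight :
      (Pol σ' ⧸ I') →ₐ[ℚ] TensorProduct ℚ (Pol σ ⧸ I) (Pol σ' ⧸ I')).comp
        (Ideal.Quotient.mkₐ ℚ I')
    let Φ : Pol (σ ⊕ σ') →ₐ[ℚ] TensorProduct ℚ (Pol σ ⧸ I) (Pol σ' ⧸ I') :=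
      aeval (Sum.elim (fun v => i1 (X v)) fun v => i2 (X v))
    have h1 : ∀ f, Φ (rename Sum.inl f) = i1 f := fun f => by
      have : Φ.comp (rename Sum.inl) = i1 := algHom_ext fun v => by simp [Φ]
      exact DFunLike.congr_fun this f
    have h2 : ∀ f, Φ (rename Sum.inr f) = i2 f := fun f => by
      have : Φ.comp (rename Sum.inr) = i2 := algHom_ext fun v => by simp [Φ]
      exact DFunLike.congr_fun this f
    have h3 : prodI I I' ≤ RingHom.ker Φ := by
      refine sup_le (Ideal.map_le_iff_le_comap.2 fun f hf => ?_)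
        (Ideal.map_le_iff_le_comap.2 fun f hf => ?_)
      · rw [Ideal.mem_comap, RingHom.mem_ker, h1]
        simp [i1, Ideal.Quotient.eq_zero_iff_mem.2 hf]
      · rw [Ideal.mem_comap, RingHom.mem_ker, h2]
        simp [i2, Ideal.Quotient.eq_zero_iff_mem.2 hf]
    have l1 := (li_iff (Ideal.Quotient.mkₐ ℚ I).toLinearMap 𝓜).2
      fun f hf h0 => h.1 f hf (mkl_eq_zero.1 h0)
    have l2 := (li_iff (Ideal.Quotient.mkₐ ℚ I').toLinearMap 𝓜').2
      fun f hf h0 => h'.1 f hf (mkl_eq_zero.1 h0)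
    have l3 := l1.tmul_of_isDomain l2
    have hs : {d | ∃ e ∈ 𝓜, ∃ e' ∈ 𝓜', d = e.sumElim e'} =
        (fun p : (σ →₀ ℕ) × (σ' →₀ ℕ) => p.1.sumElim p.2) '' (𝓜 ×ˢ 𝓜') := by
      ext d
      constructor
      · rintro ⟨e, he, e', he', rfl⟩
        exact ⟨(e, e'), ⟨he, he'⟩, rfl⟩
      · rintro ⟨⟨e, e'⟩, ⟨he, he'⟩, rfl⟩
        exact ⟨e, he, e', he', rfl⟩
    have l4 : LinearIndepOn ℚ (fun d => Φ.toLinearMap (monomial d 1))
        {d | ∃ e ∈ 𝓜, ∃ e' ∈ 𝓜', d = e.sumElim e'} := by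
      rw [hs]
      refine LinearIndepOn.image_of_comp _ _ ?_
      refine l3.congr fun p _ => ?_
      simp only [Function.comp_apply, AlgHom.toLinearMap_apply, monomial_sumElim, map_mul, h1, h2]
      simp [i1, i2]
    exact fun f hf hI => (li_iff _ _).1 l4 f hf (h3 hI)
  · refine mb_span_of_monomial fun d => ?_
    obtain ⟨⟨e, e'⟩, rfl⟩ := Finsupp.sumFinsuppEquivProdFinsupp.symm.surjective d
    obtain ⟨g, h1, h2⟩ := h.2 (monomial e 1)
    obtain ⟨g', h1', h2'⟩ := h'.2 (monomial e' 1)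
    refine ⟨rename Sum.inl g * rename Sum.inr g', fun d hd => ?_, ?_⟩
    · obtain ⟨a, ha, b, hb, rfl⟩ := Finset.mem_add.1 (support_mul _ _ hd)
      rw [support_rename_of_injective Sum.inl_injective] at ha
      rw [support_rename_of_injective Sum.inr_injective] at hb
      obtain ⟨a, ha', rfl⟩ := Finset.mem_image.1 ha
      obtain ⟨b, hb', rfl⟩ := Finset.mem_image.1 hb
      exact ⟨a, h1 ha', b, h1' hb', (Finsupp.sumElim_eq_add a b).symm⟩
    · change monomial (e.sumElim e') 1 - _ ∈ _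
      have : (monomial (e.sumElim e') 1 : Pol (σ ⊕ σ')) - rename Sum.inl g * rename Sum.inr g' =
          rename Sum.inl (monomial e 1 - g) * rename Sum.inr (monomial e' 1) +
            rename Sum.inl g * rename Sum.inr (monomial e' 1 - g') := by
        rw [monomial_sumElim, map_sub, map_sub]
        ring
      rw [this]
      exact Submodule.add_mem_sup (Ideal.mul_mem_right _ _ (Ideal.mem_map_of_mem _ h2))
        (Ideal.mul_mem_left _ _ (Ideal.mem_map_of_mem _ h2'))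

omit [Fintype σ] [Fintype σ'] [Fintype ι] [DecidableEq ι] in
theorem weight_sumElim' (w : σ → ι →₀ ℕ) (w' : σ' → ι →₀ ℕ) (e : σ →₀ ℕ) (e' : σ' →₀ ℕ) :
    Finsupp.weight (Sum.elim w w') (e.sumElim e') = Finsupp.weight w e + Finsupp.weight w' e' := by
  rw [Finsupp.sumElim_eq_add, map_add, weight_mapDomain, weight_mapDomain, Sum.elim_comp_inl,
    Sum.elim_comp_inr]

theorem HS_prod {w : σ → ι →₀ ℕ} {w' : σ' → ι →₀ ℕ} (hw : ∀ v, w v ≠ 0) (hw' : ∀ v, w' v ≠ 0)
    {I : Ideal (Pol σ)} {I' : Ideal (Pol σ')} (hI : Gr w I) (hI' : Gr w' I') :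
    HS (Sum.elim w w') (prodI I I') = HS w I * HS w' I' := by
  classical
  obtain ⟨𝓜, h⟩ := exists_mb I
  obtain ⟨𝓜', h'⟩ := exists_mb I'
  have hww : ∀ v, Sum.elim w w' v ≠ 0 := by
    rintro (v | v)
    · exact hw v
    · exact hw' v
  have hF : ∀ A, {d ∈ 𝓜 | Finsupp.weight w d = A}.Finite := fun A =>
    (finite_weight hw A).subset fun d hd => hd.2
  have hF' : ∀ A, {d ∈ 𝓜' | Finsupp.weight w' d = A}.Finite := fun A =>
    (finite_weight hw' A).subset fun d hd => hd.2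
  ext D
  rw [MvPowerSeries.coeff_mul]
  simp only [MvPowerSeries.coeff_apply, HS]
  rw [hf_eq_ncard hww (hI.prodI hI') (mb_prod h h')]
  simp only [hf_eq_ncard hw hI h, hf_eq_ncard hw' hI' h']
  have hs : {d ∈ {d | ∃ e ∈ 𝓜, ∃ e' ∈ 𝓜', d = e.sumElim e'} |
      Finsupp.weight (Sum.elim w w') d = D} =
      (fun p : (σ →₀ ℕ) × (σ' →₀ ℕ) => p.1.sumElim p.2) ''
        ((Finset.HasAntidiagonal.antidiagonal D).biUnion fun q => (hF q.1).toFinset ×ˢ (hF' q.2).toFinset :
          Finset _) := by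
    ext d
    constructor
    · rintro ⟨⟨e, he, e', he', rfl⟩, hD⟩
      rw [weight_sumElim'] at hD
      refine ⟨(e, e'), ?_, rfl⟩
      rw [Finset.mem_coe, Finset.mem_biUnion]
      exact ⟨(Finsupp.weight w e, Finsupp.weight w' e'),
        Finset.HasAntidiagonal.mem_antidiagonal.2 hD, by simp [he, he']⟩
    · rintro ⟨⟨e, e'⟩, hm, rfl⟩
      rw [Finset.mem_coe, Finset.mem_biUnion] at hm
      obtain ⟨q, hq, hm⟩ := hm
      simp only [Finset.mem_product, Set.Finite.mem_toFinset, Set.mem_ofPred_eq] at hm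
      refine ⟨⟨e, hm.1.1, e', hm.2.1, rfl⟩, ?_⟩
      rw [weight_sumElim', hm.1.2, hm.2.2]
      exact Finset.HasAntidiagonal.mem_antidiagonal.1 hq
  rw [hs, Set.ncard_image_of_injective _ sumElim_injective, Set.ncard_coe_finset,
    Finset.card_biUnion, Nat.cast_sum]
  · refine Finset.sum_congr rfl fun q _ => ?_
    rw [Finset.card_product, Nat.cast_mul, Set.ncard_eq_toFinset_card _ (hF q.1),
      Set.ncard_eq_toFinset_card _ (hF' q.2)]
  · intro q _ q' _ hne
    refine Finset.disjoint_left.2 fun p hp hp' => hne ?_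
    simp only [Finset.mem_product, Set.Finite.mem_toFinset, Set.mem_ofPred_eq] at hp hp'
    exact Prod.ext (hp.1.2.symm.trans hp'.1.2) (hp.2.2.symm.trans hp'.2.2)

omit [Fintype σ'] [Fintype ι] [DecidableEq ι] in
theorem HS_comap_inl {w : σ → ι →₀ ℕ} {w' : σ' → ι →₀ ℕ} {P : Ideal (Pol (σ ⊕ σ'))}
    (hP : Gr (Sum.elim w w') P) (hg : Gen (Finset.univ.map Function.Embedding.inl) P) :
    HS w (P.comap (rename (R := ℚ) (Sum.inl : σ → σ ⊕ σ'))) = HS (Sum.elim w w') P := by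
  ext D
  simp only [MvPowerSeries.coeff_apply, HS, hf]
  congr 1
  have h1 : (weightedHomogeneousSubmodule ℚ (Sum.elim w w') D).map
      (Ideal.Quotient.mkₐ ℚ P).toLinearMap = (weightedHomogeneousSubmodule ℚ w D).map
        ((Ideal.Quotient.mkₐ ℚ P).toLinearMap ∘ₗ
          (rename (R := ℚ) (Sum.inl : σ → σ ⊕ σ')).toLinearMap) := by
    apply le_antisymm
    · rintro _ ⟨f, hf, rfl⟩
      obtain ⟨g, hg1, hg2⟩ := hg f
      obtain ⟨g0, rfl⟩ := exists_rename_eq_of_vars_subset_range g Sum.inl Sum.inl_injective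
        ((mem_supported.1 hg1).trans (by simp))
      refine ⟨cmp w D g0, hg_cmp w D g0, ?_⟩
      have := hP _ hg2 D
      rw [map_sub, cmp_of_hg hf, cmp_rename_inl] at this
      exact (mkl_eq.2 this).symm
    · rintro _ ⟨f, hf, rfl⟩
      exact ⟨rename Sum.inl f, hg_rename_inl w' hf, rfl⟩
  rw [h1]
  refine finrank_map_congr _ _ _ fun f _ => ?_
  rw [mkl_eq_zero, Ideal.mem_comap]
  exact mkl_eq_zero.symm

end Vale.Agent.P199
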