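import Vale.Agent.P199.KPoly
import Vale.Agent.P199.Grob

/-! # P199: localization, coordinate ideals, degeneration, products and pull back.

Plan. `State.triv`: induction on `τ` with `State.elim` (`g = 0`); for `τ = ∅` use `Bd` with
`Y = ∅`. `State.loc`: eliminate the variables outside `τ0` with `State.elim`, then `State.triv` and
`State.lower`. `isK_coord`: `HS (span (X '' Z)) * ∏ v ∉ Z, (1 - t ^ w v) = 1` by downward induction
on `Z` with `HS_add` (`mem_ideal_span_X_image` shows that `X v` is regular, `v ∉ Z`).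
`degen`: `cls` of `I` equals `cls` of `J = inI u I` (`HS_inI`), filter `J ≤ Q0`, all primes contain
the product of the `ρ`, hence have zero class by `State.loc`; then `cls_natural`.
`pull`: `state_prod`, pass to a prime, eliminate all variables of `σ'` with
`X (inr v) - rename inl (g v)` (induction on a finset of remaining variables), `state_comap`. -/

namespace Vale.Agent.P199

open MvPolynomial

variable {σ σ' ι : Type} [Fintype σ] [DecidableEq σ] [Fintype σ'] [DecidableEq σ'] [Fintype ι]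
  [DecidableEq ι]

omit [Fintype σ] [DecidableEq σ] [Fintype ι] [DecidableEq ι] in
theorem State.ne_top' {ω : ι → R2 ι} {w : σ → ι →₀ ℕ} {τ : Finset σ} {I : Ideal (Pol σ)} {c : ℕ}
    (h : State ω w τ I c) : I ≠ ⊤ := by
  rintro rfl
  exact h.ne (cls_top ω w τ c)

theorem State.triv {ω : ι → R2 ι} {w : σ → ι →₀ ℕ} (hw : ∀ v, w v ≠ 0)
    {τ : Finset σ} {I : Ideal (Pol σ)} {c : ℕ} (h : State ω w τ I c)
    (h0 : ∀ v ∈ τ, lin ω (w v) = 0) : c = 0 := by
  induction τ using Finset.strongInduction generalizing I c with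
  | H τ ih =>
    rcases τ.eq_empty_or_nonempty with rfl | ⟨v, hv⟩
    · have := h.bd ∅ le_rfl (indep_empty h.ne_top')
      simpa using this
    · obtain ⟨P, hP, -, h1⟩ := h.exists_prime hw
      obtain ⟨P', c', -, -, -, -, h2, h3⟩ := h1.elim hw hP hv
        (isWeightedHomogeneous_zero ℚ w (w v)) (zero_mem _)
      rw [← h2 (h0 v hv)]
      exact ih _ (Finset.erase_ssubset hv) h3 fun v hv => h0 v (Finset.mem_of_mem_erase hv)

theorem State.loc {ω : ι → R2 ι} {w : σ → ι →₀ ℕ} (hw : ∀ v, w v ≠ 0)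
    {τ τ0 : Finset σ} {I : Ideal (Pol σ)} {c : ℕ} (h : State ω w τ I c) (hτ : τ0 ⊆ τ)
    (h0 : ∀ v ∈ τ0, lin ω (w v) = 0) : Indep I τ0 := by
  induction τ using Finset.strongInduction generalizing I c with
  | H τ ih =>
    by_cases hle : τ ⊆ τ0
    · obtain rfl := hτ.antisymm hle
      obtain rfl := h.triv hw h0
      obtain ⟨Y, hY, hi, hc⟩ := h.lower hw
      rwa [← Finset.eq_of_subset_of_card_le hY (by omega)]
    · obtain ⟨v, hv, hv0⟩ := Finset.not_subset.1 hle
      obtain ⟨P, hP, hIP, h1⟩ := h.exists_prime hw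
      obtain ⟨P', c', -, hPP, -, -, -, h3⟩ := h1.elim hw hP hv
        (isWeightedHomogeneous_zero ℚ w (w v)) (zero_mem _)
      exact (ih _ (Finset.erase_ssubset hv) h3
        (Finset.subset_erase.2 ⟨hτ, hv0⟩)).anti (hIP.trans hPP)

omit [Fintype σ] [DecidableEq σ] [Fintype ι] [DecidableEq ι] in
theorem gr_coord (w : σ → ι →₀ ℕ) (Z : Set σ) :
    Gr w (Ideal.span ((fun v => (X v : Pol σ)) '' Z)) := by
  refine gr_span ?_
  rintro _ ⟨v, -, rfl⟩
  exact ⟨w v, isWeightedHomogeneous_X ℚ w v⟩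

omit [Fintype σ] [DecidableEq σ] in
theorem colon_coord {Z : Set σ} {v : σ} (hv : v ∉ Z) :
    (Ideal.span ((fun v => (X v : Pol σ)) '' Z)).colon {X v} =
      Ideal.span ((fun v => (X v : Pol σ)) '' Z) := by
  refine le_antisymm (fun f hf => ?_) (le_colon_self _ _)
  rw [mem_colon_iff] at hf
  refine mem_ideal_span_X_image.2 fun m hm => ?_
  obtain ⟨i, hi, h⟩ := mem_ideal_span_X_image.1 hf (m + Finsupp.single v 1)
    (by rwa [mem_support_iff, coeff_mul_X, ← mem_support_iff])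
  refine ⟨i, hi, ?_⟩
  rwa [Finsupp.add_apply, Finsupp.single_eq_of_ne (fun h0 : i = v => hv (h0 ▸ hi)),
    add_zero] at h

theorem HS_coord {w : σ → ι →₀ ℕ} (hw : ∀ v, w v ≠ 0) (Z : Finset σ) :
    HS w (Ideal.span ((fun v => (X v : Pol σ)) '' (Z : Set σ))) =
      HS w ⊥ * ∏ v ∈ Z, (1 - MvPowerSeries.monomial (w v) 1) := by
  induction Z using Finset.induction_on with
  | empty => simp
  | insert v Z hv ih =>
    rw [Finset.coe_insert, Set.image_insert_eq, Ideal.span_insert, sup_comm,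
      HS_cut hw (gr_coord w _) (isWeightedHomogeneous_X ℚ w v) (colon_coord hv), ih,
      Finset.prod_insert hv]
    ring

theorem HS_bot_mul {w : σ → ι →₀ ℕ} (hw : ∀ v, w v ≠ 0) :
    HS w ⊥ * ∏ v, (1 - MvPowerSeries.monomial (w v) 1) = 1 := by
  rw [← HS_coord hw]
  refine HS_of_gen_empty hw (gr_coord w _) (gen_of_X fun v => ⟨0, zero_mem _, ?_⟩) fun h => ?_
  · rw [sub_zero]
    exact Ideal.subset_span ⟨v, by simp, rfl⟩
  · obtain ⟨i, -, hi⟩ := mem_ideal_span_X_image.1 ((Ideal.eq_top_iff_one _).1 h) 0 (by simp)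
    exact hi rfl

theorem isK_coord {w : σ → ι →₀ ℕ} (hw : ∀ v, w v ≠ 0) (Z : Finset σ) :
    IsK w Finset.univ (Ideal.span ((fun v => (X v : Pol σ)) '' (Z : Set σ)))
      (∏ v ∈ Z, (1 - monomial (w v) 1)) := by
  have h1 : ((∏ v ∈ Z, (1 - monomial (w v) 1) : R2 ι) : MvPowerSeries ι (ZMod 2)) =
      ∏ v ∈ Z, (1 - MvPowerSeries.monomial (w v) 1) := by
    induction Z using Finset.induction_on with
    | empty => simp
    | insert v Z hv ih => rw [Finset.prod_insert hv, Finset.prod_insert hv, coe_mul, coe_one_sub, ih]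
  rw [IsK, h1, HS_coord hw, mul_right_comm, HS_bot_mul hw, one_mul]

theorem cls_coord (ω : ι → R2 ι) {w : σ → ι →₀ ℕ} (hw : ∀ v, w v ≠ 0) (Z : Finset σ) :
    cls ω w Finset.univ (Ideal.span ((fun v => (X v : Pol σ)) '' (Z : Set σ))) Z.card =
      ∏ v ∈ Z, lin ω (w v) := by
  rw [cls, Kp_eq (isK_coord hw Z)]
  have key : Polynomial.X ^ Z.card ∣ ev ω (∏ v ∈ Z, (1 - monomial (w v) 1)) ∧
      (ev ω (∏ v ∈ Z, (1 - monomial (w v) 1))).coeff Z.card = ∏ v ∈ Z, lin ω (w v) := by
    induction Z using Finset.induction_on with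
    | empty => simp
    | insert v Z hv ih =>
      rw [Finset.prod_insert hv, Finset.prod_insert hv, Finset.card_insert_of_notMem hv,
        mul_comm (1 - monomial (w v) 1 : R2 ι), coeff_ev_mul_one_sub ω _ ih.1, ih.2,
        CharTwo.neg_eq]
      obtain ⟨q, hq, -⟩ := ev_mul_one_sub ω (w v) (∏ v ∈ Z, (1 - monomial (w v) 1))
      rw [hq, pow_succ']
      exact ⟨mul_dvd_mul_left _ (ih.1.mul_left _), rfl⟩
  exact key.2

theorem state_bot (ω : ι → R2 ι) {w : σ → ι →₀ ℕ} (hw : ∀ v, w v ≠ 0) :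
    State ω w Finset.univ (⊥ : Ideal (Pol σ)) 0 := by
  refine ⟨gr_bot w, gen_univ _, fun Y hY _ => Finset.card_le_card hY, ?_⟩
  have := cls_coord ω hw ∅
  rw [Finset.coe_empty, Set.image_empty, Ideal.span_empty, Finset.card_empty,
    Finset.prod_empty] at this
  rw [this]
  exact one_ne_zero

theorem degen (ω : ι → R2 ι) {w : σ → ι →₀ ℕ} (hw : ∀ v, w v ≠ 0) {I : Ideal (Pol σ)}
    (hI : Gr w I) (Z τ0 : Finset σ) (hb : Bd Finset.univ I Z.card) (u : σ → ℕ)
    (hβ : inI u I ≤ Ideal.span ((fun v => (X v : Pol σ)) '' (Z : Set σ)))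
    (hγ : ∀ v ∈ Z, ∃ ρ ∈ supported ℚ (τ0 : Set σ), ρ ≠ 0 ∧ ρ * X v ∈ inI u I)
    (h0 : ∀ v ∈ τ0, lin ω (w v) = 0) (hZ : ∀ v ∈ Z, lin ω (w v) ≠ 0) :
    State X w Finset.univ I Z.card := by
  refine ⟨hI, gen_univ _, hb, fun hc => ?_⟩
  have h1 : cls ω w Finset.univ I Z.card = 0 := by rw [cls_natural, hc, map_zero]
  have h2 : IsK w Finset.univ (inI u I) = IsK w Finset.univ I := by
    funext K
    rw [IsK, IsK, HS_inI hw hI]
  have h3 : cls ω w Finset.univ (inI u I) Z.card = 0 := by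
    rw [← h1, cls, cls, Kp, Kp, h2]
  obtain ⟨L, hL⟩ := exists_filt (hI.inI u) (gr_coord w _) hβ
  rw [cls_filt hw hL (gr_coord w _) (gen_univ _) (hb.inI u), cls_coord ω hw,
    List.sum_eq_zero, add_zero] at h3
  · exact Finset.prod_ne_zero_iff.2 hZ h3
  · intro x hx
    obtain ⟨p, hp, rfl⟩ := List.mem_map.1 hx
    obtain ⟨-, h4, h5, h6⟩ := hL.mem hp
    by_contra hne
    have h7 : State ω w Finset.univ p.2 Z.card := ⟨h4, gen_univ _, (hb.inI u).mono h5, hne⟩
    have h8 := h7.loc hw (Finset.subset_univ τ0) h0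
    choose! ρ hρ1 hρ2 hρ3 using hγ
    refine Finset.prod_ne_zero_iff.2 hρ2 (h8 _ (Subalgebra.prod_mem _ hρ1) (h6 _ fun g hg => ?_))
    have h9 : Ideal.span ((fun v => (X v : Pol σ)) '' (Z : Set σ)) ≤
        (inI u I).colon {∏ v ∈ Z, ρ v} := by
      refine Ideal.span_le.2 ?_
      rintro _ ⟨v, hv, rfl⟩
      refine mem_colon_iff.2 ?_
      rw [← Finset.mul_prod_erase Z ρ hv, ← mul_assoc, mul_comm (X v)]
      exact Ideal.mul_mem_right _ _ (hρ3 v hv)
    rw [mul_comm]
    exact mem_colon_iff.1 (h9 hg)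

omit [Fintype σ] [DecidableEq σ] [Fintype σ'] [DecidableEq σ'] in
theorem rename_mem_supported_iff {e : σ → σ'} (he : Function.Injective e) {Y : Set σ'}
    {f : Pol σ} : rename e f ∈ supported ℚ Y ↔ f ∈ supported ℚ (e ⁻¹' Y) := by
  classical
  rw [mem_supported_iff_support, mem_supported_iff_support, support_rename_of_injective he]
  simp only [Finset.mem_image, forall_exists_index, and_imp, forall_apply_eq_imp_iff₂,
    Finsupp.mapDomain_support_of_injective he, Set.mem_preimage]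

theorem coeff_mul_of_dvd_dvd {A : Type} [CommRing A] {p q : Polynomial A} {c c' : ℕ}
    (h : Polynomial.X ^ c ∣ p) (h' : Polynomial.X ^ c' ∣ q) :
    (p * q).coeff (c + c') = p.coeff c * q.coeff c' := by
  obtain ⟨p', rfl⟩ := h
  have h1 := Polynomial.coeff_X_pow_mul (p' * q) c c'
  have h2 := Polynomial.coeff_X_pow_mul p' c 0
  rw [zero_add] at h2
  rw [mul_assoc, add_comm, h1, h2, coeff_mul_of_dvd h']

theorem state_prod {ω : ι → R2 ι} {w : σ → ι →₀ ℕ} {w' : σ' → ι →₀ ℕ} (hw : ∀ v, w v ≠ 0)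
    (hw' : ∀ v, w' v ≠ 0) {I : Ideal (Pol σ)} {I' : Ideal (Pol σ')} {c c' : ℕ}
    (h : State ω w Finset.univ I c) (h' : State ω w' Finset.univ I' c') :
    State ω (Sum.elim w w') Finset.univ (prodI I I') (c + c') := by
  refine ⟨h.gr.prodI h'.gr, gen_univ _, fun Y _ hi => ?_, ?_⟩
  · have h1 := h.bd Y.toLeft (Finset.subset_univ _) fun f hf hI =>
      rename_injective _ Sum.inl_injective ((hi (rename Sum.inl f)
        ((rename_mem_supported_iff Sum.inl_injective).2
          (supported_mono (fun a ha => Finset.mem_toLeft.1 ha) hf))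
        (Ideal.mem_sup_left (Ideal.mem_map_of_mem _ hI))).trans (map_zero _).symm)
    have h2 := h'.bd Y.toRight (Finset.subset_univ _) fun f hf hI =>
      rename_injective _ Sum.inr_injective ((hi (rename Sum.inr f)
        ((rename_mem_supported_iff Sum.inr_injective).2
          (supported_mono (fun a ha => Finset.mem_toRight.1 ha) hf))
        (Ideal.mem_sup_right (Ideal.mem_map_of_mem _ hI))).trans (map_zero _).symm)
    have h3 := Finset.card_toLeft_add_card_toRight (u := Y)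
    rw [Finset.card_univ] at h1 h2 ⊢
    rw [Fintype.card_sum]
    omega
  · have h1 : IsK (Sum.elim w w') Finset.univ (prodI I I')
        (Kp w Finset.univ I * Kp w' Finset.univ I') := by
      rw [IsK, coe_mul, isK_Kp hw h.gr h.gen, isK_Kp hw' h'.gr h'.gen, HS_prod hw hw' h.gr h'.gr,
        Fintype.prod_sum_type]
      simp only [Sum.elim_inl, Sum.elim_inr]
      ring
    rw [cls, Kp_eq h1, map_mul, coeff_mul_of_dvd_dvd (dvd_Kp hw h.gr h.gen h.bd ω)
      (dvd_Kp hw' h'.gr h'.gen h'.bd ω)]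
    exact mul_ne_zero h.ne h'.ne

theorem state_comap {ω : ι → R2 ι} {w : σ → ι →₀ ℕ} {w' : σ' → ι →₀ ℕ}
    {P : Ideal (Pol (σ ⊕ σ'))} {c : ℕ}
    (h : State ω (Sum.elim w w') (Finset.univ.map Function.Embedding.inl) P c) :
    State ω w Finset.univ (P.comap (rename (R := ℚ) (Sum.inl : σ → σ ⊕ σ'))) c := by
  refine ⟨h.gr.comap_inl, gen_univ _, fun Y hY hi => ?_, ?_⟩
  · have h1 := h.bd (Y.map Function.Embedding.inl) (Finset.map_subset_map.2 hY) fun g hg hP => by
      obtain ⟨g0, rfl⟩ := exists_rename_eq_of_vars_subset_range g Sum.inl Sum.inl_injective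
        ((mem_supported.1 hg).trans (by simp))
      rw [hi g0 (supported_mono (fun v hv => by simpa using hv)
        ((rename_mem_supported_iff Sum.inl_injective).1 hg)) hP, map_zero]
    rwa [Finset.card_map, Finset.card_map] at h1
  · have h2 : IsK w Finset.univ (P.comap (rename (R := ℚ) (Sum.inl : σ → σ ⊕ σ'))) =
        IsK (Sum.elim w w') (Finset.univ.map Function.Embedding.inl) P := by
      funext K
      rw [IsK, IsK, HS_comap_inl h.gr h.gen, Finset.prod_map]
      rfl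
    have := h.ne
    rwa [cls, Kp, ← h2] at this

theorem pull {ω : ι → R2 ι} {w : σ → ι →₀ ℕ} {w' : σ' → ι →₀ ℕ} (hw : ∀ v, w v ≠ 0)
    (hw' : ∀ v, w' v ≠ 0) {I : Ideal (Pol σ)} {I' : Ideal (Pol σ')} {c c' : ℕ}
    (h : State ω w Finset.univ I c) (h' : State ω w' Finset.univ I' c') (g : σ' → Pol σ)
    (hg : ∀ v, Hg w (g v) (w' v)) :
    ∃ (P : Ideal (Pol σ)) (c'' : ℕ), P.IsPrime ∧ I ≤ P ∧ (∀ f ∈ I', aeval g f ∈ P) ∧
      c'' ≤ c + c' ∧ State ω w Finset.univ P c'' := by
  have hww : ∀ v, Sum.elim w w' v ≠ 0 := by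
    rintro (v | v)
    · exact hw v
    · exact hw' v
  have key : ∀ s : Finset σ', ∃ (P : Ideal (Pol (σ ⊕ σ'))) (c'' : ℕ), P.IsPrime ∧
      prodI I I' ≤ P ∧ (∀ v ∈ s, X (Sum.inr v) - rename Sum.inl (g v) ∈ P) ∧ c'' ≤ c + c' ∧
      State ω (Sum.elim w w') (Finset.univ \ s.map Function.Embedding.inr) P c'' := by
    intro s
    induction s using Finset.induction_on with
    | empty =>
      obtain ⟨P, h1, h2, h3⟩ := (state_prod hw hw' h h').exists_prime hww
      exact ⟨P, _, h1, h2, by simp, le_rfl, by simpa using h3⟩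
    | insert v s hv ih =>
      obtain ⟨P, c1, h1, h2, h3, h4, h5⟩ := ih
      obtain ⟨P', c2, h6, h7, h8, h9, -, h10⟩ := h5.elim hww h1 (v := Sum.inr v)
        (g := rename Sum.inl (g v)) (by simpa using hv) (hg_rename_inl w' (hg v))
        ((rename_mem_supported_iff Sum.inl_injective).2 (supported_mono (fun a _ => by simp)
          (by rw [supported_univ]; trivial)))
      refine ⟨P', c2, h6, h2.trans h7, fun a ha => ?_, h9.trans h4, ?_⟩
      · rcases Finset.mem_insert.1 ha with rfl | ha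
        · exact h8
        · exact h7 (h3 a ha)
      · rwa [Finset.map_insert, Finset.sdiff_insert]
  obtain ⟨P, c'', h1, h2, h3, h4, h5⟩ := key Finset.univ
  have h6 : (Finset.univ \ Finset.univ.map Function.Embedding.inr : Finset (σ ⊕ σ')) =
      Finset.univ.map Function.Embedding.inl := by
    ext (a | a) <;> simp
  rw [h6] at h5
  refine ⟨P.comap (rename (R := ℚ) (Sum.inl : σ → σ ⊕ σ')), c'', Ideal.comap_isPrime _ _,
    fun f hf => h2 (Ideal.mem_sup_left (Ideal.mem_map_of_mem _ hf)), fun f hf => ?_, h4,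
    state_comap h5⟩
  have h7 : (Ideal.Quotient.mkₐ ℚ P).comp ((rename (R := ℚ) (Sum.inl : σ → σ ⊕ σ')).comp
      (aeval g)) = (Ideal.Quotient.mkₐ ℚ P).comp (rename (R := ℚ) (Sum.inr : σ' → σ ⊕ σ')) := by
    refine algHom_ext fun v => ?_
    simp only [AlgHom.comp_apply, aeval_X, rename_X, Ideal.Quotient.mkₐ_eq_mk]
    exact (Ideal.Quotient.eq.2 (h3 v (Finset.mem_univ v))).symm
  have h8 := DFunLike.congr_fun h7 f
  simp only [AlgHom.comp_apply, Ideal.Quotient.mkₐ_eq_mk] at h8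
  rw [Ideal.mem_comap, ← Ideal.Quotient.eq_zero_iff_mem, h8, Ideal.Quotient.eq_zero_iff_mem]
  exact h2 (Ideal.mem_sup_right (Ideal.mem_map_of_mem _ hf))

end Vale.Agent.P199
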