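import Vale.Agent.P199.Defs

/-! # P199: localized length and the abstract domain step.

Plan. `len_add_of_exact`: `LocalizedModule.map` preserves injective, surjective, exact
(`IsLocalizedModule.map_injective`, `map_surjective`, `LocalizedModule.map_exact`), then
`Module.length_eq_add_of_exact`. `len_ne_top_of_smul`: the localization is a finite module killed
by the maximal ideal, so a finite dimensional vector space over the residue field.
`herbrand`: choose an injective `ι : (Fin ρ → R) → M` with torsion cokernel and apply `len_comp`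
to `ι ∘ σ = σ ∘ ι`; the cokernel has finite length.
`len_dvd`, `domain_step`: see notes/P199.md, part D. -/

namespace Vale.Agent.P199

variable {R : Type} [CommRing R] (p : Ideal R) [p.IsPrime]

section Basic

variable {M N P : Type} [AddCommGroup M] [Module R M] [AddCommGroup N] [Module R N]
  [AddCommGroup P] [Module R P]

theorem len_add_of_exact (f : N →ₗ[R] M) (g : M →ₗ[R] P) (hf : Function.Injective f)
    (hg : Function.Surjective g) (h : Function.Exact f g) : len p M = len p N + len p P :=
  Module.length_eq_add_of_exact (LocalizedModule.map _ f) (LocalizedModule.map _ g)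
    (LocalizedModule.map_injective _ f hf) (LocalizedModule.map_surjective _ g hg)
    (LocalizedModule.map_exact _ f g h)

theorem len_congr (e : M ≃ₗ[R] N) : len p M = len p N :=
  (IsLocalizedModule.mapEquiv p.primeCompl (LocalizedModule.mkLinearMap _ M)
    (LocalizedModule.mkLinearMap _ N) (Localization.AtPrime p) e).length_eq

theorem len_quot (S : Submodule R M) : len p M = len p S + len p (M ⧸ S) :=
  len_add_of_exact p S.subtype S.mkQ S.subtype_injective S.mkQ_surjective
    (LinearMap.exact_subtype_mkQ S)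

theorem len_le_of_injective (f : N →ₗ[R] M) (hf : Function.Injective f) : len p N ≤ len p M :=
  Module.length_le_of_injective (LocalizedModule.map _ f) (LocalizedModule.map_injective _ f hf)

theorem len_le_of_surjective (g : M →ₗ[R] P) (hg : Function.Surjective g) :
    len p P ≤ len p M :=
  Module.length_le_of_surjective (LocalizedModule.map _ g) (LocalizedModule.map_surjective _ g hg)

theorem len_eq_zero_iff : len p M = 0 ↔ ∀ m : M, ∃ τ ∉ p, τ • m = 0 :=
  Module.length_eq_zero_iff.trans LocalizedModule.subsingleton_iff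

theorem len_ne_top_of_smul [Module.Finite R M] (h : ∀ τ ∈ p, ∀ m : M, τ • m = 0) :
    len p M ≠ ⊤ := by
  have ht : Module.IsTorsionBySet (Localization.AtPrime p) (LocalizedModule p.primeCompl M)
      (IsLocalRing.maximalIdeal (Localization.AtPrime p)) := by
    rintro x ⟨a, ha⟩
    obtain ⟨⟨r, s⟩, rfl⟩ := IsLocalization.mk'_surjective p.primeCompl a
    induction x using LocalizedModule.induction_on with
    | h m t =>
      have hr : r ∈ p := (IsLocalization.AtPrime.mk'_mem_maximal_iff _ p r s).1 ha
      simp only [← Localization.mk_eq_mk'_apply, LocalizedModule.mk_smul_mk, h r hr,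
        LocalizedModule.zero_mk]
  letI := ht.module
  letI := Ideal.Quotient.field (IsLocalRing.maximalIdeal (Localization.AtPrime p))
  have := Module.Finite.of_restrictScalars_finite (Localization.AtPrime p)
    (Localization.AtPrime p ⧸ IsLocalRing.maximalIdeal (Localization.AtPrime p))
    (LocalizedModule p.primeCompl M)
  rw [len, Module.length_eq_of_surjective
    (R := Localization.AtPrime p ⧸ IsLocalRing.maximalIdeal (Localization.AtPrime p))
    Ideal.Quotient.mk_surjective]
  exact Module.length_ne_top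

theorem len_pi (n : ℕ) : len p (Fin n → M) = n * len p M := by
  induction n with
  | zero => simp [len]
  | succ n ih =>
    rw [← len_congr p (Fin.consLinearEquiv R fun _ : Fin (n + 1) => M),
      len_add_of_exact p _ _ LinearMap.inl_injective LinearMap.snd_surjective .inl_snd, ih]
    push_cast
    ring

theorem len_comp (φ : M →ₗ[R] P) (ψ : N →ₗ[R] M) (hφ : Function.Injective φ) :
    len p (P ⧸ LinearMap.range (φ ∘ₗ ψ)) =
      len p (P ⧸ LinearMap.range φ) + len p (M ⧸ LinearMap.range ψ) := by
  have hle : LinearMap.range (φ ∘ₗ ψ) ≤ LinearMap.range φ := LinearMap.range_comp_le_range _ _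
  rw [add_comm]
  refine len_add_of_exact p (Submodule.mapQ _ _ φ fun x ⟨y, hy⟩ => ⟨y, congrArg φ hy⟩)
    (Submodule.factor hle) ?_ (Submodule.factor_surjective hle) fun x => ?_
  · refine (injective_iff_map_eq_zero _).2 fun x hx => ?_
    obtain ⟨x, rfl⟩ := Submodule.mkQ_surjective _ x
    obtain ⟨y, hy⟩ := (Submodule.Quotient.mk_eq_zero _).1 hx
    exact (Submodule.Quotient.mk_eq_zero _).2 ⟨y, hφ hy⟩
  · obtain ⟨x, rfl⟩ := Submodule.mkQ_surjective _ x
    refine ⟨fun hx => ?_, fun ⟨y, hy⟩ => ?_⟩
    · obtain ⟨y, rfl⟩ := (Submodule.Quotient.mk_eq_zero _).1 hx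
      exact ⟨Submodule.Quotient.mk y, rfl⟩
    · obtain ⟨y, rfl⟩ := Submodule.mkQ_surjective _ y
      rw [← hy]
      exact (Submodule.Quotient.mk_eq_zero _).2 ⟨y, rfl⟩

theorem len_eq_zero_of_smul [Module.Finite R M] {τ : R} (hτ : τ ∈ p)
    (h : len p (M ⧸ LinearMap.range (LinearMap.lsmul R M τ)) = 0) : len p M = 0 := by
  rw [len, Module.length_eq_zero_iff, ← Submodule.subsingleton_iff (Localization.AtPrime p),
    ← subsingleton_iff_bot_eq_top, eq_comm]
  refine Submodule.eq_bot_of_le_smul_of_le_jacobson_bot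
    (IsLocalRing.maximalIdeal (Localization.AtPrime p)) ⊤ Module.Finite.fg_top (fun x _ => ?_)
    (IsLocalRing.maximalIdeal_le_jacobson _)
  induction x using LocalizedModule.induction_on with
  | h m t =>
    obtain ⟨s, hs, h1⟩ := (len_eq_zero_iff p).1 h (Submodule.Quotient.mk m)
    obtain ⟨y, hy⟩ := (Submodule.Quotient.mk_eq_zero _).1 h1
    have e : LocalizedModule.mk m t = algebraMap R (Localization.AtPrime p) τ •
        LocalizedModule.mk y (⟨s, hs⟩ * t) := by
      rw [algebraMap_smul, LocalizedModule.smul'_mk, show τ • y = s • m from hy]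
      exact (LocalizedModule.mk_cancel_common_left ⟨s, hs⟩ t m).symm
    rw [e]
    exact Submodule.smul_mem_smul
      ((IsLocalization.AtPrime.to_map_mem_maximal_iff _ p τ).2 hτ) trivial

theorem len_ne_top_of_torsion [Module.Finite R M] {τ : R} (h : ∀ m : M, τ • m = 0)
    (hfin : len p (R ⧸ Ideal.span {τ}) ≠ ⊤) : len p M ≠ ⊤ := by
  obtain ⟨n, v, hv⟩ := Module.Finite.exists_fin (R := R) (M := M)
  let g : (Fin n → R ⧸ Ideal.span {τ}) →ₗ[R] M := ∑ i, (Submodule.liftQ _
    (LinearMap.toSpanSingleton R M (v i)) (Ideal.span_le.2 (by simpa using h _))) ∘ₗ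
      LinearMap.proj i
  have hg : Function.Surjective g := fun m => by
    obtain ⟨c, rfl⟩ := (Submodule.mem_span_range_iff_exists_fun R).1 (hv.ge (Submodule.mem_top (x := m)))
    exact ⟨fun i => Submodule.Quotient.mk (c i), by simp [g, -Ideal.Quotient.mk_eq_mk]⟩
  refine ne_top_of_le_ne_top ?_ (len_le_of_surjective p g hg)
  rw [len_pi]
  exact WithTop.mul_ne_top (ENat.coe_ne_top n) hfin

theorem herbrand [IsDomain R] [Module.Finite R M]
    (htf : ∀ (τ : R) (m : M), τ • m = 0 → τ = 0 ∨ m = 0)
    (hfin : ∀ τ : R, τ ≠ 0 → len p (R ⧸ Ideal.span {τ}) ≠ ⊤) {σ : R} (hσ : σ ≠ 0) :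
    len p (M ⧸ LinearMap.range (LinearMap.lsmul R M σ)) =
      Module.finrank R M * len p (R ⧸ Ideal.span {σ}) := by
  obtain ⟨v, hv⟩ := exists_linearIndependent_of_le_finrank (R := R) (M := M) le_rfl
  let ι := Fintype.linearCombination R v
  have hι : Function.Injective ι := hv.fintypeLinearCombination_injective
  have h0 : Module.finrank R (M ⧸ LinearMap.range ι) = 0 := by
    have := (LinearMap.range ι).finrank_quotient_add_finrank
    rw [LinearMap.finrank_range_of_inj hι, Module.finrank_fin_fun] at this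
    omega
  obtain ⟨τ, h1, h2⟩ := Submodule.annihilator_top_inter_nonZeroDivisors
    (Module.finrank_eq_zero_iff_isTorsion.1 h0)
  have h3 : len p (M ⧸ LinearMap.range ι) ≠ ⊤ :=
    len_ne_top_of_torsion p (fun m => Submodule.mem_annihilator.1 h1 m trivial)
      (hfin τ (nonZeroDivisors.ne_zero h2))
  have h4 := len_comp p ι (LinearMap.lsmul R _ σ) hι
  rw [show ι ∘ₗ LinearMap.lsmul R _ σ = LinearMap.lsmul R _ σ ∘ₗ ι from
    LinearMap.ext fun x => map_smul ι σ x, len_comp p _ ι ((injective_iff_map_eq_zero _).2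
      fun x hx => (htf σ x hx).resolve_left hσ), add_comm] at h4
  rw [WithTop.add_left_cancel h3 h4, ← len_pi]
  let g : (Fin (Module.finrank R M) → R) →ₗ[R] Fin (Module.finrank R M) → R ⧸ Ideal.span {σ} :=
    LinearMap.compLeft (Submodule.mkQ _) _
  have hg : Function.Surjective g := (Submodule.mkQ_surjective _).comp_left
  refine len_congr p ((Submodule.quotEquivOfEq _ _ ?_).trans (g.quotKerEquivOfSurjective hg))
  ext x
  refine ⟨fun ⟨y, hy⟩ => funext fun i => (Submodule.Quotient.mk_eq_zero _).2
    (Ideal.mem_span_singleton.2 ⟨y i, (congrFun hy i).symm⟩), fun hx => ?_⟩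
  choose y hy using fun i =>
    Ideal.mem_span_singleton.1 ((Submodule.Quotient.mk_eq_zero _).1 (congrFun hx i))
  exact ⟨y, funext fun i => (hy i).symm⟩

end Basic

theorem len_colon {B : Type} [CommRing B] [Algebra R B] (𝔞 : Ideal B) (b : B) :
    len p (B ⧸ 𝔞) = len p (B ⧸ (𝔞 ⊔ Ideal.span {b})) + len p (B ⧸ 𝔞.colon {b}) := by
  rw [add_comm]
  refine len_add_of_exact p ((Submodule.mapQ (𝔞.colon {b}) 𝔞 (LinearMap.toSpanSingleton B B b)
    fun x hx => Submodule.mem_colon_singleton.1 hx).restrictScalars R)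
    ((Submodule.factor (p := 𝔞) (p' := 𝔞 ⊔ Ideal.span {b}) le_sup_left).restrictScalars R) ?_
    (Submodule.factor_surjective (p := 𝔞) (p' := 𝔞 ⊔ Ideal.span {b}) le_sup_left) fun x => ?_
  · refine (injective_iff_map_eq_zero _).2 fun x hx => ?_
    obtain ⟨x, rfl⟩ := Submodule.mkQ_surjective _ x
    exact (Submodule.Quotient.mk_eq_zero _).2
      (Submodule.mem_colon_singleton.2 ((Submodule.Quotient.mk_eq_zero _).1 hx))
  · obtain ⟨x, rfl⟩ := Submodule.mkQ_surjective _ x
    refine ⟨fun hx => ?_, fun ⟨y, hy⟩ => ?_⟩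
    · obtain ⟨a, ha, c, hc, rfl⟩ := Submodule.mem_sup.1 ((Submodule.Quotient.mk_eq_zero _).1 hx)
      obtain ⟨y, rfl⟩ := Ideal.mem_span_singleton'.1 hc
      exact ⟨Submodule.Quotient.mk y, (Submodule.Quotient.eq _).2 (by simpa using ha)⟩
    · obtain ⟨y, rfl⟩ := Submodule.mkQ_surjective _ y
      rw [← hy]
      exact (Submodule.Quotient.mk_eq_zero _).2
        (Ideal.mem_sup_right (Ideal.mem_span_singleton'.2 ⟨y, rfl⟩))

end Vale.Agent.P199
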