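import Vale.Agent.P199.Newt

/-! # P199: ultraproduct, localization and passage to the center.

`center_step`: if `D` is finite over its center with spanning family `e i`, let `Z0` be the
`k`-algebra generated by the coordinates of `1` and of the `x * e i`, `x` in a finite generating
set; it is commutative, finitely generated and algebraic, so finite over `k`, and the `Z0`-span of
the `e i` is all of `D`.
`localize`: `D = FractionRing C ⊗[C] A`.
`ultra`: `L = (Π n, M n) / (null sequences for the hyperfilter)`, `A` the image of the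
sequences `n ↦ e.ev (t n) (x n)`, `C` the elements of the center of `L` lying in `A` and
represented by a sequence in `Π n, Z n`. -/

namespace Vale.Agent.P199

theorem center_step {k D : Type} [Field k] [DivisionRing D] [Algebra k D]
    (ha : Algebra.IsAlgebraic k D) (hf : Algebra.FiniteType k D) (hn : ¬Module.Finite k D) :
    Algebra.IsAlgebraic (Subring.center D) D ∧ Algebra.FiniteType (Subring.center D) D ∧
      ¬Module.Finite (Subring.center D) D := by
  let φ : k →+* Subring.center D := (algebraMap k D).codRestrict (Subring.center D) fun c =>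
    Subring.mem_center_iff.2 fun g => (Algebra.commutes c g).symm
  let : Algebra k (Subring.center D) := φ.toAlgebra
  have : IsScalarTower k (Subring.center D) D := IsScalarTower.of_algebraMap_eq fun _ => rfl
  have hφ : Function.Injective (algebraMap k (Subring.center D)) := φ.injective
  refine ⟨⟨fun a => (ha.isAlgebraic a).extendScalars hφ⟩,
    Algebra.FiniteType.of_restrictScalars_finiteType k _ D, fun hfin => hn ?_⟩
  obtain ⟨B, hB, hBD⟩ := exists_subalgebra_of_fg k (Subring.center D) D hf.out hfin.fg_top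
  have : Algebra.FiniteType k B := (Subalgebra.fg_iff_finiteType B).1 hB
  have : Algebra.IsAlgebraic k B := ⟨fun b => by
    rw [Subalgebra.isAlgebraic_iff_isAlgebraic_val,
      ← isAlgebraic_algebraMap_iff (A := D) Subtype.val_injective]
    exact ha.isAlgebraic _⟩
  have : Module.Finite k B := Algebra.IsIntegral.finite
  have : Module.Finite B D := ⟨hBD⟩
  exact Module.Finite.trans B D

theorem exists_div {k D : Type} [Field k] [Ring D] [IsDomain D] [Algebra k D]
    (ha : Algebra.IsAlgebraic k D) (hf : Algebra.FiniteType k D) (hn : ¬Module.Finite k D) :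
    ∃ (k D : Type) (_ : Field k) (_ : DivisionRing D) (_ : Algebra k D),
      Algebra.IsAlgebraic k D ∧ Algebra.FiniteType k D ∧ ¬Module.Finite k D := by
  have h : ∀ a : D, IsUnit a ∨ a = 0 := fun a => by
    by_cases h0 : a = 0
    · exact Or.inr h0
    · exact Or.inl ((ha.isAlgebraic a).isIntegral.isUnit h0)
  exact ⟨k, D, inferInstance, DivisionRing.ofIsUnitOrEqZero h, ‹Algebra k D›, ha, hf, hn⟩

theorem localize_aux {C A k D : Type} [CommRing C] [IsDomain C] [Ring A] [IsDomain A] [Algebra C A]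
    [Field k] [Algebra C k] [IsFractionRing C k] [Ring D] [Algebra C D] [Algebra k D]
    [IsScalarTower C k D] (ι : A →ₐ[C] D) (hι : Function.Injective ι)
    (hs : ∀ d : D, ∃ s : C, s ≠ 0 ∧ ∃ a, s • d = ι a)
    (ha : Algebra.IsAlgebraic C A) (x : Fin 5 → A)
    (hx : Algebra.adjoin C (Set.range x) = ⊤)
    (hd : ∀ (β : ℕ) (w : Fin β → A), (∃ c : C, c ≠ 0 ∧ c • (1 : A) ∈ Submodule.span C (Set.range w)) →
      (∀ g j, ∃ c : C, c ≠ 0 ∧ c • (x g * w j) ∈ Submodule.span C (Set.range w)) → False) :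
    ∃ (k D : Type) (_ : Field k) (_ : DivisionRing D) (_ : Algebra k D),
      Algebra.IsAlgebraic k D ∧ Algebra.FiniteType k D ∧ ¬Module.Finite k D := by
  classical
  have hk : Function.Injective (algebraMap C k) := IsFractionRing.injective C k
  have hs' : ∀ d : D, ∃ u : k, ∃ a, d = u • ι a := fun d => by
    obtain ⟨s, hs0, a, hsa⟩ := hs d
    have h1 : algebraMap C k s ≠ 0 := (map_ne_zero_iff _ hk).2 hs0
    refine ⟨(algebraMap C k s)⁻¹, a, ?_⟩
    rw [← hsa, ← algebraMap_smul k s d, smul_smul, inv_mul_cancel₀ h1, one_smul]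
  have : Nontrivial D := hι.nontrivial
  have : NoZeroDivisors D := ⟨fun {d e} h => by
    obtain ⟨u, a, rfl⟩ := hs' d
    obtain ⟨v, b, rfl⟩ := hs' e
    rw [smul_mul_smul_comm, smul_eq_zero, ← map_mul, map_eq_zero_iff _ hι, mul_eq_zero,
      mul_eq_zero] at h
    rcases h with (h | h) | (h | h) <;> simp [h]⟩
  have : IsDomain D := NoZeroDivisors.to_isDomain D
  refine exists_div (k := k) (D := D) ⟨fun d => ?_⟩ ⟨⟨Finset.univ.image (ι ∘ x), ?_⟩⟩ fun hfin => ?_
  · obtain ⟨u, a, rfl⟩ := hs' d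
    exact ((((ha.isAlgebraic a).algHom ι).extendScalars hk).smul u)
  · rw [eq_top_iff]
    rintro d -
    obtain ⟨u, a, rfl⟩ := hs' d
    refine Subalgebra.smul_mem _ ?_ u
    have h1 : a ∈ Algebra.adjoin C (Set.range x) := hx ▸ Algebra.mem_top
    induction h1 using Algebra.adjoin_induction with
    | mem y hy =>
      obtain ⟨g, rfl⟩ := hy
      exact Algebra.subset_adjoin (by simp)
    | algebraMap c =>
      rw [AlgHom.commutes, IsScalarTower.algebraMap_apply C k D]
      exact Subalgebra.algebraMap_mem _ _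
    | add y z _ _ hy hz => rw [map_add]; exact add_mem hy hz
    | mul y z _ _ hy hz => rw [map_mul]; exact mul_mem hy hz
  · obtain ⟨β, v, hv⟩ := Module.Finite.exists_fin (R := k) (M := D)
    choose u w hw using fun j => hs' (v j)
    have h1 : ∀ d : D, d ∈ Submodule.span k (Set.range (ι ∘ w)) := fun d => by
      have h2 : Submodule.span k (Set.range v) ≤ Submodule.span k (Set.range (ι ∘ w)) := by
        rw [Submodule.span_le]
        rintro _ ⟨j, rfl⟩
        rw [hw j]
        exact Submodule.smul_mem _ _ (Submodule.subset_span ⟨j, rfl⟩)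
      exact h2 (hv ▸ Submodule.mem_top)
    have h3 : ∀ a : A, ∃ c : C, c ≠ 0 ∧ c • a ∈ Submodule.span C (Set.range w) := fun a => by
      obtain ⟨t, ht⟩ := multiple_mem_span_of_mem_localization_span (nonZeroDivisors C) k _ _
        (h1 (ι a))
      refine ⟨t, nonZeroDivisors.coe_ne_zero t, ?_⟩
      rw [Set.range_comp, Submonoid.smul_def, ← map_smul] at ht
      have h4 := Submodule.map_span ι.toLinearMap (Set.range w)
      have h5 : ι ((t : C) • a) ∈ (Submodule.span C (Set.range w)).map ι.toLinearMap := by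
        rw [h4]; exact ht
      obtain ⟨b, hb, hab⟩ := h5
      have h6 : b = (t : C) • a := hι hab
      exact h6 ▸ hb
    exact hd β w (h3 1) fun g j => h3 _

theorem localize {C A : Type} [CommRing C] [IsDomain C] [Ring A] [IsDomain A] [Algebra C A]
    (hinj : Function.Injective (algebraMap C A)) (ha : Algebra.IsAlgebraic C A) (x : Fin 5 → A)
    (hx : Algebra.adjoin C (Set.range x) = ⊤)
    (hd : ∀ (β : ℕ) (w : Fin β → A), (∃ c : C, c ≠ 0 ∧ c • (1 : A) ∈ Submodule.span C (Set.range w)) →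
      (∀ g j, ∃ c : C, c ≠ 0 ∧ c • (x g * w j) ∈ Submodule.span C (Set.range w)) → False) :
    ∃ (k D : Type) (_ : Field k) (_ : DivisionRing D) (_ : Algebra k D),
      Algebra.IsAlgebraic k D ∧ Algebra.FiniteType k D ∧ ¬Module.Finite k D := by
  have hloc : IsLocalizedModule (nonZeroDivisors C) (TensorProduct.mk C (FractionRing C) A 1) :=
    inferInstance
  refine localize_aux (k := FractionRing C) (D := TensorProduct C (FractionRing C) A)
    Algebra.TensorProduct.includeRight ?_ (fun d => ?_) ha x hx hd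
  · rw [injective_iff_map_eq_zero]
    intro a h
    obtain ⟨s, hs⟩ := (IsLocalizedModule.eq_zero_iff (nonZeroDivisors C)
      (TensorProduct.mk C (FractionRing C) A 1)).1 h
    rw [Submonoid.smul_def, Algebra.smul_def, mul_eq_zero, map_eq_zero_iff _ hinj] at hs
    exact hs.resolve_left (nonZeroDivisors.coe_ne_zero s)
  · obtain ⟨⟨a, s⟩, h⟩ := IsLocalizedModule.surj (nonZeroDivisors C)
      (TensorProduct.mk C (FractionRing C) A 1) d
    exact ⟨s, nonZeroDivisors.coe_ne_zero s, a, h⟩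

/-- The values of all trace expressions. -/
def exprAlg {Q : Type} [Ring Q] [Algebra ℚ Q] (t : Q → Q) (x : Fin 5 → Q) : Subalgebra ℚ Q where
  carrier := Set.range fun e : Expr => e.ev t x
  mul_mem' := by
    rintro _ _ ⟨a, rfl⟩ ⟨b, rfl⟩
    exact ⟨a.mul b, rfl⟩
  add_mem' := by
    rintro _ _ ⟨a, rfl⟩ ⟨b, rfl⟩
    exact ⟨a.add b, rfl⟩
  algebraMap_mem' := fun q => ⟨Expr.const q, rfl⟩

theorem trace_step {Q : Type} [Ring Q] [IsDomain Q] [Algebra ℚ Q] (Z : Subalgebra ℚ Q)
    (hZc : ∀ z ∈ Z, ∀ a, z * a = a * z) (t : Q → Q) (ht : ∀ a, t a ∈ Z) (x : Fin 5 → Q)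
    (halg : ∀ e : Expr, ∃ m, chp t m (e.ev t x) = 0)
    (hdim : ∀ (β : ℕ) (w : Fin β → Q), Sat Z w 1 → (∀ g j, Sat Z w (x g * w j)) → False) :
    ∃ (k D : Type) (_ : Field k) (_ : DivisionRing D) (_ : Algebra k D),
      Algebra.IsAlgebraic k D ∧ Algebra.FiniteType k D ∧ ¬Module.Finite k D := by
  classical
  let A : Subalgebra ℚ Q := exprAlg t x
  have hAt : ∀ a ∈ A, t a ∈ A := by
    rintro _ ⟨e, rfl⟩
    exact ⟨e.tr, rfl⟩
  let C : Subring (Subring.center A) :=
    Z.toSubring.comap (A.val.toRingHom.comp (Subring.center A).subtype)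
  have hC : ∀ c : C, ((algebraMap C A c : A) : Q) ∈ Z := fun c => c.2
  have hmk : ∀ z ∈ A ⊓ Z, ∃ c : C, ((algebraMap C A c : A) : Q) = z := fun z hz =>
    ⟨⟨⟨⟨z, hz.1⟩, Subring.mem_center_iff.2 fun g => Subtype.ext (hZc z hz.2 g).symm⟩, hz.2⟩, rfl⟩
  have hinj : Function.Injective (algebraMap C A) := fun a b h => Subtype.ext (Subtype.ext h)
  let x' : Fin 5 → A := fun g => ⟨x g, Expr.gen g, rfl⟩
  have hsat : ∀ (β : ℕ) (w : Fin β → A) (a : A),
      (∃ c : C, c ≠ 0 ∧ c • a ∈ Submodule.span C (Set.range w)) →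
      Sat Z (fun j => (w j : Q)) (a : Q) := by
    rintro β w a ⟨c, hc0, hc⟩
    obtain ⟨z, hz⟩ := (Submodule.mem_span_range_iff_exists_fun C).1 hc
    refine ⟨_, hC c, fun h => hc0 (hinj (Subtype.ext (by rw [h, map_zero]; rfl))),
      fun j => (algebraMap C A (z j) : A), fun j => hC _, ?_⟩
    have h1 := congrArg (fun y : A => (y : Q)) hz
    simp only [Algebra.smul_def, AddSubmonoidClass.coe_finsetSum, MulMemClass.coe_mul] at h1
    exact h1.symm
  refine localize (C := C) (A := A) hinj ⟨?_⟩ x' ?_ fun β w h1 h2 =>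
    hdim β _ (hsat β w 1 h1) fun g j => hsat β w _ (h2 g j)
  · rintro ⟨_, e, rfl⟩
    obtain ⟨m, hm⟩ := halg e
    set a : Q := e.ev t x with ha
    have haA : a ∈ A := ⟨e, rfl⟩
    have h1 : ∀ k, (-1) ^ k * newt (fun i => (m : Q) * t (a ^ i)) k ∈ A ⊓ Z := fun k =>
      mul_mem (pow_mem (neg_mem (one_mem _)) k) (newt_mem (A ⊓ Z) (fun i =>
        mul_mem (natCast_mem _ m) (Algebra.mem_inf.2 ⟨hAt _ (pow_mem haA i), ht _⟩)) k)
    choose c hc using fun k => hmk _ (h1 k)
    have hc0 : c 0 = 1 := hinj (Subtype.ext (by rw [hc, newt_zero]; simp))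
    refine ⟨∑ k ∈ Finset.range (m + 1), Polynomial.monomial (m - k) (c k), fun h => ?_, ?_⟩
    · have h2 := congrArg (fun p => Polynomial.coeff p m) h
      simp only [Polynomial.finsetSum_coeff, Polynomial.coeff_monomial, Polynomial.coeff_zero]
        at h2
      rw [Finset.sum_eq_single 0] at h2
      · simp [hc0] at h2
      · intro b hb hb0
        rw [if_neg]
        have := Finset.mem_range.1 hb
        omega
      · simp
    · apply Subtype.ext
      rw [map_sum]
      simp only [Polynomial.aeval_monomial, AddSubmonoidClass.coe_finsetSum, MulMemClass.coe_mul,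
        hc, SubmonoidClass.coe_pow]
      exact hm
  · rw [eq_top_iff]
    rintro ⟨_, e, rfl⟩ -
    induction e with
    | gen g => exact Algebra.subset_adjoin ⟨g, rfl⟩
    | const q =>
      obtain ⟨c, hc⟩ := hmk (algebraMap ℚ Q q) (Subalgebra.algebraMap_mem _ q)
      have h1 := Subalgebra.algebraMap_mem (Algebra.adjoin C (Set.range x')) c
      exact Set.mem_of_eq_of_mem (Subtype.ext hc.symm) h1
    | add a b ha hb => exact add_mem ha hb
    | mul a b ha hb => exact mul_mem ha hb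
    | tr a _ =>
      obtain ⟨c, hc⟩ := hmk (t (a.ev t x)) ⟨hAt _ ⟨a, rfl⟩, ht _⟩
      have h1 := Subalgebra.algebraMap_mem (Algebra.adjoin C (Set.range x')) c
      exact Set.mem_of_eq_of_mem (Subtype.ext hc.symm) h1

/-- Agreement along the hyperfilter. -/
def hypCon (L : ℕ → Type) [∀ n, Ring (L n)] : RingCon (∀ n, L n) where
  r a b := ∀ᶠ n in (Filter.hyperfilter ℕ : Filter ℕ), a n = b n
  iseqv := ⟨fun _ => Filter.Eventually.of_forall fun _ => rfl, fun h => h.mono fun _ h => h.symm,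
    fun h h' => (h.and h').mono fun _ h => h.1.trans h.2⟩
  mul' h h' := (h.and h').mono fun n h => by rw [Pi.mul_apply, Pi.mul_apply, h.1, h.2]
  add' h h' := (h.and h').mono fun n h => by rw [Pi.add_apply, Pi.add_apply, h.1, h.2]

theorem ultra_aux (L : ℕ → Type) [∀ n, Ring (L n)] [∀ n, Algebra ℚ (L n)] [∀ n, IsDomain (L n)]
    (Z : ∀ n, Subalgebra ℚ (L n)) (t : ∀ n, L n → L n) (x : ∀ n, Fin 5 → L n)
    (hZc : ∀ n, ∀ z ∈ Z n, ∀ a, z * a = a * z) (ht : ∀ n a, t n a ∈ Z n)
    (halg : ∀ e : Expr, ∃ m, ∀ᶠ n in Filter.atTop, chp (t n) m (e.ev (t n) (x n)) = 0)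
    (hdim : ∀ β, ∀ᶠ n in Filter.atTop, ∀ w : Fin β → L n, Sat (Z n) w 1 →
      (∀ g j, Sat (Z n) w (x n g * w j)) → False) :
    ∃ (k D : Type) (_ : Field k) (_ : DivisionRing D) (_ : Algebra k D),
      Algebra.IsAlgebraic k D ∧ Algebra.FiniteType k D ∧ ¬Module.Finite k D := by
  classical
  let π : (∀ n, L n) →ₐ[ℚ] (hypCon L).Quotient := (hypCon L).mkₐ ℚ
  have hπ : Function.Surjective π := (hypCon L).mkₐ_surjective
  have hq : ∀ a b, π a = π b ↔ ∀ᶠ n in (Filter.hyperfilter ℕ : Filter ℕ), a n = b n :=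
    fun a b => (hypCon L).eq
  have hq0 : ∀ a, π a = 0 ↔ ∀ᶠ n in (Filter.hyperfilter ℕ : Filter ℕ), a n = 0 := fun a => by
    rw [← map_zero π, hq]; rfl
  have : Nontrivial (hypCon L).Quotient := ⟨⟨1, 0, fun h => by
    rw [← map_one π, hq0] at h
    obtain ⟨n, hn⟩ := h.exists
    exact one_ne_zero hn⟩⟩
  have : NoZeroDivisors (hypCon L).Quotient := ⟨fun {a b} h => by
    obtain ⟨a, rfl⟩ := hπ a
    obtain ⟨b, rfl⟩ := hπ b
    rw [← map_mul, hq0] at h
    rw [hq0, hq0, ← Ultrafilter.eventually_or]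
    exact h.mono fun n hn => mul_eq_zero.1 hn⟩
  have : IsDomain (hypCon L).Quotient := NoZeroDivisors.to_isDomain _
  choose s hs using hπ
  let T : (∀ n, L n) → ∀ n, L n := fun a n => t n (a n)
  let X : Fin 5 → ∀ n, L n := fun g n => x n g
  let ZP : Subalgebra ℚ (∀ n, L n) := ⨅ n, (Z n).comap (Pi.evalAlgHom ℚ L n)
  have hZP : ∀ a, a ∈ ZP ↔ ∀ n, a n ∈ Z n := fun a => Algebra.mem_iInf
  have hT : ∀ a, π (T a) = π (T (s (π a))) := fun a => by
    rw [hq]
    exact ((hq _ _).1 (hs (π a))).mono fun n hn => congrArg (t n) hn.symm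
  have hsat : ∀ (β : ℕ) (w : Fin β → ∀ n, L n) (a : ∀ n, L n),
      Sat (ZP.map π) (fun j => π (w j)) (π a) →
      ∀ᶠ n in (Filter.hyperfilter ℕ : Filter ℕ), Sat (Z n) (fun j => w j n) (a n) := by
    rintro β w a ⟨_, ⟨c, hc, rfl⟩, hc0, z, hz, h⟩
    choose z' hz' hzz using hz
    have h1 : π (c * a) = π (∑ j, z' j * w j) := by
      rw [map_mul, map_sum]
      refine h.trans (Finset.sum_congr rfl fun j _ => ?_)
      rw [map_mul, ← hzz j]
      rfl
    have h2 : ∀ᶠ n in (Filter.hyperfilter ℕ : Filter ℕ), ¬c n = 0 :=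
      Ultrafilter.eventually_not.2 fun h => hc0 ((hq0 c).2 h)
    refine (h2.and ((hq _ _).1 h1)).mono fun n hn =>
      ⟨c n, (hZP c).1 hc n, hn.1, fun j => z' j n, fun j => (hZP _).1 (hz' j) n, ?_⟩
    simpa using hn.2
  refine trace_step (ZP.map π) ?_ (fun q => π (T (s q))) (fun q => ?_) (fun g => π (X g))
    (fun e => ?_) fun β w h1 h2 => ?_
  · rintro _ ⟨z, hz, rfl⟩ a
    rw [← hs a]
    change π z * _ = _ * π z
    rw [← map_mul, ← map_mul]
    congr 1
    funext n
    exact hZc n _ ((hZP z).1 hz n) _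
  · exact ⟨_, (hZP _).2 fun n => ht n _, rfl⟩
  · obtain ⟨m, hm⟩ := halg e
    refine ⟨m, ?_⟩
    rw [← Expr.ev_map π hT, ← chp_map π hT, hq0]
    refine (hm.filter_mono Nat.hyperfilter_le_atTop).mono fun n hn => ?_
    have h1 := chp_map (Pi.evalAlgHom ℚ L n) (t := T) (t' := t n) (fun _ => rfl) m (e.ev T X)
    rw [Expr.ev_map (Pi.evalAlgHom ℚ L n) (t := T) (t' := t n) (fun _ => rfl)] at h1
    exact h1.trans hn
  · have hw : w = fun j => π (s (w j)) := funext fun j => (hs _).symm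
    have h3 := hsat β (fun j => s (w j)) 1 (by rw [← hw, map_one]; exact h1)
    have h4 : ∀ᶠ n in (Filter.hyperfilter ℕ : Filter ℕ), ∀ g j,
        Sat (Z n) (fun j => s (w j) n) (x n g * s (w j) n) := by
      simp only [Filter.eventually_all]
      intro g j
      exact hsat β (fun j => s (w j)) (X g * s (w j)) (by rw [← hw, map_mul, hs]; exact h2 g j)
    obtain ⟨n, hn⟩ := (((hdim β).filter_mono Nat.hyperfilter_le_atTop).and (h3.and h4)).exists
    exact hn.1 _ hn.2.1 hn.2.2

theorem ultra (M : ℕ → Type) [∀ n, Ring (M n)] [∀ n, Algebra ℚ (M n)] [∀ n, Nontrivial (M n)]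
    (L Z : ∀ n, Subalgebra ℚ (M n)) (t : ∀ n, M n → M n) (x : ∀ n, Fin 5 → M n)
    (hZL : ∀ n, Z n ≤ L n) (hZc : ∀ n, ∀ z ∈ Z n, ∀ a, z * a = a * z)
    (hL : ∀ n, ∀ a ∈ L n, ∀ b ∈ L n, a * b = 0 → a = 0 ∨ b = 0) (hx : ∀ n g, x n g ∈ L n)
    (ht : ∀ n, ∀ a ∈ L n, t n a ∈ Z n)
    (halg : ∀ e : Expr, ∃ m, ∀ᶠ n in Filter.atTop, chp (t n) m (e.ev (t n) (x n)) = 0)
    (hdim : ∀ β, ∀ᶠ n in Filter.atTop, ∀ w : Fin β → M n, Sat (Z n) w 1 →
      (∀ g j, Sat (Z n) w (x n g * w j)) → False) :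
    ∃ (k D : Type) (_ : Field k) (_ : DivisionRing D) (_ : Algebra k D),
      Algebra.IsAlgebraic k D ∧ Algebra.FiniteType k D ∧ ¬Module.Finite k D := by
  have : ∀ n, NoZeroDivisors (L n) := fun n => ⟨fun {a b} h =>
    (hL n a a.2 b b.2 (congrArg Subtype.val h)).imp Subtype.ext Subtype.ext⟩
  have : ∀ n, IsDomain (L n) := fun n => NoZeroDivisors.to_isDomain _
  let t' : ∀ n, L n → L n := fun n a => ⟨t n a, hZL n (ht n a a.2)⟩
  let x' : ∀ n, Fin 5 → L n := fun n g => ⟨x n g, hx n g⟩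
  have hsat : ∀ n (β : ℕ) (w : Fin β → L n) (a : L n), Sat ((Z n).comap (L n).val) w a →
      Sat (Z n) (fun j => (w j : M n)) (a : M n) := by
    rintro n β w a ⟨c, hc, hc0, z, hz, h⟩
    refine ⟨c, hc, fun h => hc0 (Subtype.ext h), fun j => z j, hz, ?_⟩
    simpa using congrArg Subtype.val h
  refine ultra_aux (fun n => L n) (fun n => (Z n).comap (L n).val) t' x'
    (fun n z hz a => Subtype.ext (hZc n z hz a)) (fun n a => ht n a a.2) (fun e => ?_) fun β => ?_
  · obtain ⟨m, hm⟩ := halg e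
    refine ⟨m, hm.mono fun n hn => Subtype.ext ?_⟩
    have h1 := chp_map (L n).val (t := t' n) (t' := t n) (fun _ => rfl) m (e.ev (t' n) (x' n))
    rw [Expr.ev_map (L n).val (t := t' n) (t' := t n) (fun _ => rfl)] at h1
    exact h1.trans hn
  · exact (hdim β).mono fun n hn w h1 h2 =>
      hn _ (hsat n β w 1 h1) fun g j => hsat n β w _ (h2 g j)

end Vale.Agent.P199
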