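import Vale.Agent.P199.Stage
import Vale.Agent.P199.Dom
import Vale.Agent.P199.Dim
import Vale.Agent.P199.Ultra

/-! # P199: assembly. -/

namespace Vale.Agent.P199

open MvPolynomial

theorem kurosh : ∃ (k D : Type) (_ : Field k) (_ : DivisionRing D) (_ : Algebra k D),
    Algebra.IsAlgebraic k D ∧ Algebra.FiniteType k D ∧ ¬Module.Finite k D := by
  classical
  obtain ⟨f, hf⟩ := Expr.exists_surj
  choose P c hP hS hc halg using stage f
  have hw : ∀ n v, wv (n + 3) v ≠ 0 := fun n => wv_ne_zero (by omega)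
  have hJ : ∀ n, (polCls (cw (wv (n + 3)))).GrI (flat Sum.inl (P n)) := fun n =>
    polCls_grI ((hS n).gr.flat wv_inl)
  have hT : ∀ n, (polCls (cw (wv (n + 3)))).TwPrime (flat Sum.inl (P n)) := fun n =>
    twPrime_of_state (hw n) wv_inl (hP n) (hS n)
  have hnt : ∀ n, Nontrivial (Pol (Vr (n + 3)) ⧸ flat Sum.inl (P n)) := fun n =>
    Ideal.Quotient.nontrivial_iff.2 (hT n).1
  let κ : ∀ n, Cls (Gp (n + 3)) (Pol (Vr (n + 3)) ⧸ flat Sum.inl (P n)) := fun n =>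
    (polCls (cw (wv (n + 3)))).quot _ (hJ n)
  refine ultra (fun n => Mat (n + 3) (Pol (Vr (n + 3)) ⧸ flat Sum.inl (P n)))
    (fun n => (κ n).lam.restrictScalars ℚ) (fun n => (κ n).Zc) (fun _ => mtr)
    (fun n g => (gx (n + 3) g).map (Ideal.Quotient.mkₐ ℚ (flat Sum.inl (P n))))
    (fun n => (κ n).Zc_le) (fun n z hz a => (κ n).Zc_comm hz a)
    (fun n a ha b hb h0 => Cls.TwPrime.lam_domain ((Cls.twPrime_bot _ (hJ n)).2 (hT n)) ha hb h0)
    (fun n g => (inLam_gx g).map_mk _ (hJ n)) (fun n a ha => Cls.InLam.mtr_mem ha) ?_ ?_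
  · intro e
    obtain ⟨i, rfl⟩ := hf e
    refine ⟨2 ^ (i + 3), Filter.eventually_atTop.2 ⟨i + 1, fun n hn => ?_⟩⟩
    have h1 := chp_map (Ideal.Quotient.mkₐ ℚ (flat Sum.inl (P n))).mapMatrix
      (mtr_map _) (2 ^ (i + 3)) ((f i).ev mtr (gx (n + 3)))
    rw [Expr.ev_map _ (mtr_map _)] at h1
    refine h1.symm.trans ?_
    ext a b
    exact Ideal.Quotient.eq_zero_iff_mem.2 (halg n i (by omega) a b)
  · intro β
    refine Filter.eventually_atTop.2 ⟨10 * β, fun n hn W h1 hx => ?_⟩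
    have h2 := dim_bound (by omega) (hP n) (hS n) (hc n) (hJ n) W h1 hx
    have h3 : n + 3 < 2 ^ (n + 3) := Nat.lt_two_pow_self
    omega

end Vale.Agent.P199
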