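import Vale.Agent.P199.Defs

/-! # P199: Pauli expansions of matrices.

Plan. `sum_sg`: if `b i ≠ 0` pair `c` with `c + Pi.single i 1` (`Finset.sum_involution`).
`co_pm`, `pm_co`: Fourier inversion by `sum_sg`. `pm_mul`: entrywise; reindex sums over
`Gp r` by pairs (`Equiv.sumArrowEquivProdArrow`). -/

namespace Vale.Agent.P199

variable {r : ℕ} {B B' : Type} [CommRing B] [Algebra ℚ B] [CommRing B'] [Algebra ℚ B']

theorem sg_zero : sg 0 = 1 := by
  simp [sg]

theorem sg_one : sg 1 = -1 := by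
  have : (1 : ZMod 2).val = 1 := rfl
  simp [sg, this]

theorem zmod2_cases (x : ZMod 2) : x = 0 ∨ x = 1 := by
  revert x
  decide

theorem zmod2_add_self (x : ZMod 2) : x + x = 0 := by
  revert x
  decide

theorem sg_add (x y : ZMod 2) : sg (x + y) = sg x * sg y := by
  rcases zmod2_cases x with rfl | rfl <;> rcases zmod2_cases y with rfl | rfl
  · simp [sg_zero]
  · simp [sg_zero]
  · simp [sg_zero]
  · rw [zmod2_add_self, sg_zero, sg_one]
    norm_num

theorem sg_mul_self (x : ZMod 2) : sg x * sg x = 1 := by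
  rw [← sg_add, zmod2_add_self, sg_zero]

theorem eps_mul_self (μ ν : Gp r) : eps μ ν * eps μ ν = 1 := sg_mul_self _

theorem eps_zero_left (ν : Gp r) : eps 0 ν = 1 := by
  have : pb (0 : Gp r) = 0 := rfl
  rw [eps, this, zero_dotProduct, sg_zero]

theorem eps_zero_right (μ : Gp r) : eps μ 0 = 1 := by
  have : pa (0 : Gp r) = 0 := rfl
  rw [eps, this, dotProduct_zero, sg_zero]

theorem add_self_Gp (μ : Gp r) : μ + μ = 0 := funext fun i => zmod2_add_self (μ i)

theorem add_self_Cv (c : Cv r) : c + c = 0 := funext fun i => zmod2_add_self (c i)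

theorem sub_eq_add_Cv (c d : Cv r) : c - d = c + d := by
  rw [sub_eq_iff_eq_add, add_assoc, add_self_Cv, add_zero]

theorem add_eq_zero_Cv (c d : Cv r) : c + d = 0 ↔ d = c := by
  rw [← sub_eq_add_Cv, sub_eq_zero, eq_comm]

theorem card_Cv : Fintype.card (Cv r) = 2 ^ r := by
  simp

theorem card_Gp : Fintype.card (Gp r) = 2 ^ r * 2 ^ r := by
  simp [pow_add]

theorem sum_sg (b : Cv r) : ∑ c : Cv r, sg (b ⬝ᵥ c) = if b = 0 then 2 ^ r else 0 := by
  split_ifs with h
  · simp [h, sg_zero]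
  · obtain ⟨i, hi⟩ := Function.ne_iff.mp h
    have h1 : b i = 1 := (zmod2_cases (b i)).resolve_left hi
    have h2 := Equiv.sum_comp (Equiv.addRight (Pi.single i (1 : ZMod 2) : Cv r))
      fun c : Cv r => sg (b ⬝ᵥ c)
    simp only [Equiv.coe_addRight, dotProduct_add, dotProduct_single, h1, mul_one, sg_add, sg_one,
      mul_neg, Finset.sum_neg_distrib] at h2
    linarith

theorem elim_pa_pb (μ : Gp r) : Sum.elim (pa μ) (pb μ) = μ := by
  funext i
  cases i <;> rfl

theorem pa_elim (a b : Cv r) : pa (Sum.elim a b) = a := rfl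

theorem pb_elim (a b : Cv r) : pb (Sum.elim a b) = b := rfl

theorem elim_sub (a b a' b' : Cv r) :
    (Sum.elim a b - Sum.elim a' b' : Gp r) = Sum.elim (a - a') (b - b') := by
  funext i
  cases i <;> rfl

theorem sum_Gp {M : Type} [AddCommMonoid M] (f : Gp r → M) :
    ∑ μ, f μ = ∑ a : Cv r, ∑ b : Cv r, f (Sum.elim a b) := by
  rw [← Fintype.sum_prod_type']
  exact Fintype.sum_equiv (Equiv.sumArrowEquivProdArrow _ _ _) _ _ fun μ => by
    congr 1
    exact (elim_pa_pb μ).symm

theorem fourier_inv (b : Cv r) (F : Cv r → B) :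
    ((2 : ℚ) ^ r)⁻¹ • ∑ c : Cv r, ∑ d : Cv r, (sg (b ⬝ᵥ c) * sg (d ⬝ᵥ c)) • F d = F b := by
  rw [Finset.sum_comm]
  simp only [← sg_add, ← add_dotProduct, ← Finset.sum_smul, sum_sg, add_eq_zero_Cv, ite_smul,
    zero_smul, Finset.sum_ite_eq', Finset.mem_univ, if_true, smul_smul]
  rw [inv_mul_cancel₀ (by positivity), one_smul]

theorem co_pm (y : Gp r → B) : co (pm y) = y := by
  funext μ
  simp only [co, pm, Matrix.of_apply, add_sub_cancel_left, Finset.smul_sum (r := sg _), smul_smul]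
  rw [fourier_inv (pb μ) fun d => y (Sum.elim (pa μ) d), elim_pa_pb]

theorem pm_co (M : Mat r B) : pm (co M) = M := by
  ext c' c
  simp only [co, pm, Matrix.of_apply, pa_elim, pb_elim, smul_comm (sg _) ((2 : ℚ) ^ r)⁻¹,
    ← Finset.smul_sum (r := ((2 : ℚ) ^ r)⁻¹)]
  simp only [Finset.smul_sum (r := sg _), smul_smul]
  have h := fourier_inv c fun d => M (d + (c' - c)) d
  simp only [dotProduct_comm c, add_sub_cancel] at h
  simp only [dotProduct_comm _ c] at h ⊢
  rw [← h]
  congr 1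
  refine Finset.sum_congr rfl fun b _ => Finset.sum_congr rfl fun d _ => ?_
  rw [dotProduct_comm b d]

theorem pm_mul (y z : Gp r → B) : pm y * pm z = pm (conv y z) := by
  ext c' c
  simp only [pm, conv, Matrix.mul_apply, Matrix.of_apply, Finset.sum_mul_sum, Finset.smul_sum]
  rw [Finset.sum_comm (f := fun (b : Cv r) (μ : Gp r) => sg (b ⬝ᵥ c) •
    eps μ (Sum.elim (c' - c) b - μ) • (y μ * z (Sum.elim (c' - c) b - μ))), sum_Gp,
    ← Equiv.sum_comp (Equiv.subLeft c')]
  refine Finset.sum_congr rfl fun a _ => Finset.sum_congr rfl fun b _ => ?_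
  rw [← Equiv.sum_comp (Equiv.subRight b)]
  refine Finset.sum_congr rfl fun β _ => ?_
  simp only [Equiv.subLeft_apply, Equiv.subRight_apply, sub_sub_cancel, elim_sub, eps, pa_elim,
    pb_elim, smul_mul_smul_comm, smul_smul]
  rw [sub_right_comm c' c a]
  congr 1
  rw [← sg_add, ← sg_add, dotProduct_sub b (c' - a) c, sub_dotProduct]
  congr 1
  ring

theorem co_mul (M N : Mat r B) : co (M * N) = conv (co M) (co N) := by
  conv_lhs => rw [← pm_co M, ← pm_co N, pm_mul, co_pm]

theorem pm_add (y z : Gp r → B) : pm (y + z) = pm y + pm z := by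
  ext c' c
  simp [pm, Finset.sum_add_distrib]

theorem pm_smul (b : B) (y : Gp r → B) : pm (b • y) = b • pm y := by
  ext c' c
  simp [pm, Finset.mul_sum]

theorem pm_zero : pm (0 : Gp r → B) = 0 := by
  ext c' c
  simp [pm]

theorem co_add (M N : Mat r B) : co (M + N) = co M + co N := by
  funext μ
  simp [co, Finset.sum_add_distrib]

theorem co_sub (M N : Mat r B) : co (M - N) = co M - co N := by
  funext μ
  simp [co, Finset.sum_sub_distrib, smul_sub]

theorem co_smul (b : B) (M : Mat r B) : co (b • M) = b • co M := by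
  funext μ
  simp [co, Finset.mul_sum, Finset.smul_sum]

theorem co_zero : co (0 : Mat r B) = 0 := by
  funext μ
  simp [co]

theorem pm_single (b : B) : pm (Pi.single (0 : Gp r) b) = algebraMap B (Mat r B) b := by
  ext c' c
  have h : ∀ d : Cv r, (Sum.elim (c' - c) d : Gp r) = 0 ↔ d = 0 ∧ c' = c := fun d => by
    constructor
    · intro h
      exact ⟨congrArg pb h, sub_eq_zero.mp (congrArg pa h)⟩
    · rintro ⟨rfl, rfl⟩
      rw [sub_self]
      exact elim_pa_pb 0
  simp only [pm, Matrix.of_apply, Pi.single_apply, h, Matrix.algebraMap_matrix_apply]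
  rw [Finset.sum_eq_single 0]
  · simp [sg_zero]
  · intro d _ hd
    simp [hd]
  · simp

theorem co_algebraMap (b : B) : co (algebraMap B (Mat r B) b) = Pi.single 0 b := by
  rw [← pm_single, co_pm]

theorem co_one : co (1 : Mat r B) = Pi.single 0 1 := by
  rw [← co_algebraMap, map_one]

theorem co_zero_eq_trace (M : Mat r B) : co M 0 = ((2 : ℚ) ^ r)⁻¹ • M.trace := by
  have h1 : pa (0 : Gp r) = 0 := rfl
  have h2 : pb (0 : Gp r) = 0 := rfl
  simp [co, h1, h2, sg_zero, Matrix.trace]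

theorem pm_map (φ : B →ₐ[ℚ] B') (y : Gp r → B) : (pm y).map φ = pm fun μ => φ (y μ) := by
  ext c' c
  simp [pm]

theorem co_map (φ : B →ₐ[ℚ] B') (M : Mat r B) (μ : Gp r) : co (M.map φ) μ = φ (co M μ) := by
  simp [co]

theorem mtr_map (φ : B →ₐ[ℚ] B') (M : Mat r B) :
    φ.mapMatrix (mtr M) = mtr (φ.mapMatrix M) := by
  ext c' c
  simp only [mtr, AlgHom.mapMatrix_apply, co_map, Matrix.map_apply, Matrix.algebraMap_matrix_apply]
  split_ifs <;> simp

theorem pm_mem (J : Ideal B) {y : Gp r → B} (h : ∀ μ, y μ ∈ J) (c c' : Cv r) : pm y c c' ∈ J :=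
  J.sum_mem fun _ _ => J.smul_of_tower_mem _ (h _)

theorem co_mem (J : Ideal B) {M : Mat r B} (h : ∀ c c', M c c' ∈ J) (μ : Gp r) : co M μ ∈ J :=
  J.smul_of_tower_mem _ (J.sum_mem fun _ _ => J.smul_of_tower_mem _ (h _ _))

theorem co_mem_subalgebra (J : Subalgebra ℚ B) {M : Mat r B} (h : ∀ c c', M c c' ∈ J)
    (μ : Gp r) : co M μ ∈ J :=
  J.smul_mem (J.sum_mem fun _ _ => J.smul_mem (h _ _) _) _

end Vale.Agent.P199
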