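import Vale.Agent.P199.Block
import Vale.Agent.P199.KMore
import Vale.Agent.P199.Hom
import Vale.Agent.P199.ClsApi

/-! # P199: the closure of the sheet of block scalar matrices has nonzero class.

Variables `Ix r ⊕ Gp r` (`π i` and `α μ`). `Zs T` is the set of `α μ` with `InP T μ`, `¬ InH T μ`.
`Psi` sends `π i` to `τ i ^ 2` and `α μ` to `τ ^ w * co (G * θ * adj G) μ`. See notes/P199.md,
part F. -/

namespace Vale.Agent.P199

open MvPolynomial Matrix

noncomputable section

variable {r : ℕ} (T : Finset (Fin r))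

/-- Parameters. -/
abbrev Par : Type := {μ : Gp r // ¬(InP T μ ∧ ¬InH T μ)}

open Classical in
/-- The parameter attached to `μ`. -/
def prm (μ : Gp r) : Pol (Par T) :=
  if h : ¬(InP T μ ∧ ¬InH T μ) then X ⟨μ, h⟩ else 0

open Classical in
/-- The conjugating matrix. -/
def Gm : Mat r (Pol (Par T)) := 1 + pm fun μ => if InP T μ then 0 else prm T μ

/-- The generic point of the sheet. -/
def Mm : Mat r (Pol (Par T)) :=
  Gm T * diagonal (fun c => lamb T (prm T) (blk T c)) * (Gm T).adjugate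

/-- The dehomogenized parametrization. -/
def Psi0 : Pol (Ix r ⊕ Gp r) →ₐ[ℚ] Pol (Par T) := aeval (Sum.elim (fun _ => 1) (co (Mm T)))

/-- The parametrization. -/
def Psi (w : Ix r ⊕ Gp r → Ix r →₀ ℕ) :
    Pol (Ix r ⊕ Gp r) →ₐ[ℚ] MvPolynomial (Ix r) (Pol (Par T)) :=
  aeval fun v => monomial (w v) (Sum.elim (fun _ => 1) (co (Mm T)) v)

open Classical in
/-- The normal directions. -/
def Zs : Finset (Ix r ⊕ Gp r) :=
  (Finset.univ.filter fun μ : Gp r => InP T μ ∧ ¬InH T μ).map Function.Embedding.inr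

open Classical in
/-- The weight for the degeneration. -/
def uw : Ix r ⊕ Gp r → ℕ := Sum.elim (fun _ => 0) fun μ => if InH T μ then 0 else 1

open Classical in
/-- The variables of weight zero for the degeneration. -/
def tau0 : Finset (Ix r ⊕ Gp r) := Finset.univ.filter fun v => uw T v = 0

/-- The generic matrix. -/
def alpha (r : ℕ) : Mat r (Pol (Ix r ⊕ Gp r)) := pm fun μ => X (Sum.inr μ)

variable {w : Ix r ⊕ Gp r → Ix r →₀ ℕ}

theorem prod_monomial {σ R α : Type} [CommSemiring R] (s : Finset α) (f : α → σ →₀ ℕ) (g : α → R) :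
    ∏ i ∈ s, monomial (f i) (g i) = monomial (∑ i ∈ s, f i) (∏ i ∈ s, g i) := by
  classical
  induction s using Finset.induction_on with
  | empty => simp
  | insert a s ha ih => rw [Finset.prod_insert ha, Finset.sum_insert ha, Finset.prod_insert ha, ih,
      monomial_mul]

theorem Psi_hg {f : Pol (Ix r ⊕ Gp r)} {D : Ix r →₀ ℕ} (hf : Hg w f D) :
    Psi T w f = monomial D (Psi0 T f) := by
  induction hf using IsWeightedHomogeneous.induction_on with
  | zero => simp
  | add p q _ _ hp hq => simp only [map_add, hp, hq]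
  | monomial d a hd =>
    rw [Psi, Psi0, aeval_monomial, aeval_monomial, Finsupp.prod, Finsupp.prod]
    simp only [monomial_pow]
    rw [prod_monomial, ← hd, Finsupp.weight_apply, Finsupp.sum,
      IsScalarTower.algebraMap_apply ℚ (Pol (Par T)), MvPolynomial.algebraMap_eq, C_mul_monomial]

/-- The components of different degree have different degree in `τ`. -/
theorem gr_ker_Psi : Gr w (RingHom.ker (Psi T w)) := by
  classical
  intro f hf D
  rw [RingHom.mem_ker] at hf ⊢
  have h := sum_cmp_of_subset w f (insert D (f.support.image (Finsupp.weight w)))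
    fun d hd => Finset.mem_insert_of_mem (Finset.mem_image_of_mem _ hd)
  rw [← h, map_sum] at hf
  have h1 := congrArg (coeff D) hf
  simp only [Psi_hg T (hg_cmp w _ f), coeff_sum, coeff_monomial, Finset.sum_ite_eq',
    Finset.mem_insert_self, if_true, coeff_zero] at h1
  rw [Psi_hg T (hg_cmp w D f), h1, map_zero]

theorem bd_ker_Psi : Bd Finset.univ (RingHom.ker (Psi T w)) (Zs T).card := by
  classical
  intro Y _ hY
  let e : Ix r ⊕ Par T → MvPolynomial (Ix r) (Pol (Par T)) := Sum.elim X fun s => C (X s)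
  have he : ∀ p, p ∈ Algebra.adjoin ℚ (Set.range e) := by
    intro p
    induction p using MvPolynomial.induction_on with
    | C a =>
      induction a using MvPolynomial.induction_on with
      | C q => exact Subalgebra.algebraMap_mem _ q
      | add p q hp hq => rw [map_add]; exact add_mem hp hq
      | mul_X p v hp =>
        rw [map_mul]
        exact mul_mem hp (Algebra.subset_adjoin ⟨Sum.inr v, rfl⟩)
    | add p q hp hq => exact add_mem hp hq
    | mul_X p v hp => exact mul_mem hp (Algebra.subset_adjoin ⟨Sum.inl v, rfl⟩)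
  have h1 := card_le_of_indep_ker (Psi T w) hY e fun v _ => he _
  rw [Fintype.card_sum, Fintype.card_subtype_compl, Fintype.card_subtype] at h1
  have h2 := Finset.card_le_univ (Finset.univ.filter fun μ : Gp r => InP T μ ∧ ¬InH T μ)
  rw [Zs, Finset.card_map, Finset.card_univ, Fintype.card_sum (α := Ix r) (β := Gp r)]
  omega

theorem card_Zs : (Zs T).card * 2 ^ T.card ≤ 2 ^ r * 2 ^ r := by
  classical
  rw [← card_InP T, Zs, Finset.card_map]
  refine Nat.mul_le_mul_right _ (Finset.card_le_card fun μ hμ => ?_)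
  simp only [Finset.mem_filter, Finset.mem_univ, true_and] at hμ ⊢
  exact hμ.1

theorem exists_red_ge' {ι : Type} [Fintype ι] (μ : ι → ZMod 2) (D0 : ι →₀ ℕ) :
    ∃ D, D0 ≤ D ∧ red D = μ := by
  refine ⟨D0 + (D0 + Finsupp.equivFunOnFinite.symm fun i => (μ i).val), le_self_add, ?_⟩
  ext i
  simp only [red, Finsupp.add_apply, Finsupp.equivFunOnFinite_symm_apply_apply, Nat.cast_add,
    ZMod.natCast_val, ZMod.cast_id', id]
  rw [← add_assoc, CharTwo.add_self_eq_zero, zero_add]

theorem det_Gm_ne_zero : (Gm T).det ≠ 0 := by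
  intro h
  have h1 := (aeval (R := ℚ) (fun _ : Par T => (0 : ℚ))).map_det (Gm T)
  rw [h, map_zero, Gm, map_add, map_one, AlgHom.mapMatrix_apply, pm_map] at h1
  have h2 : (fun μ : Gp r => aeval (R := ℚ) (fun _ : Par T => (0 : ℚ))
      (open Classical in if InP T μ then 0 else prm T μ)) = 0 := by
    ext μ
    simp only [prm]
    split_ifs <;> simp
  rw [h2, pm_zero, add_zero, det_one] at h1
  exact zero_ne_one h1

theorem pid_le_ker {σ ι B : Type} [CommRing B] [Algebra ℚ B] (π : ι → σ) (ψ : Pol σ →ₐ[ℚ] B)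
    (h : ∀ i, ψ (X (π i)) = 1) : pid π ≤ RingHom.ker ψ := by
  refine Ideal.span_le.2 ?_
  rintro _ ⟨i, rfl⟩
  simp [RingHom.mem_ker, h]

theorem inLam_alpha (hα : ∀ μ, red (w (Sum.inr μ)) = μ) : (polCls (cw w)).InLam (alpha r) :=
  Cls.inLam_pm _ fun μ => (polCls_hom_iff _ _ _).2 (by
    have := isWeightedHomogeneous_X ℚ (cw w) (Sum.inr μ)
    rwa [show cw w (Sum.inr μ) = μ from hα μ] at this)

theorem inLam_chp {B : Type} [CommRing B] [Algebra ℚ B] (κ : Cls (Gp r) B) (m : ℕ) {M : Mat r B}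
    (h : κ.InLam M) : κ.InLam (chp mtr m M) :=
  chp_mem (κ.lam.restrictScalars ℚ) (fun _ ha => κ.Zc_le (Cls.InLam.mtr_mem ha)) m h

theorem chp_alpha_mem (hπ : ∀ i, w (Sum.inl i) = Finsupp.single i 2)
    (hα : ∀ μ, red (w (Sum.inr μ)) = μ) (c c' : Cv r) :
    chp mtr (2 ^ T.card) (alpha r) c c' ∈ flat Sum.inl (RingHom.ker (Psi T w)) := by
  rw [← pm_co (chp mtr (2 ^ T.card) (alpha r))]
  refine pm_mem _ (fun μ => ?_) c c'
  have h1 := (polCls_hom_iff _ _ _).1 (inLam_chp _ (2 ^ T.card) (inLam_alpha hα) μ)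
  have h2 : Psi0 T (co (chp mtr (2 ^ T.card) (alpha r)) μ) = 0 := by
    have h3 := chp_map (Psi0 T).mapMatrix (mtr_map _) (2 ^ T.card) (alpha r)
    have h4 : (Psi0 T).mapMatrix (alpha r) = Mm T := by
      rw [AlgHom.mapMatrix_apply, alpha, pm_map]
      simp only [Psi0, aeval_X, Sum.elim_inr]
      exact pm_co _
    rw [h4, Mm, chp_conj T _ (det_Gm_ne_zero T), AlgHom.mapMatrix_apply] at h3
    rw [← co_map, h3, co_zero]
    rfl
  obtain ⟨D0, hD0⟩ := exists_hom hπ h1
  obtain ⟨D, hD, hDμ⟩ := exists_red_ge' μ D0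
  obtain ⟨f', hf', hff', -⟩ := hD0 D hD hDμ
  have h5 := pid_le_ker Sum.inl (Psi0 T) (fun i => by simp [Psi0]) hff'
  rw [RingHom.mem_ker, map_sub, h2, sub_zero] at h5
  have h6 : f' ∈ RingHom.ker (Psi T w) := by
    rw [RingHom.mem_ker, Psi_hg T hf', h5, map_zero]
  have := Ideal.sub_mem _ (Ideal.mem_sup_left h6) (Ideal.mem_sup_right hff')
  rwa [sub_sub_cancel] at this

theorem dd_map {B B' β : Type} [CommRing B] [Algebra ℚ B] [CommRing B'] [Algebra ℚ B'] [Fintype β]
    [DecidableEq β] (ψ : B →ₐ[ℚ] B') (l : β → B) (b : β) : ψ (dd l b) = dd (fun b => ψ (l b)) b := by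
  simp [dd, map_prod]

theorem injective_of_prod_dd {β : Type} [Fintype β] [DecidableEq β] {l : β → ℚ}
    (h : ∏ b, dd l b ≠ 0) : Function.Injective l := by
  intro b b' hb
  by_contra hne
  apply h
  refine Finset.prod_eq_zero (Finset.mem_univ b) ?_
  exact Finset.prod_eq_zero (Finset.mem_erase.2 ⟨Ne.symm hne, Finset.mem_univ _⟩) (by simp [hb])

theorem prod_dd_ne_zero {β : Type} [Fintype β] [DecidableEq β] {l : β → ℚ}
    (h : Function.Injective l) : ∏ b, dd l b ≠ 0 := by
  refine Finset.prod_ne_zero_iff.2 fun b _ => Finset.prod_ne_zero_iff.2 fun b' hb' => ?_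
  exact sub_ne_zero.2 fun h1 => (Finset.mem_erase.1 hb').1 (h h1).symm

theorem rho_ne_zero {σ : Type} (e : Gp r → σ) (he : Function.Injective e) :
    ∏ β, dd (lamb T fun μ => (X (e μ) : Pol σ)) β ≠ 0 := by
  classical
  intro h
  let l0 : (T → ZMod 2) → ℚ := fun β => ((Fintype.equivFin (T → ZMod 2) β : ℕ) : ℚ)
  have hl0 : Function.Injective l0 := fun a b hab =>
    (Fintype.equivFin (T → ZMod 2)).injective (Fin.ext (Nat.cast_injective hab))
  let t : Gp r → ℚ := co (diagonal fun c => l0 (blk T c))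
  have h1 := congrArg (aeval (R := ℚ) (Function.extend e t 0)) h
  rw [map_prod, map_zero] at h1
  simp only [dd_map, lamb_map, aeval_X, he.extend_apply] at h1
  have h2 : lamb T (fun μ => t μ) = l0 := lamb_co_diag T l0
  exact prod_dd_ne_zero hl0 (by simpa only [h2] using h1)

theorem lamb_congr {B : Type} [CommRing B] [Algebra ℚ B] {y z : Gp r → B}
    (h : ∀ μ, InH T μ → y μ = z μ) : lamb T y = lamb T z := by
  classical
  ext β
  refine Finset.sum_congr rfl fun μ hμ => ?_
  rw [h μ (by simpa using hμ)]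

open Classical in
theorem beta_point (hπ : ∀ i, w (Sum.inl i) = Finsupp.single i 2) {k : ℕ}
    {f i : Pol (Ix r ⊕ Gp r)} (hf : Hg (uw T) f k) (hi : Psi T w i = 0)
    (h : i - f ∈ Ord (uw T) (k + 1)) (τ : Ix r → ℚ) (a : Gp r → ℚ)
    (ha : Function.Injective (lamb T a)) :
    eval (Sum.elim (fun j => τ j ^ 2) fun μ => (∏ j, τ j ^ w (Sum.inr μ) j) *
      if InP T μ ∧ ¬InH T μ then 0 else a μ) f = 0 := by
  obtain ⟨g, hg, hgy⟩ := exists_comm_blk T (lamb T a) ha
    (y := fun μ => if InP T μ then 0 else a μ) (fun μ hμ => if_pos hμ)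
  let CC : ℚ →ₐ[ℚ] Polynomial ℚ := Algebra.ofId ℚ _
  let par : Par T → Polynomial ℚ := fun s =>
    if InH T s.1 then CC (a s.1) else Polynomial.X * CC (g s.1)
  let Φ : MvPolynomial (Ix r) (Pol (Par T)) →ₐ[ℚ] Polynomial ℚ :=
    aevalTower (aeval par) fun j => CC (τ j)
  let θ : Mat r ℚ := diagonal fun c => lamb T a (blk T c)
  let θ' : Mat r (Polynomial ℚ) := diagonal fun c => CC (lamb T a (blk T c))
  let g' : Mat r (Polynomial ℚ) := pm fun μ => CC (g μ)
  let G' : Mat r (Polynomial ℚ) := 1 + (Polynomial.X : Polynomial ℚ) • g'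
  let N : Mat r (Polynomial ℚ) := (g' * θ' - θ' * g') * G'.adjugate
  let ev0 : Polynomial ℚ →ₐ[ℚ] ℚ := Polynomial.aeval 0
  have hCC : ∀ q, ev0 (CC q) = q := fun q => by simp [ev0, CC]
  have hG : (aeval (R := ℚ) par).mapMatrix (Gm T) = G' := by
    rw [Gm, map_add, map_one, AlgHom.mapMatrix_apply, pm_map]
    simp only [G', g']
    rw [← pm_smul]
    congr 2
    ext1 μ
    by_cases h1 : InP T μ
    · simp [h1, hg μ h1]
    · have h2 : ¬InH T μ := fun h2 => h1 h2.inP
      simp [h1, h2, prm, par]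
  have hθ : (aeval (R := ℚ) par).mapMatrix (diagonal fun c => lamb T (prm T) (blk T c)) = θ' := by
    rw [AlgHom.mapMatrix_apply, diagonal_map (map_zero _)]
    congr 1
    ext1 c
    rw [lamb_map, lamb_map, lamb_congr T]
    intro μ hμ
    simp [prm, par, hμ]
  have hM : (aeval (R := ℚ) par).mapMatrix (Mm T) =
      G'.det • θ' + (Polynomial.X : Polynomial ℚ) • N := by
    rw [Mm, map_mul, map_mul, AlgHom.map_adjugate, hG, hθ]
    have h1 : G' * θ' = θ' * G' + (Polynomial.X : Polynomial ℚ) • (g' * θ' - θ' * g') := by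
      simp only [G', add_mul, mul_add, one_mul, mul_one, smul_mul_assoc, mul_smul_comm, smul_sub]
      abel
    rw [h1, add_mul, mul_assoc θ', mul_adjugate, smul_mul_assoc, mul_smul_comm, mul_one]
  have hG0 : ev0.mapMatrix G' = 1 := by
    rw [map_add, map_one, AlgHom.mapMatrix_apply, Matrix.map_smul' _ _ _ (map_mul ev0)]
    simp [ev0]
  have hθ0 : ev0.mapMatrix θ' = θ := by
    rw [AlgHom.mapMatrix_apply, diagonal_map (map_zero _)]
    simp only [hCC, θ]
  have hg0 : ev0.mapMatrix g' = pm g := by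
    rw [AlgHom.mapMatrix_apply, pm_map]
    simp only [hCC]
  have hN0 : ev0.mapMatrix N = pm fun μ => if InP T μ then 0 else a μ := by
    rw [map_mul, map_sub, map_mul, map_mul, AlgHom.map_adjugate, hG0, hθ0, hg0, adjugate_one,
      mul_one, hgy]
  let φ : Ix r ⊕ Gp r → Polynomial ℚ := Sum.elim (fun j => CC (τ j ^ 2)) fun μ =>
    CC (∏ j, τ j ^ w (Sum.inr μ) j) *
      if InH T μ then co (G'.det • θ' + (Polynomial.X : Polynomial ℚ) • N) μ else co N μ
  have hΦ : ∀ (D : Ix r →₀ ℕ) (y : Pol (Par T)),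
      Φ (monomial D y) = CC (∏ j, τ j ^ D j) * aeval par y := by
    intro D y
    rw [monomial_eq, map_mul, aevalTower_C, Finsupp.prod_fintype _ _ (by simp), map_prod, map_prod,
      mul_comm]
    simp [Φ]
  have h1 : aeval (fun v => Polynomial.X ^ uw T v * φ v) = Φ.comp (Psi T w) := by
    refine MvPolynomial.algHom_ext fun v => ?_
    rw [aeval_X, AlgHom.comp_apply, Psi, aeval_X, hΦ]
    rcases v with j | μ
    · simp only [uw, φ, Sum.elim_inl, pow_zero, one_mul, map_one, mul_one, hπ]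
      congr 1
      rw [Finset.prod_eq_single j] <;> simp +contextual [eq_comm]
    · simp only [uw, φ, Sum.elim_inr]
      rw [← co_map, ← AlgHom.mapMatrix_apply, hM]
      split_ifs with h2
      · simp
      · rw [co_add, co_smul, co_smul, Pi.add_apply, Pi.smul_apply, Pi.smul_apply,
          co_diag_blk T (fun β => CC (lamb T a β)) h2]
        simp only [smul_eq_mul]
        ring
  have h2 := eval_low hf h φ (by rw [h1, AlgHom.comp_apply, hi, map_zero])
  convert h2 using 3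
  ext v
  change _ = ev0 (φ v)
  rcases v with j | μ
  · simp only [φ, Sum.elim_inl, hCC]
  · simp only [φ, Sum.elim_inr, map_mul, hCC]
    congr 1
    by_cases h3 : InH T μ
    · rw [if_pos h3, if_neg (fun h4 => h4.2 h3), ← co_map, ← AlgHom.mapMatrix_apply, map_add,
        AlgHom.mapMatrix_apply, AlgHom.mapMatrix_apply, Matrix.map_smul' _ _ _ (map_mul ev0),
        Matrix.map_smul' _ _ _ (map_mul ev0), ev0.map_det, hG0, det_one, one_smul,
        ← AlgHom.mapMatrix_apply, hθ0]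
      have h4 : ev0 Polynomial.X = 0 := by simp [ev0]
      rw [h4, zero_smul, add_zero]
      simp only [θ]
      rw [← pm_H, co_pm, if_pos h3]
    · rw [if_neg h3, ← co_map, ← AlgHom.mapMatrix_apply, hN0, co_pm]
      simp [h3]

theorem sigma_beta (hπ : ∀ i, w (Sum.inl i) = Finsupp.single i 2) :
    inI (uw T) (RingHom.ker (Psi T w)) ≤
      Ideal.span ((fun v => (X v : Pol (Ix r ⊕ Gp r))) '' (Zs T : Set (Ix r ⊕ Gp r))) := by
  classical
  refine inI_le fun k f i hf hi h => ?_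
  let kill : Pol (Ix r ⊕ Gp r) →ₐ[ℚ] Pol (Ix r ⊕ Gp r) :=
    aeval fun v => if v ∈ Zs T then 0 else X v
  have hZ : ∀ μ, Sum.inr μ ∈ Zs T ↔ InP T μ ∧ ¬InH T μ := fun μ => by simp [Zs]
  have hZ' : ∀ j, Sum.inl j ∉ Zs T := fun j => by simp [Zs]
  have h1 : kill f = 0 := by
    refine funext_set (Sum.elim (fun _ => {x : ℚ | ∃ t : ℚ, t ≠ 0 ∧ x = t ^ 2})
      fun _ => Set.univ) ?_ ?_
    · rintro (j | μ)
      · refine Set.infinite_of_injective_forall_mem (f := fun n : ℕ => ((n + 1 : ℕ) : ℚ) ^ 2) ?_ ?_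
        · intro a b hab
          have := (pow_left_inj₀ (by positivity) (by positivity) two_ne_zero).1 hab
          exact_mod_cast (by simpa using this)
        · intro n
          exact ⟨_, by positivity, rfl⟩
      · exact Set.infinite_univ
    intro x hx
    choose τ hτ0 hτ using fun j => hx (Sum.inl j) (Set.mem_univ _)
    let tw : Gp r → ℚ := fun μ => ∏ j, τ j ^ w (Sum.inr μ) j
    have htw : ∀ μ, tw μ ≠ 0 := fun μ =>
      Finset.prod_ne_zero_iff.2 fun j _ => pow_ne_zero _ (hτ0 j)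
    let sc : Pol (Ix r ⊕ Gp r) →ₐ[ℚ] Pol (Gp r) :=
      aeval (Sum.elim (fun j => C (τ j ^ 2)) fun μ => C (tw μ) * X μ)
    have h2 : sc (kill f) * ∏ β, dd (lamb T fun μ => (X μ : Pol (Gp r))) β = 0 := by
      refine MvPolynomial.funext fun a => ?_
      rw [map_mul, map_zero, mul_eq_zero, or_iff_not_imp_right]
      intro h3
      rw [← coe_aeval_eq_eval] at h3 ⊢
      simp only [RingHom.coe_coe, map_prod, dd_map, lamb_map, aeval_X] at h3
      have h4 := beta_point T hπ hf hi h τ a (injective_of_prod_dd h3)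
      rw [← h4, ← coe_aeval_eq_eval]
      change ((aeval a).comp (sc.comp kill)) f = aeval _ f
      congr 1
      refine MvPolynomial.algHom_ext fun v => ?_
      rcases v with j | μ
      · simp [kill, sc, hZ']
      · by_cases h5 : InP T μ ∧ ¬InH T μ
        · simp [kill, hZ, h5]
        · simp only [kill, sc, AlgHom.comp_apply, aeval_X, hZ, if_neg h5, Sum.elim_inr, map_mul,
            aeval_C, Algebra.algebraMap_self, RingHom.id_apply, tw]
    have h3 : sc (kill f) = 0 :=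
      (mul_eq_zero.1 h2).resolve_right (rho_ne_zero T id Function.injective_id)
    have h4 := congrArg (aeval (R := ℚ) fun μ => x (Sum.inr μ) / tw μ) h3
    rw [map_zero] at h4 ⊢
    rw [← h4, ← coe_aeval_eq_eval]
    change aeval x (kill f) = ((aeval _).comp sc) (kill f)
    congr 1
    refine MvPolynomial.algHom_ext fun v => ?_
    rcases v with j | μ
    · simp [sc, hτ]
    · simp [sc, mul_div_cancel₀ _ (htw μ)]
  rw [← Ideal.Quotient.eq_zero_iff_mem, ← Ideal.Quotient.mkₐ_eq_mk ℚ]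
  have h2 : Ideal.Quotient.mkₐ ℚ (Ideal.span ((fun v => (X v : Pol (Ix r ⊕ Gp r))) ''
      (Zs T : Set (Ix r ⊕ Gp r)))) = (Ideal.Quotient.mkₐ ℚ _).comp kill := by
    refine MvPolynomial.algHom_ext fun v => ?_
    simp only [kill, AlgHom.comp_apply, aeval_X]
    split_ifs with h3
    · rw [map_zero]
      exact Ideal.Quotient.eq_zero_iff_mem.2 (Ideal.subset_span ⟨v, h3, rfl⟩)
    · rfl
  rw [h2, AlgHom.comp_apply, h1, map_zero]

theorem mem_tau0 {v : Ix r ⊕ Gp r} : v ∈ (tau0 T : Set (Ix r ⊕ Gp r)) ↔ uw T v = 0 := by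
  rw [Finset.mem_coe, tau0, Finset.mem_filter]
  simp

theorem hg_zero_of_supported {σ : Type} {u : σ → ℕ} {Y : Set σ} (hY : ∀ v ∈ Y, u v = 0)
    {f : Pol σ} (hf : f ∈ supported ℚ Y) : Hg u f 0 := by
  intro d hd
  rw [Finsupp.weight_apply]
  exact Finset.sum_eq_zero fun v hv => by
    simp [hY v (mem_supported_iff_support.1 hf d (mem_support_iff.2 hd) v hv)]

theorem sigma_gamma (hπ : ∀ i, w (Sum.inl i) = Finsupp.single i 2)
    (hα : ∀ μ, red (w (Sum.inr μ)) = μ) {I : Ideal (Pol (Ix r ⊕ Gp r))} (hI : Gr w I)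
    (h : ∀ c c', chp mtr (2 ^ T.card) (alpha r) c c' ∈ flat Sum.inl I) :
    ∀ v ∈ Zs T, ∃ ρ ∈ supported ℚ (tau0 T : Set (Ix r ⊕ Gp r)), ρ ≠ 0 ∧ ρ * X v ∈ inI (uw T) I := by
  classical
  intro v hv
  obtain ⟨μ, hμ, rfl⟩ := Finset.mem_map.1 hv
  obtain ⟨hμP, hμH⟩ : InP T μ ∧ ¬InH T μ := by simpa using hμ
  change ∃ ρ ∈ _, ρ ≠ 0 ∧ ρ * X (Sum.inr μ) ∈ _
  let l : (T → ZMod 2) → Pol (Ix r ⊕ Gp r) := lamb T fun ν => X (Sum.inr ν)
  let ρ : Pol (Ix r ⊕ Gp r) := ∏ β, dd l β
  let F : Pol (Ix r ⊕ Gp r) := co (diagonal (fun c => ∏ β ∈ Finset.univ.erase (blk T c), dd l β) *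
    chp mtr (2 ^ T.card) (alpha r)) μ
  have hF : F ∈ flat Sum.inl I := co_mem _ (fun c c' => by
    rw [diagonal_mul]
    exact Ideal.mul_mem_left _ _ (h c c')) μ
  have huX : ∀ ν, ¬InH T ν → Hg (uw T) (X (Sum.inr ν)) 1 := fun ν hν => by
    have := isWeightedHomogeneous_X ℚ (uw T) (Sum.inr ν)
    rwa [show uw T (Sum.inr ν) = 1 from if_neg hν] at this
  have hn : F - X (Sum.inr μ) * ρ ∈ Ord (uw T) 2 := by
    let q := Ideal.Quotient.mkₐ ℚ (Ord (uw T) 2)
    let y : Gp r → Pol (Ix r ⊕ Gp r) ⧸ Ord (uw T) 2 := fun ν =>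
      if InH T ν then 0 else q (X (Sum.inr ν))
    have h1 := chp_lin T (fun β => q (l β)) y (fun ν hν => if_pos hν) (fun ν ν' => by
      simp only [y]
      split_ifs with h1 h2
      · simp
      · simp
      · simp
      · rw [← map_mul]
        exact Ideal.Quotient.eq_zero_iff_mem.2
          (mul_mem_Ord (Hg.mem_Ord (huX ν h1)) (Hg.mem_Ord (huX ν' ‹_›)))) hμP
    have h2 : q.mapMatrix (alpha r) = diagonal (fun c => q (l (blk T c))) + pm y := by
      simp only [l, lamb_map]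
      rw [← pm_H, ← pm_add, AlgHom.mapMatrix_apply, alpha, pm_map]
      congr 1
      ext1 ν
      simp only [y, Pi.add_apply]
      split_ifs <;> simp
    have h3 := chp_map (q.mapMatrix : Mat r _ →ₐ[ℚ] Mat r _) (mtr_map q) (2 ^ T.card) (alpha r)
    rw [← h2, ← h3] at h1
    rw [← Ideal.Quotient.eq_zero_iff_mem]
    change q _ = 0
    rw [map_sub, sub_eq_zero, ← co_map, ← AlgHom.mapMatrix_apply, map_mul, map_mul,
      AlgHom.mapMatrix_apply, diagonal_map (map_zero _), map_prod]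
    simp only [map_prod, dd_map]
    rw [h1, mul_comm]
    simp only [y, if_neg hμH]
  let Y0 : Set (Ix r ⊕ Gp r) := Sum.inr '' {ν | InH T ν}
  have hl : ∀ β, l β ∈ supported ℚ Y0 := fun β =>
    lamb_mem T _ (fun ν hν => X_mem_supported.2 (Set.mem_image_of_mem _ hν)) β
  have hρ : ρ ∈ supported ℚ Y0 := prod_mem fun β _ => prod_mem fun β' _ => sub_mem (hl β) (hl β')
  obtain ⟨lam, hlam⟩ := exists_cmp_ne_zero (cw w) (rho_ne_zero T Sum.inr Sum.inr_injective)
  change cmp (cw w) lam ρ ≠ 0 at hlam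
  have hXμ : Hg (cw w) (X (Sum.inr μ)) μ := by
    have := isWeightedHomogeneous_X ℚ (cw w) (Sum.inr μ)
    rwa [show cw w (Sum.inr μ) = μ from hα μ] at this
  have hF' := hI.flat hπ F hF (μ + lam)
  have hn' := gr_Ord (cw w) (uw T) 2 _ hn (μ + lam)
  obtain ⟨D1, hD1⟩ := exists_hom hπ (hg_cmp (cw w) lam ρ)
  obtain ⟨D2, hD2⟩ := exists_hom hπ (hg_cmp (cw w) (μ + lam) (F - X (Sum.inr μ) * ρ))
  obtain ⟨E, hE, hEl⟩ := exists_red_ge' lam (D1 + D2)
  obtain ⟨ρ', hρ', hρp, hρs⟩ := hD1 E (le_self_add.trans hE) hEl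
  obtain ⟨n', hn1, hnp, hns⟩ := hD2 (w (Sum.inr μ) + E) ((le_add_self.trans hE).trans le_add_self)
    (by rw [red_add, hα, hEl])
  have hf1 : Hg w (X (Sum.inr μ) * ρ' + n') (w (Sum.inr μ) + E) :=
    ((isWeightedHomogeneous_X ℚ w _).mul hρ').add hn1
  have hf2 : X (Sum.inr μ) * ρ' + n' ∈ flat Sum.inl I := by
    rw [map_sub, cmp_mul_add hXμ] at hnp
    have := Ideal.add_mem _ hF' (Ideal.mem_sup_right
      (Ideal.add_mem _ (Ideal.mul_mem_left _ (X (Sum.inr μ)) hρp) hnp))
    convert this using 1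
    ring
  obtain ⟨k, hk⟩ := pw_mul_mem_of_flat hπ hI hf1 hf2
  have hinl : ∀ (k : Ix r →₀ ℕ), ∀ v ∈ (k.mapDomain (Sum.inl : Ix r → Ix r ⊕ Gp r)).support,
      v ∈ (tau0 T : Set (Ix r ⊕ Gp r)) := by
    intro k v hv
    obtain ⟨j, -, rfl⟩ := Finset.mem_image.1 (Finsupp.mapDomain_support hv)
    exact (mem_tau0 T).2 rfl
  have hs : pw Sum.inl k * ρ' ∈ supported ℚ (tau0 T : Set (Ix r ⊕ Gp r)) := by
    refine mul_mem (mem_supported_iff_support.2 fun d hd => ?_)
      (mem_supported_iff_support.2 fun d hd v hv => ?_)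
    · rw [Finset.mem_singleton.1 (support_monomial_subset hd)]
      exact hinl k
    · obtain ⟨d0, hd0, k', rfl⟩ := hρs d hd
      rcases Finset.mem_union.1 (Finsupp.support_add hv) with h1 | h1
      · exact hinl k' v h1
      · obtain ⟨ν, hν, rfl⟩ := mem_supported_iff_support.1 (cmp_supported (cw w) lam hρ) d0 hd0 v h1
        exact (mem_tau0 T).2 (if_pos hν)
  refine ⟨pw Sum.inl k * ρ', hs, mul_ne_zero (by simp [pw]) fun h0 => hlam ?_, ?_⟩
  · let δ : Pol (Ix r ⊕ Gp r) →ₐ[ℚ] Pol (Ix r ⊕ Gp r) :=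
      aeval (Sum.elim (fun _ => 1) fun ν => X (Sum.inr ν))
    have h1 := pid_le_ker Sum.inl δ (fun i => by simp [δ]) hρp
    rw [h0, zero_sub, RingHom.mem_ker, map_neg, neg_eq_zero] at h1
    have h2 : ∀ f ∈ supported ℚ Y0, δ f = f := by
      intro f hf
      induction hf using Algebra.adjoin_induction with
      | mem x hx =>
        obtain ⟨_, ⟨ν, -, rfl⟩, rfl⟩ := hx
        simp [δ]
      | algebraMap a => exact δ.commutes a
      | add p q _ _ hp hq => rw [map_add, hp, hq]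
      | mul p q _ _ hp hq => rw [map_mul, hp, hq]
    rw [← h2 _ (cmp_supported (cw w) lam hρ), h1]
  · have h1 : Hg (uw T) (pw Sum.inl k * ρ' * X (Sum.inr μ)) (0 + 1) :=
      (hg_zero_of_supported (fun v hv => (mem_tau0 T).1 hv) hs).mul (huX μ hμH)
    refine mem_inI h1 hk ?_
    have h2 : n' ∈ Ord (uw T) 2 := by
      intro d hd
      obtain ⟨d0, hd0, k', rfl⟩ := hns d hd
      rw [map_add]
      exact (hn' d0 hd0).trans (Nat.le_add_left _ _)
    convert Ideal.mul_mem_left _ (pw Sum.inl k) h2 using 1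
    ring

theorem sigma (hw : ∀ v, w v ≠ 0) (hπ : ∀ i, w (Sum.inl i) = Finsupp.single i 2)
    (hα : ∀ μ, red (w (Sum.inr μ)) = μ) :
    ∃ (I : Ideal (Pol (Ix r ⊕ Gp r))) (κ : ℕ), State X w Finset.univ I κ ∧
      κ * 2 ^ T.card ≤ 2 ^ r * 2 ^ r ∧
      ∀ c c', chp mtr (2 ^ T.card) (alpha r) c c' ∈ flat Sum.inl I := by
  classical
  refine ⟨_, _, ?_, card_Zs T, chp_alpha_mem T hπ hα⟩
  let ω : Ix r → R2 (Ix r) :=
    Sum.elim (fun i => X (Sum.inl i)) fun i => if i ∈ T then 0 else X (Sum.inr i)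
  refine degen ω hw (gr_ker_Psi T) (Zs T) (tau0 T) (bd_ker_Psi T) (uw T) (sigma_beta T hπ)
    (sigma_gamma T hπ hα (gr_ker_Psi T) (chp_alpha_mem T hπ hα)) ?_ ?_
  · rintro (j | μ) hv
    · rw [hπ, lin_single_two]
    · have hμ : InH T μ := by
        have h1 : uw T (Sum.inr μ) = 0 := (Finset.mem_filter.1 hv).2
        simpa [uw] using h1
      rw [lin_eq_sum, hα]
      refine Finset.sum_eq_zero ?_
      rintro (i | i) -
      · rw [show μ (Sum.inl i) = 0 from congrFun hμ.1 i, zero_smul]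
      · by_cases hi : i ∈ T
        · simp [ω, hi]
        · rw [show μ (Sum.inr i) = 0 from hμ.2 i hi, zero_smul]
  · intro v hv h0
    obtain ⟨μ, hμ, rfl⟩ := Finset.mem_map.1 hv
    obtain ⟨-, hμH⟩ : InP T μ ∧ ¬InH T μ := by simpa using hμ
    change lin ω (w (Sum.inr μ)) = 0 at h0
    rw [lin_eq_sum, hα] at h0
    have key : ∀ j, ω j = X j → μ j = 0 := by
      intro j hj
      have h1 := congrArg (eval (Pi.single j 1)) h0
      rw [map_sum, Finset.sum_eq_single j, map_zero] at h1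
      · simpa [hj] using h1
      · rintro (i | i) - hi
        · simp [ω, hi]
        · by_cases h2 : i ∈ T <;> simp [ω, hi, h2]
      · simp
    exact hμH ⟨funext fun i => key (Sum.inl i) rfl, fun i hi => key (Sum.inr i) (if_neg hi)⟩

end

end Vale.Agent.P199
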