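import Vale.Agent.P199.Sigma

/-! # P199: imposing finitely many reduced characteristic polynomial identities.

Plan. `stage_step`: the coefficients `a μ = co (e.ev mtr (gx r)) μ` are homogeneous of class `μ`
(`Expr.ev_mem` with `lam`); homogenize them (`exists_hom`, `exists_red_ge`), apply `sigma` with
the resulting weights and `pull`. -/

namespace Vale.Agent.P199

open MvPolynomial

variable {r : ℕ}

theorem wv_ne_zero (hr : 0 < r) (v : Vr r) : wv r v ≠ 0 := by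
  rcases v with i | s
  · exact Finsupp.single_ne_zero.2 two_ne_zero
  · intro h
    have := DFunLike.congr_fun h (Sum.inl ⟨0, hr⟩)
    simp [wv] at this

theorem wv_inl (i : Ix r) : wv r (Sum.inl i) = Finsupp.single i 2 := rfl

theorem cw_wv_inr (g : Fin 5) (μ : Gp r) : cw (wv r) (Sum.inr (g, μ)) = μ := by
  funext i
  have h2 : (2 : ZMod 2) = 0 := rfl
  simp [cw, red, wv, h2]

theorem inLam_gx (g : Fin 5) : (polCls (cw (wv r))).InLam (gx r g) := by
  refine Cls.inLam_pm _ fun μ => (polCls_hom_iff _ _ _).2 ?_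
  have := isWeightedHomogeneous_X ℚ (cw (wv r)) (Sum.inr (g, μ))
  rwa [cw_wv_inr] at this

theorem stage_step (hr : 0 < r) {P : Ideal (Pol (Vr r))} {c : ℕ}
    (h : State X (wv r) Finset.univ P c) (T : Finset (Fin r)) (e : Expr) :
    ∃ (P' : Ideal (Pol (Vr r))) (c' κ : ℕ), P'.IsPrime ∧ P ≤ P' ∧
      State X (wv r) Finset.univ P' c' ∧ c' ≤ c + κ ∧ κ * 2 ^ T.card ≤ 2 ^ r * 2 ^ r ∧
      ∀ a b, chp mtr (2 ^ T.card) (e.ev mtr (gx r)) a b ∈ flat Sum.inl P' := by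
  have : Nonempty (Ix r) := ⟨Sum.inl ⟨0, hr⟩⟩
  set M := e.ev mtr (gx r) with hM
  have hMl : (polCls (cw (wv r))).InLam M :=
    Expr.ev_mem ((polCls (cw (wv r))).lam.restrictScalars ℚ)
      (fun a ha => Cls.Zc_le _ (Cls.InLam.mtr_mem ha)) (fun g => inLam_gx g) e
  have hex : ∀ μ : Gp r, ∃ (D : Ix r →₀ ℕ) (f' : Pol (Vr r)), red D = μ ∧ D ≠ 0 ∧
      Hg (wv r) f' D ∧ f' - co M μ ∈ pid Sum.inl := by
    intro μ
    obtain ⟨D0, hD0⟩ := exists_hom (π := Sum.inl) wv_inl ((polCls_hom_iff _ _ _).1 (hMl μ))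
    obtain ⟨D, h1, h2, h3⟩ := exists_red_ge μ D0
    obtain ⟨f', h4, h5, -⟩ := hD0 D h1 h2
    exact ⟨D, f', h2, h3, h4, h5⟩
  choose D f' hD1 hD2 hf1 hf2 using hex
  let w' : Ix r ⊕ Gp r → Ix r →₀ ℕ := Sum.elim (fun i => Finsupp.single i 2) D
  have hw' : ∀ v, w' v ≠ 0 := by
    rintro (i | μ)
    · exact Finsupp.single_ne_zero.2 two_ne_zero
    · exact hD2 μ
  obtain ⟨I, κ, hI, hκ, hchp⟩ := sigma T (w := w') hw' (fun _ => rfl) hD1
  let g : Ix r ⊕ Gp r → Pol (Vr r) := Sum.elim (fun i => X (Sum.inl i)) f'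
  have hg : ∀ v, Hg (wv r) (g v) (w' v) := by
    rintro (i | μ)
    · exact isWeightedHomogeneous_X ℚ (wv r) (Sum.inl i)
    · exact hf1 μ
  obtain ⟨P', c', hP', hPP', hIP', hc', hS⟩ := pull (wv_ne_zero hr) hw' h hI g hg
  refine ⟨P', c', κ, hP', hPP', hS, hc', hκ, fun a b => ?_⟩
  have h1 : ∀ f ∈ flat Sum.inl I, aeval g f ∈ flat Sum.inl P' := by
    have : flat Sum.inl I ≤ (flat Sum.inl P').comap (aeval (R := ℚ) g) := by
      refine sup_le (fun f hf => Ideal.mem_sup_left (hIP' f hf)) (Ideal.span_le.2 ?_)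
      rintro _ ⟨i, rfl⟩
      refine Ideal.mem_sup_right (Ideal.subset_span ⟨i, ?_⟩)
      simp [g]
    exact fun f hf => this hf
  have h2 : (aeval (R := ℚ) g).mapMatrix (alpha r) = pm f' := by
    rw [AlgHom.mapMatrix_apply, alpha, pm_map]
    simp [g]
  have h3 : chp mtr (2 ^ T.card) (pm f') a b ∈ flat Sum.inl P' := by
    rw [← h2, ← chp_map _ (mtr_map _)]
    exact h1 _ (hchp a b)
  let q := Ideal.Quotient.mkₐ ℚ (flat (Sum.inl : Ix r → Vr r) P')
  have h4 : q.mapMatrix M = q.mapMatrix (pm f') := by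
    rw [← pm_co M, AlgHom.mapMatrix_apply, AlgHom.mapMatrix_apply, pm_map, pm_map]
    congr 1
    funext μ
    exact (Ideal.Quotient.eq.2 (Ideal.mem_sup_right (hf2 μ))).symm
  have h5 : q.mapMatrix (chp mtr (2 ^ T.card) M) = q.mapMatrix (chp mtr (2 ^ T.card) (pm f')) := by
    rw [chp_map _ (mtr_map _), chp_map _ (mtr_map _), h4]
  have h6 : q (chp mtr (2 ^ T.card) M a b) = q (chp mtr (2 ^ T.card) (pm f') a b) :=
    congrFun (congrFun h5 a) b
  exact Ideal.Quotient.eq_zero_iff_mem.1 (h6.trans (Ideal.Quotient.eq_zero_iff_mem.2 h3))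

theorem stage (f : ℕ → Expr) (n : ℕ) :
    ∃ (P : Ideal (Pol (Vr (n + 3)))) (c : ℕ), P.IsPrime ∧
      State X (wv (n + 3)) Finset.univ P c ∧ 4 * c ≤ 2 ^ (n + 3) * 2 ^ (n + 3) ∧
      ∀ i < n, ∀ a b, chp mtr (2 ^ (i + 3)) ((f i).ev mtr (gx (n + 3))) a b ∈ flat Sum.inl P := by
  have hr : 0 < n + 3 := by omega
  have key : ∀ j ≤ n, ∃ (P : Ideal (Pol (Vr (n + 3)))) (c : ℕ), P.IsPrime ∧
      State X (wv (n + 3)) Finset.univ P c ∧
      c * 2 ^ (j + 2) + 2 ^ (n + 3) * 2 ^ (n + 3) ≤ 2 ^ (n + 3) * 2 ^ (n + 3) * 2 ^ j ∧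
      ∀ i < j, ∀ a b, chp mtr (2 ^ (i + 3)) ((f i).ev mtr (gx (n + 3))) a b ∈ flat Sum.inl P := by
    intro j
    induction j with
    | zero =>
      intro _
      exact ⟨⊥, 0, Ideal.isPrime_bot, state_bot _ (wv_ne_zero hr), by simp, by simp⟩
    | succ j ih =>
      intro hj
      obtain ⟨P, c, -, hS, hc, hP⟩ := ih (by omega)
      obtain ⟨T, -, hT⟩ := Finset.exists_subset_card_eq (s := (Finset.univ : Finset (Fin (n + 3))))
        (n := j + 3) (by simp; omega)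
      obtain ⟨P', c', κ, h1, h2, h3, h4, h5, h6⟩ := stage_step hr hS T (f j)
      rw [hT] at h5 h6
      refine ⟨P', c', h1, h3, ?_, fun i hi a b => ?_⟩
      · generalize 2 ^ (n + 3) * 2 ^ (n + 3) = N at *
        have e1 : 2 ^ (j + 1 + 2) = 2 * 2 ^ (j + 2) := by ring
        have e2 : 2 ^ (j + 3) = 2 * 2 ^ (j + 2) := by ring
        have e3 : 2 ^ (j + 1) = 2 * 2 ^ j := by ring
        rw [e1, e3]
        rw [e2] at h5
        have := Nat.mul_le_mul_right (2 * 2 ^ (j + 2)) h4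
        nlinarith
      · rcases Nat.lt_succ_iff_lt_or_eq.1 hi with hi' | rfl
        · exact (sup_le_sup_right h2 _ : flat Sum.inl P ≤ flat Sum.inl P') (hP i hi' a b)
        · exact h6 a b
  obtain ⟨P, c, h1, h2, h3, h4⟩ := key n le_rfl
  refine ⟨P, c, h1, h2, ?_, h4⟩
  generalize 2 ^ (n + 3) * 2 ^ (n + 3) = N at *
  have e1 : c * 2 ^ (n + 2) = 4 * c * 2 ^ n := by ring
  rw [e1] at h3
  exact Nat.le_of_mul_le_mul_right ((Nat.le_add_right _ _).trans h3) (by positivity)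

end Vale.Agent.P199
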