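import Vale.Agent.P199.Len

/-! # P199: the abstract domain step.

`len_dvd`: strong induction on the length. Divide by the `Λ`-submodule of elements killed by
some `τ ∉ p` (length zero). If the quotient `M'` is nonzero take a nonzero `Λ`-submodule `N` of
minimal length. For normal `q` with `q * q = τ ∈ p`, `q N` is a submodule; if it is nonzero then
`q` is injective on `N` (kernel of length zero), so `τ` is injective on `N`, so `N / τ N` has
length zero, so `N` has length zero (`len_eq_zero_of_smul`), absurd. So `Q` kills `N`. For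
`0 ≠ m ∈ N` the annihilator of `m` is exactly `Q` (right multiplication by `a ∉ Q` is injective on
`Λ / Q`, which has finite length, so its cokernel has length zero and some `τ ∉ p` lies in
`Λ a + Q`). So `Λ m` has the length of `Λ / Q`; induct on `M' / Λ m`.
`domain_step`: if `a * b = 0` with both nonzero let `𝔩` be the left annihilator of `b`, of rank
`0 < ρ < 2 ^ k`. Then `2 * len (𝔩 / s 𝔩) = ρ * ℓ0` and `2 * len (Λ / s Λ) = 2 ^ k * ℓ0` with
`ℓ0 = len (R / σ)` (`len_comp`, `herbrand`), `len (𝔩 / s 𝔩) = t * δ` by `len_dvd`, so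
`2 ^ k * t = ρ * n` and `2 ^ k ∣ ρ`. -/

namespace Vale.Agent.P199

variable {R Λ : Type} [CommRing R] [Ring Λ] [Algebra R Λ] (p : Ideal R) [p.IsPrime]

theorem len_coker_eq_zero {M : Type} [AddCommGroup M] [Module R M] (f : M →ₗ[R] M)
    (hf : Function.Injective f) (hM : len p M ≠ ⊤) : len p (M ⧸ LinearMap.range f) = 0 := by
  have h := len_quot p (LinearMap.range f)
  rw [← len_congr p (LinearEquiv.ofInjective f hf)] at h
  exact (WithTop.add_left_cancel hM ((add_zero _).trans h)).symm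

theorem len_quot_ne_top [Module.Finite R Λ] (Q : Ideal Λ) (hQr : ∀ a ∈ Q, ∀ b, a * b ∈ Q)
    (hQp' : ∀ τ, algebraMap R Λ τ ∈ Q ↔ τ ∈ p) : len p (Λ ⧸ Q.restrictScalars R) ≠ ⊤ := by
  refine len_ne_top_of_smul p fun τ hτ m => ?_
  obtain ⟨x, rfl⟩ := Submodule.Quotient.mk_surjective _ m
  rw [← Submodule.Quotient.mk_smul, Submodule.Quotient.mk_eq_zero, Algebra.smul_def]
  exact hQr _ ((hQp' τ).2 hτ) x

theorem normal_smul_eq_zero [IsNoetherianRing R] {M : Type} [AddCommGroup M] [Module R M]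
    [Module Λ M] [IsScalarTower R Λ M] [Module.Finite R M]
    (htf : ∀ m : M, ∀ τ ∉ p, τ • m = 0 → m = 0) (N : Submodule Λ M) (hN : len p N ≠ ⊤)
    (hmin : ∀ N' : Submodule Λ M, N' ≠ ⊥ → len p N ≤ len p N') {q : Λ}
    (hq : ∀ b, ∃ b', b * q = q * b') {τ : R} (hτ : τ ∈ p) (hqq : q * q = algebraMap R Λ τ)
    {n : M} (hn : n ∈ N) : q • n = 0 := by
  by_contra hne
  let N' : Submodule Λ M :=
    { carrier := {y | ∃ x ∈ N, q • x = y}
      add_mem' := by
        rintro _ _ ⟨x, hx, rfl⟩ ⟨y, hy, rfl⟩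
        exact ⟨x + y, N.add_mem hx hy, smul_add _ _ _⟩
      zero_mem' := ⟨0, N.zero_mem, smul_zero _⟩
      smul_mem' := by
        rintro b _ ⟨x, hx, rfl⟩
        obtain ⟨b', hb⟩ := hq b
        exact ⟨b' • x, N.smul_mem _ hx, by rw [smul_smul, smul_smul, hb]⟩ }
  let ψ : N →ₗ[R] N' :=
    { toFun := fun x => ⟨q • x.1, x.1, x.2, rfl⟩
      map_add' := fun x y => Subtype.ext (smul_add q x.1 y.1)
      map_smul' := fun c x => Subtype.ext (smul_comm q c x.1) }
  have hs : Function.Surjective ψ := by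
    rintro ⟨_, x, hx, rfl⟩
    exact ⟨⟨x, hx⟩, rfl⟩
  have h1 := len_add_of_exact p (LinearMap.ker ψ).subtype ψ (Submodule.injective_subtype _) hs
    (LinearMap.exact_subtype_ker_map ψ)
  have h2 : len p N ≤ len p N' := hmin N' fun h => hne
    ((Submodule.eq_bot_iff _).1 h _ ⟨n, hn, rfl⟩)
  have h3 : len p (LinearMap.ker ψ) = 0 := by
    have h4 := ne_top_of_le_ne_top hN (len_le_of_surjective p ψ hs)
    rw [h1] at h2
    exact le_zero_iff.1 ((WithTop.add_le_add_iff_right h4).1 (h2.trans_eq (zero_add _).symm))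
  have h5 : ∀ x ∈ N, q • x = 0 → x = 0 := fun x hx h => by
    obtain ⟨σ, hσ, h6⟩ := (len_eq_zero_iff p).1 h3 ⟨⟨x, hx⟩, Subtype.ext h⟩
    exact htf x σ hσ (congrArg (fun y => y.1.1) h6)
  have : Module.Finite R N :=
    .of_injective (N.subtype.restrictScalars R) (Submodule.injective_subtype _)
  have h7 := len_eq_zero_of_smul p hτ (len_coker_eq_zero p (LinearMap.lsmul R N τ)
    ((injective_iff_map_eq_zero _).2 fun x hx => Subtype.ext (h5 _ x.2 (h5 _ (N.smul_mem q x.2) (by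
      rw [smul_smul, hqq, algebraMap_smul]
      exact congrArg Subtype.val hx)))) hN)
  obtain ⟨σ, hσ, h6⟩ := (len_eq_zero_iff p).1 h7 ⟨n, hn⟩
  exact hne (by rw [htf n σ hσ (congrArg Subtype.val h6), smul_zero])

theorem exists_sub [IsNoetherianRing R] [Module.Finite R Λ] (Q : Ideal Λ)
    (hQr : ∀ a ∈ Q, ∀ b, a * b ∈ Q) (hQp : ∀ a b, a * b ∈ Q → a ∈ Q ∨ b ∈ Q)
    (hQp' : ∀ τ, algebraMap R Λ τ ∈ Q ↔ τ ∈ p)
    (hgen : ∀ a ∈ Q, a ∈ AddSubgroup.closure
      {q : Λ | (∀ b, ∃ b', b * q = q * b') ∧ ∃ τ ∈ p, q * q = algebraMap R Λ τ})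
    (M : Type) [AddCommGroup M] [Module R M] [Module Λ M] [IsScalarTower R Λ M]
    [Module.Finite R M] [Nontrivial M] (hM : len p M ≠ ⊤) : ∃ S : Submodule Λ M, S ≠ ⊥ ∧
      (len p S = 0 ∨ len p S = len p (Λ ⧸ Q.restrictScalars R)) := by
  by_cases htf : ∀ m : M, ∀ τ ∉ p, τ • m = 0 → m = 0
  swap
  · push Not at htf
    obtain ⟨m, τ, hτ, h, hm⟩ := htf
    refine ⟨Submodule.span Λ {m}, by simpa using hm,
      .inl ((len_eq_zero_iff p).2 fun x => ⟨τ, hτ, Subtype.ext ?_⟩)⟩
    obtain ⟨a, ha⟩ := Submodule.mem_span_singleton.1 x.2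
    change τ • x.1 = 0
    rw [← ha, smul_comm, h, smul_zero]
  obtain ⟨N, hN0, hmin⟩ := (InvImage.wf (fun N : Submodule Λ M => len p N) wellFounded_lt).has_min
    {N | N ≠ ⊥} ⟨⊤, top_ne_bot⟩
  have hN : len p N ≠ ⊤ := ne_top_of_le_ne_top hM
    (len_le_of_injective p (N.subtype.restrictScalars R) (Submodule.injective_subtype _))
  obtain ⟨m, hm, hm0⟩ := Submodule.exists_mem_ne_zero_of_ne_bot hN0
  have hQm : ∀ a ∈ Q, a • m = 0 := fun a ha => by
    refine AddSubgroup.closure_induction (p := fun a _ => a • m = 0) ?_ (zero_smul _ _)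
      (fun x y _ _ hx hy => by rw [add_smul, hx, hy, add_zero])
      (fun x _ hx => by rw [neg_smul, hx, neg_zero]) (hgen a ha)
    rintro q ⟨hq, τ, hτ, hqq⟩
    exact normal_smul_eq_zero p htf N hN (fun N' h => not_lt.1 (hmin N' h)) hq hτ hqq hm
  let f : Λ →ₗ[R] Submodule.span Λ {m} :=
    { toFun := fun a => ⟨a • m, Submodule.mem_span_singleton.2 ⟨a, rfl⟩⟩
      map_add' := fun x y => Subtype.ext (add_smul x y m)
      map_smul' := fun c x => Subtype.ext (smul_assoc c x m) }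
  have hs : Function.Surjective f := fun x => by
    obtain ⟨a, ha⟩ := Submodule.mem_span_singleton.1 x.2
    exact ⟨a, Subtype.ext ha⟩
  have hk : Q.restrictScalars R = LinearMap.ker f := by
    refine le_antisymm (fun a ha => Subtype.ext (hQm a ha)) fun a ha => ?_
    by_contra hna
    have ham : a • m = 0 := congrArg Subtype.val ha
    have hle : Q.restrictScalars R ≤ (Q.restrictScalars R).comap (LinearMap.mulRight R a) :=
      fun x hx => hQr x hx a
    have h1 := len_coker_eq_zero p ((Q.restrictScalars R).mapQ (Q.restrictScalars R)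
      (LinearMap.mulRight R a) hle) ((injective_iff_map_eq_zero _).2 fun x hx => by
        obtain ⟨x, rfl⟩ := Submodule.Quotient.mk_surjective _ x
        rw [Submodule.mapQ_apply, Submodule.Quotient.mk_eq_zero] at hx
        exact (Submodule.Quotient.mk_eq_zero _).2 ((hQp x a hx).resolve_right hna))
      (len_quot_ne_top p Q hQr hQp')
    obtain ⟨τ, hτ, h2⟩ := (len_eq_zero_iff p).1 h1
      (Submodule.Quotient.mk (Submodule.Quotient.mk 1))
    rw [← Submodule.Quotient.mk_smul, Submodule.Quotient.mk_eq_zero] at h2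
    obtain ⟨x, hx⟩ := h2
    obtain ⟨x, rfl⟩ := Submodule.Quotient.mk_surjective _ x
    rw [Submodule.mapQ_apply, ← Submodule.Quotient.mk_smul, Submodule.Quotient.eq] at hx
    have h3 := hQm _ hx
    rw [LinearMap.mulRight_apply, sub_smul, mul_smul, ham, smul_zero, zero_sub, neg_eq_zero,
      smul_assoc, one_smul] at h3
    exact hm0 (htf m τ hτ h3)
  exact ⟨_, by simpa using hm0, .inr (len_congr p
    ((Submodule.quotEquivOfEq _ _ hk).trans (f.quotKerEquivOfSurjective hs))).symm⟩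

theorem len_dvd [IsNoetherianRing R] [Module.Finite R Λ] (Q : Ideal Λ)
    (hQr : ∀ a ∈ Q, ∀ b, a * b ∈ Q) (hQp : ∀ a b, a * b ∈ Q → a ∈ Q ∨ b ∈ Q)
    (hQp' : ∀ τ, algebraMap R Λ τ ∈ Q ↔ τ ∈ p)
    (hgen : ∀ a ∈ Q, a ∈ AddSubgroup.closure
      {q : Λ | (∀ b, ∃ b', b * q = q * b') ∧ ∃ τ ∈ p, q * q = algebraMap R Λ τ})
    (M : Type) [AddCommGroup M] [Module R M] [Module Λ M] [IsScalarTower R Λ M]
    [Module.Finite R M] (hM : len p M ≠ ⊤) :
    ∃ t : ℕ, len p M = t * len p (Λ ⧸ Q.restrictScalars R) := by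
  have : IsNoetherian Λ M := isNoetherian_of_tower R inferInstance
  suffices h : ∀ N : Submodule Λ M,
      ∃ t : ℕ, len p (M ⧸ N) = t * len p (Λ ⧸ Q.restrictScalars R) by
    rw [← len_congr p ((Submodule.quotEquivOfEqBot (⊥ : Submodule Λ M) rfl).restrictScalars R)]
    exact h ⊥
  intro N
  induction N using WellFoundedGT.induction with | _ N ih
  rcases subsingleton_or_nontrivial (M ⧸ N) with h | h
  · refine ⟨0, ?_⟩
    rw [Nat.cast_zero, zero_mul]
    exact (len_eq_zero_iff p).2 fun m =>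
      ⟨1, (Ideal.ne_top_iff_one p).1 (Ideal.IsPrime.ne_top inferInstance), Subsingleton.elim _ _⟩
  have : Module.Finite R (M ⧸ N) :=
    .of_surjective (N.mkQ.restrictScalars R) (Submodule.mkQ_surjective N)
  obtain ⟨S, hS0, hS⟩ := exists_sub p Q hQr hQp hQp' hgen (M ⧸ N) (ne_top_of_le_ne_top hM
    (len_le_of_surjective p (N.mkQ.restrictScalars R) (Submodule.mkQ_surjective N)))
  have hle : N ≤ S.comap N.mkQ := Submodule.le_comap_mkQ N S
  obtain ⟨t, ht⟩ := ih (S.comap N.mkQ) (lt_of_le_of_ne hle fun h => hS0 (by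
    rw [Submodule.eq_bot_iff]
    intro x hx
    obtain ⟨x, rfl⟩ := Submodule.Quotient.mk_surjective _ x
    rw [Submodule.Quotient.mk_eq_zero, h]
    exact hx))
  have h1 := len_add_of_exact p (S.subtype.restrictScalars R)
    ((Submodule.factor hle).restrictScalars R) (Submodule.injective_subtype _)
    (Submodule.factor_surjective hle) fun x => by
      obtain ⟨x, rfl⟩ := Submodule.Quotient.mk_surjective _ x
      change Submodule.Quotient.mk x = 0 ↔ _
      rw [Submodule.Quotient.mk_eq_zero]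
      exact ⟨fun h => ⟨⟨_, h⟩, rfl⟩, fun ⟨y, hy⟩ => by
        have := y.2
        rwa [show y.1 = Submodule.Quotient.mk x from hy] at this⟩
  rcases hS with hS | hS
  · exact ⟨t, by rw [h1, hS, ht, zero_add]⟩
  · exact ⟨t + 1, by rw [h1, hS, ht, Nat.cast_succ, add_mul, one_mul, add_comm]⟩

theorem two_mul_len [IsDomain R] {N : Type} [AddCommGroup N] [Module R N] [Module.Finite R N]
    (htf : ∀ (τ : R) (m : N), τ • m = 0 → τ = 0 ∨ m = 0)
    (hfin : ∀ τ : R, τ ≠ 0 → len p (R ⧸ Ideal.span {τ}) ≠ ⊤) {σ : R} (hσ : σ ≠ 0)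
    (φ : N →ₗ[R] N) (hφ : ∀ x, φ (φ x) = σ • x) :
    2 * len p (N ⧸ LinearMap.range φ) = Module.finrank R N * len p (R ⧸ Ideal.span {σ}) := by
  rw [← herbrand p htf hfin hσ, show LinearMap.lsmul R N σ = φ ∘ₗ φ from
    LinearMap.ext fun x => (hφ x).symm, len_comp p φ φ, two_mul]
  refine (injective_iff_map_eq_zero _).2 fun x hx => (htf σ x ?_).resolve_left hσ
  rw [← hφ, hx, map_zero]

theorem finrank_pos_of_ne [IsDomain R] {N : Type} [AddCommGroup N] [Module R N]
    [Module.Finite R N] (htf : ∀ (τ : R) (m : N), τ • m = 0 → τ = 0 ∨ m = 0) {x : N} (hx : x ≠ 0) :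
    0 < Module.finrank R N :=
  Nat.pos_of_ne_zero fun h => by
    obtain ⟨a, ha, h1⟩ := Module.finrank_eq_zero_iff.1 h x
    exact hx ((htf a x h1).resolve_left ha)

theorem domain_step [IsDomain R] [IsNoetherianRing R] [Module.Finite R Λ]
    (htf : ∀ (τ : R) (a : Λ), τ • a = 0 → τ = 0 ∨ a = 0) (k : ℕ)
    (hrk : Module.finrank R Λ = 2 ^ k) (Q : Ideal Λ)
    (hQr : ∀ a ∈ Q, ∀ b, a * b ∈ Q) (hQp : ∀ a b, a * b ∈ Q → a ∈ Q ∨ b ∈ Q)
    (hQp' : ∀ τ, algebraMap R Λ τ ∈ Q ↔ τ ∈ p)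
    (hgen : ∀ a ∈ Q, a ∈ AddSubgroup.closure
      {q : Λ | (∀ b, ∃ b', b * q = q * b') ∧ ∃ τ ∈ p, q * q = algebraMap R Λ τ})
    (s : Λ) (hs : ∀ b, ∃ b', b * s = s * b') (σ : R) (hσ : σ ≠ 0)
    (hss : s * s = algebraMap R Λ σ)
    (hfin : ∀ τ : R, τ ≠ 0 → len p (R ⧸ Ideal.span {τ}) ≠ ⊤) (n : ℕ) (hn : Odd n)
    (hlen : len p (Λ ⧸ LinearMap.range (LinearMap.mulLeft R s)) =
      n * len p (Λ ⧸ Q.restrictScalars R)) (a b : Λ) (hab : a * b = 0) : a = 0 ∨ b = 0 := by
  by_contra hne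
  push Not at hne
  let L : Submodule Λ Λ := LinearMap.ker (LinearMap.toSpanSingleton Λ Λ b)
  have : Module.Finite R L :=
    .of_injective (L.subtype.restrictScalars R) (Submodule.injective_subtype _)
  have htfL : ∀ (τ : R) (m : L), τ • m = 0 → τ = 0 ∨ m = 0 := fun τ m h =>
    (htf τ m.1 (congrArg Subtype.val h)).imp_right Subtype.ext
  have h0 : 0 < Module.finrank R L :=
    finrank_pos_of_ne htfL (x := ⟨a, hab⟩) fun h => hne.1 (congrArg Subtype.val h)
  have h1 : Module.finrank R L < 2 ^ k := by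
    have e1 := (LinearMap.ker (LinearMap.mulRight R b)).finrank_quotient_add_finrank
    rw [(LinearMap.mulRight R b).quotKerEquivRange.finrank_eq] at e1
    have e2 : 0 < Module.finrank R (LinearMap.range (LinearMap.mulRight R b)) :=
      finrank_pos_of_ne (fun τ m h => (htf τ m.1 (congrArg Subtype.val h)).imp_right Subtype.ext)
        (x := ⟨b, 1, one_mul b⟩) fun h => hne.2 (congrArg Subtype.val h)
    have e3 : Module.finrank R L = Module.finrank R (LinearMap.ker (LinearMap.mulRight R b)) := rfl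
    omega
  let φ : L →ₗ[R] L :=
    { toFun := fun x => s • x
      map_add' := fun x y => smul_add s x y
      map_smul' := fun c x => smul_comm s c x }
  have h2 := two_mul_len p htfL hfin hσ φ fun x => by
    change s • s • x = _
    rw [smul_smul, hss, algebraMap_smul]
  have h3 := two_mul_len p htf hfin hσ (LinearMap.mulLeft R s) fun x => by
    rw [LinearMap.mulLeft_apply, LinearMap.mulLeft_apply, ← mul_assoc, hss, Algebra.smul_def]
  let S : Submodule Λ L :=
    { toAddSubmonoid := (LinearMap.range φ).toAddSubmonoid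
      smul_mem' := by
        rintro c _ ⟨x, rfl⟩
        obtain ⟨c', hc⟩ := hs c
        exact ⟨c' • x, by
          change s • c' • x = c • s • x
          rw [smul_smul, smul_smul, hc]⟩ }
  have h4 : len p (L ⧸ LinearMap.range φ) = len p (L ⧸ S) :=
    len_congr p (Submodule.Quotient.restrictScalarsEquiv R S)
  have : Module.Finite R (L ⧸ S) :=
    .of_surjective (S.mkQ.restrictScalars R) (Submodule.mkQ_surjective S)
  obtain ⟨l, hl⟩ := ENat.ne_top_iff_exists.1 (hfin σ hσ)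
  obtain ⟨δ, hδ⟩ := ENat.ne_top_iff_exists.1 (len_quot_ne_top p Q hQr hQp')
  obtain ⟨t, ht⟩ := len_dvd p Q hQr hQp hQp' hgen (L ⧸ S) fun h => by
    rw [h4, h, ← hl, ← Nat.cast_mul, ENat.mul_top two_ne_zero] at h2
    exact ENat.top_ne_natCast _ h2
  have hδ0 : δ ≠ 0 := by
    rintro rfl
    obtain ⟨τ, hτ, h⟩ := (len_eq_zero_iff p).1 hδ.symm (Submodule.Quotient.mk 1)
    rw [← Submodule.Quotient.mk_smul, Submodule.Quotient.mk_eq_zero,
      ← Algebra.algebraMap_eq_smul_one] at h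
    exact hτ ((hQp' τ).1 h)
  rw [h4, ht, ← hl, ← hδ] at h2
  rw [hlen, hrk, ← hl, ← hδ] at h3
  have h5 : 2 * (t * δ) = Module.finrank R L * l := by exact_mod_cast h2
  have h6 : 2 * (n * δ) = 2 ^ k * l := by exact_mod_cast h3
  have h7 : 2 ^ k * t = Module.finrank R L * n :=
    Nat.eq_of_mul_eq_mul_left (show 0 < 2 * δ by omega) (by
      calc _ = 2 ^ k * (2 * (t * δ)) := by ring
        _ = Module.finrank R L * (2 * (n * δ)) := by rw [h5, h6]; ring
        _ = _ := by ring)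
  exact absurd (Nat.le_of_dvd h0 ((Nat.Coprime.pow_left k
    ((Nat.coprime_two_left).2 hn)).dvd_of_dvd_mul_right ⟨t, h7.symm⟩)) (not_le.2 h1)

end Vale.Agent.P199
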