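import Vale.Agent.P199.ClsApi
import Vale.Agent.P199.Step

/-! # P199: the domain step for the twisted algebra.

Plan. `zero_finite`: every homogeneous element has its square in `κ.zero` (`add_self_Gp`), so `B`
is integral and of finite type over `κ.zero`; `zero_noeth` by Artin-Tate (`fg_of_fg_of_fg`).
`finrank_eq`: the classes `μ` with a nonzero homogeneous element form a subgroup `H`; one nonzero
element for each `μ ∈ H` gives an independent family with torsion cokernel.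
`twPrime_step`: apply `domain_step` to `Λ = κ.lam`, `Q` transported along `κ.matE`,
`s` replaced by `κ.matE s`, `σ = eps μ μ • s * s`. -/

namespace Vale.Agent.P199

variable {r : ℕ} {B : Type} [CommRing B] [Algebra ℚ B] (κ : Cls (Gp r) B)

theorem Cls.mul_mem_zero {μ : Gp r} {a b : B} (ha : κ.c μ a = a) (hb : κ.c μ b = b) :
    a * b ∈ κ.zero := by
  have := κ.c_mul μ μ a b ha hb
  rwa [add_self_Gp] at this

theorem Cls.zero_finite [Algebra.FiniteType ℚ B] : Module.Finite κ.zero B := by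
  have h1 : Algebra.IsIntegral κ.zero B := ⟨fun b => by
    rw [← κ.sum_c b]
    refine IsIntegral.sum _ fun μ _ => IsIntegral.of_pow (n := 2) two_pos ?_
    rw [sq]
    exact isIntegral_algebraMap (R := κ.zero) (A := B)
      (x := ⟨_, κ.mul_mem_zero (κ.c_same μ b) (κ.c_same μ b)⟩)⟩
  have h2 : Algebra.FiniteType κ.zero B := Algebra.FiniteType.of_restrictScalars_finiteType ℚ _ _
  exact Algebra.IsIntegral.finite

theorem Cls.zero_noeth [Algebra.FiniteType ℚ B] : IsNoetherianRing κ.zero := by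
  have h1 : Algebra.FiniteType ℚ κ.zero :=
    ⟨fg_of_fg_of_fg ℚ κ.zero B Algebra.FiniteType.out κ.zero_finite.fg_top Subtype.val_injective⟩
  exact Algebra.FiniteType.isNoetherianRing ℚ κ.zero

theorem Cls.TwPrime.isPrime {κ : Cls (Gp r) B} {Q : Ideal B} (hQ : κ.TwPrime Q) :
    (Q.comap (algebraMap κ.zero B)).IsPrime := by
  refine ⟨Ideal.comap_ne_top _ hQ.1, fun {a b} hab => hQ.2 a b ?_⟩
  rw [κ.star_hom a.2 b.2, eps_zero_left, one_smul]
  exact hab

theorem Cls.tw_tf (hgd : ∀ μ ν a b, κ.c μ a = a → κ.c ν b = b → a * b = 0 → a = 0 ∨ b = 0)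
    (τ : κ.zero) (b : B) (h : τ • b = 0) : τ = 0 ∨ b = 0 := by
  refine or_iff_not_imp_left.mpr fun hτ => ?_
  rw [← κ.sum_c b]
  refine Finset.sum_eq_zero fun μ _ => (hgd 0 μ τ _ τ.2 (κ.c_same μ b) ?_).resolve_left
    fun h0 => hτ (Subtype.ext h0)
  have h1 : (τ : B) * b = 0 := h
  rw [← κ.c_zero_mul, h1, map_zero]

theorem Cls.tw_domain [Nontrivial B]
    (hgd : ∀ μ ν a b, κ.c μ a = a → κ.c ν b = b → a * b = 0 → a = 0 ∨ b = 0) :
    IsDomain κ.zero := by
  have : NoZeroDivisors κ.zero := ⟨fun {a b} h =>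
    (hgd 0 0 a b a.2 b.2 (congrArg Subtype.val h)).imp Subtype.ext Subtype.ext⟩
  exact NoZeroDivisors.to_isDomain _

theorem Cls.finrank_eq [Nontrivial B] [Algebra.FiniteType ℚ B]
    (hgd : ∀ μ ν a b, κ.c μ a = a → κ.c ν b = b → a * b = 0 → a = 0 ∨ b = 0) :
    ∃ k, Module.finrank κ.zero B = 2 ^ k := by
  classical
  have := κ.tw_domain hgd
  have := κ.zero_finite
  let H : AddSubgroup (Gp r) :=
    { carrier := {μ | ∃ b, κ.c μ b = b ∧ b ≠ 0}
      zero_mem' := ⟨1, κ.c_one, one_ne_zero⟩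
      add_mem' := fun {μ ν} ⟨a, ha, ha0⟩ ⟨b, hb, hb0⟩ =>
        ⟨a * b, κ.c_mul μ ν a b ha hb, fun h => (hgd μ ν a b ha hb h).elim ha0 hb0⟩
      neg_mem' := fun {μ} h => by rwa [neg_eq_of_add_eq_zero_left (add_self_Gp μ)] }
  have hH : ∀ μ : H, ∃ b, κ.c μ b = b ∧ b ≠ 0 := fun μ => μ.2
  choose e he he0 using hH
  have hli : LinearIndependent κ.zero e := by
    rw [Fintype.linearIndependent_iff]
    intro g hg i
    have h1 := congrArg (κ.c i) hg
    rw [map_sum, map_zero, Finset.sum_eq_single i] at h1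
    · have h2 : κ.c i (g i • e i) = g i • e i := by
        have := κ.c_zero_mul (g i) i (e i)
        rwa [he i] at this
      rw [h2] at h1
      exact (κ.tw_tf hgd _ _ h1).resolve_right (he0 i)
    · intro j _ hj
      have := κ.c_zero_mul (g j) i (e j)
      rw [κ.c_of_ne (he j) fun h => hj (Subtype.ext h).symm, mul_zero] at this
      exact this
    · simp
  have hq : Module.finrank κ.zero (B ⧸ Submodule.span κ.zero (Set.range e)) = 0 := by
    rw [Module.finrank_eq_zero_iff]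
    intro x
    obtain ⟨b, rfl⟩ := Submodule.Quotient.mk_surjective _ x
    have h1 : ∀ μ, ∃ a : κ.zero, a ≠ 0 ∧ a • κ.c μ b ∈ Submodule.span κ.zero (Set.range e) := by
      intro μ
      by_cases h0 : κ.c μ b = 0
      · exact ⟨1, one_ne_zero, by rw [h0, smul_zero]; exact zero_mem _⟩
      · let i : H := ⟨μ, _, κ.c_same μ b, h0⟩
        refine ⟨⟨e i * e i, κ.mul_mem_zero (he i) (he i)⟩, fun h => ?_, ?_⟩
        · exact he0 i (or_self_iff.mp (hgd _ _ _ _ (he i) (he i) (congrArg Subtype.val h)))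
        · have h2 := Submodule.smul_mem (Submodule.span κ.zero (Set.range e))
            ⟨e i * κ.c μ b, κ.mul_mem_zero (he i) (κ.c_same μ b)⟩
            (Submodule.subset_span ⟨i, rfl⟩)
          have h3 : e i * e i * κ.c μ b = e i * κ.c μ b * e i := by ring
          change e i * e i * κ.c μ b ∈ _
          rw [h3]
          exact h2
    choose a ha0 ha using h1
    refine ⟨∏ μ, a μ, Finset.prod_ne_zero_iff.mpr fun μ _ => ha0 μ, ?_⟩
    rw [← Submodule.Quotient.mk_smul, Submodule.Quotient.mk_eq_zero, ← κ.sum_c b, Finset.smul_sum]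
    refine Submodule.sum_mem _ fun μ _ => ?_
    rw [← Finset.prod_erase_mul _ _ (Finset.mem_univ μ), mul_smul]
    exact Submodule.smul_mem _ _ (ha μ)
  have h3 := (Submodule.span κ.zero (Set.range e)).finrank_quotient_add_finrank
  rw [hq, zero_add, finrank_span_eq_card hli] at h3
  have h4 := H.card_addSubgroup_dvd_card
  rw [Nat.card_eq_fintype_card, Nat.card_eq_fintype_card, card_Gp, ← pow_add] at h4
  obtain ⟨k, -, hk⟩ := (Nat.dvd_prime_pow Nat.prime_two).mp h4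
  exact ⟨k, h3 ▸ hk⟩

theorem Cls.c_twist (w : Gp r → ℚ) (b : B) (ν : Gp r) :
    κ.c ν (∑ μ, w μ • κ.c μ b) = w ν • κ.c ν b := by
  rw [map_sum, Finset.sum_eq_single ν, map_smul, κ.c_same]
  · intro μ _ h
    rw [map_smul, κ.c_ne ν μ b h.symm, smul_zero]
  · simp

theorem Cls.tw_normal {μ : Gp r} {g : B} (hg : κ.c μ g = g) (M : κ.lam) :
    ∃ M', M * κ.matE g = κ.matE g * M' := by
  obtain ⟨b, rfl⟩ := κ.matE.surjective M
  refine ⟨κ.matE (∑ ν, (eps μ ν * eps ν μ) • κ.c ν b), ?_⟩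
  rw [← κ.matE_star, ← κ.matE_star, κ.star_hom_left hg, κ.star_hom_right hg]
  congr 2
  refine Finset.sum_congr rfl fun ν _ => ?_
  rw [κ.c_twist, smul_smul, ← mul_assoc, eps_mul_self, one_mul]

theorem Cls.tw_sq {μ : Gp r} {g : B} (hg : κ.c μ g = g) : κ.matE g * κ.matE g =
    algebraMap κ.zero κ.lam ⟨eps μ μ • (g * g), κ.zero.smul_mem (κ.mul_mem_zero hg hg) _⟩ := by
  rw [← κ.matE_star, ← κ.matE_zero_coe, κ.star_hom hg hg]

theorem Cls.star_mem {Q : Ideal B} (hQ : κ.GrI Q) {a b : B} (h : a ∈ Q ∨ b ∈ Q) :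
    κ.star a b ∈ Q := by
  refine Q.sum_mem fun μ _ => Q.sum_mem fun ν _ => Q.smul_of_tower_mem _ ?_
  rcases h with h | h
  · exact Q.mul_mem_right _ (hQ a h μ)
  · exact Q.mul_mem_left _ (hQ b h ν)

theorem Cls.symm_mul (M N : κ.lam) :
    κ.matE.symm (M * N) = κ.star (κ.matE.symm M) (κ.matE.symm N) := by
  rw [LinearEquiv.symm_apply_eq, κ.matE_star, LinearEquiv.apply_symm_apply,
    LinearEquiv.apply_symm_apply]

/-- A graded ideal as an ideal of the twisted algebra. -/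
def Cls.twIdeal {Q : Ideal B} (hQ : κ.GrI Q) : Ideal κ.lam where
  carrier := {M | κ.matE.symm M ∈ Q}
  add_mem' := fun {a b} ha hb => by
    simp only [Set.mem_ofPred_eq, map_add] at ha hb ⊢
    exact Q.add_mem ha hb
  zero_mem' := by
    rw [Set.mem_ofPred_eq, LinearEquiv.map_zero]
    exact Q.zero_mem
  smul_mem' := fun c x hx => by
    simp only [Set.mem_ofPred_eq, smul_eq_mul, κ.symm_mul] at hx ⊢
    exact κ.star_mem hQ (Or.inr hx)

theorem Cls.mem_twIdeal {Q : Ideal B} (hQ : κ.GrI Q) {M : κ.lam} :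
    M ∈ κ.twIdeal hQ ↔ κ.matE.symm M ∈ Q := Iff.rfl

theorem Cls.len_tw (p : Ideal κ.zero) [p.IsPrime] (J : Ideal B) (N : Submodule κ.zero κ.lam)
    (h : ∀ b, κ.matE b ∈ N ↔ b ∈ J) : len p (κ.lam ⧸ N) = len p (B ⧸ J) := by
  refine (len_congr p ((Submodule.Quotient.restrictScalarsEquiv κ.zero J).symm.trans
    (Submodule.Quotient.equiv _ N κ.matE ?_))).symm
  ext M
  obtain ⟨b, rfl⟩ := κ.matE.surjective M
  rw [h]
  constructor
  · rintro ⟨x, hx, hxb⟩
    rwa [← κ.matE.injective hxb]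
  · intro hb
    exact ⟨b, hb, rfl⟩

omit [Algebra ℚ B] in
theorem len_base_le_tw {R : Type} [CommRing R] [Algebra R B] (p : Ideal R) [p.IsPrime] (τ : R)
    (h : ∀ x y, algebraMap R B x = algebraMap R B τ * y → τ ∣ x) :
    len p (R ⧸ Ideal.span {τ}) ≤ len p (B ⧸ Ideal.span {algebraMap R B τ}) := by
  refine len_le_of_injective p ((Ideal.span {τ}).liftQ
    (((Ideal.span {algebraMap R B τ}).mkQ.restrictScalars R) ∘ₗ Algebra.linearMap R B) ?_) ?_
  · intro x hx
    obtain ⟨y, rfl⟩ := Ideal.mem_span_singleton'.mp hx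
    exact (Submodule.Quotient.mk_eq_zero _).mpr
      (Ideal.mem_span_singleton'.mpr ⟨algebraMap R B y, (map_mul _ _ _).symm⟩)
  · rw [← LinearMap.ker_eq_bot]
    refine Submodule.ker_liftQ_eq_bot _ _ _ fun x hx => ?_
    obtain ⟨y, hy⟩ := Ideal.mem_span_singleton.mp ((Submodule.Quotient.mk_eq_zero _).mp hx)
    exact Ideal.mem_span_singleton.mpr (h x y hy)

theorem Cls.zero_dvd_tw (τ x : κ.zero) (y : B) (h1 : (x : B) = τ * y) : τ ∣ x := by
  refine ⟨⟨κ.c 0 y, κ.c_same 0 y⟩, Subtype.ext ?_⟩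
  have h2 : κ.c 0 (x : B) = x := x.2
  rw [← h2, h1, κ.c_zero_mul]
  rfl

theorem Cls.twPrime_step [Nontrivial B] [Algebra.FiniteType ℚ B]
    (hgd : ∀ μ ν a b, κ.c μ a = a → κ.c ν b = b → a * b = 0 → a = 0 ∨ b = 0)
    (Q : Ideal B) (hQg : κ.GrI Q) (hQ : κ.TwPrime Q) (p : Ideal κ.zero) [p.IsPrime]
    (hp : ∀ τ : κ.zero, τ ∈ p ↔ (τ : B) ∈ Q) (s : B) (μ : Gp r) (hs : κ.c μ s = s) (hs0 : s ≠ 0)
    (hfin : ∀ τ : κ.zero, τ ≠ 0 → len p (B ⧸ Ideal.span {(τ : B)}) ≠ ⊤) (n : ℕ) (hn : Odd n)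
    (hlen : len p (B ⧸ Ideal.span {s}) = n * len p (B ⧸ Q)) : κ.TwPrime ⊥ := by
  have := κ.tw_domain hgd
  have := κ.zero_finite
  have := κ.zero_noeth
  have : Module.Finite κ.zero κ.lam := Module.Finite.equiv κ.matE
  obtain ⟨k, hk⟩ := κ.finrank_eq hgd
  have key := domain_step (Λ := κ.lam) p ?_ k (κ.matE.finrank_eq ▸ hk) (κ.twIdeal hQg) ?_ ?_ ?_ ?_
    (κ.matE s) (κ.tw_normal hs) _ ?_ (κ.tw_sq hs)
    (fun τ hτ => ne_top_of_le_ne_top (hfin τ hτ) (len_base_le_tw p τ (κ.zero_dvd_tw τ))) n hn ?_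
  · refine ⟨bot_ne_top, fun a b hab => ?_⟩
    rw [Ideal.mem_bot] at hab
    have h1 := key (κ.matE a) (κ.matE b) (by rw [← κ.matE_star, hab, map_zero])
    simpa using h1
  · intro τ a h
    obtain ⟨b, rfl⟩ := κ.matE.surjective a
    rw [← map_smul, LinearEquiv.map_eq_zero_iff] at h
    simpa using κ.tw_tf hgd τ b h
  · intro a ha b
    rw [Cls.mem_twIdeal, κ.symm_mul]
    exact κ.star_mem hQg (Or.inl ha)
  · intro a b hab
    rw [Cls.mem_twIdeal, κ.symm_mul] at hab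
    exact hQ.2 _ _ hab
  · intro τ
    rw [Cls.mem_twIdeal, ← κ.matE_zero_coe, LinearEquiv.symm_apply_apply, hp]
  · intro a ha
    obtain ⟨f, rfl⟩ := κ.matE.surjective a
    rw [Cls.mem_twIdeal, LinearEquiv.symm_apply_apply] at ha
    rw [← κ.sum_c f, map_sum]
    refine AddSubgroup.sum_mem _ fun ν _ => AddSubgroup.subset_closure
      ⟨κ.tw_normal (κ.c_same ν f), _, (hp _).mpr ?_, κ.tw_sq (κ.c_same ν f)⟩
    exact Q.smul_of_tower_mem _ (Q.mul_mem_left _ (hQg f ha ν))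
  · intro h
    have h1 : eps μ μ • (s * s) = 0 := congrArg Subtype.val h
    have h2 := congrArg (eps μ μ • ·) h1
    simp only [smul_smul, eps_mul_self, one_smul, smul_zero] at h2
    exact hs0 (or_self_iff.mp (hgd _ _ _ _ hs hs h2))
  · rw [κ.len_tw p (Ideal.span {s}), κ.len_tw p Q, hlen]
    · intro b
      rw [Submodule.restrictScalars_mem, Cls.mem_twIdeal, LinearEquiv.symm_apply_apply]
    · intro b
      rw [Ideal.mem_span_singleton]
      constructor
      · rintro ⟨M, hM⟩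
        obtain ⟨t, rfl⟩ := κ.matE.surjective M
        rw [LinearMap.mulLeft_apply, ← κ.matE_star, κ.star_hom_left hs] at hM
        exact ⟨_, (κ.matE.injective hM).symm⟩
      · rintro ⟨t, rfl⟩
        refine ⟨κ.matE (∑ ν, eps μ ν • κ.c ν t), ?_⟩
        rw [LinearMap.mulLeft_apply, ← κ.matE_star, κ.star_hom_left hs]
        simp only [κ.c_twist, smul_smul, eps_mul_self, one_smul, κ.sum_c]

end Vale.Agent.P199
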